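import Vale.Agent.P082.Avg

/-! The tracial core: a bimodular retraction from bounded maps onto the algebra. -/

namespace Vale.Agent.P082

open scoped BigOperators ComplexOrder Topology
open Finset Filter Vale.Agent.P085 Vale.Agent.P104

namespace Tc

variable {A : Type*} [CStarAlgebra A] {T : Tr A} {C : (A →L[ℂ] A) → ℝ → ℝ}
  {ρ : (A →L[ℂ] A) → (A →L[ℂ] A)}

theorem stage (hT : WCompact T) (hmu : ∀ k : ℕ, ∃ g : Fin (2 ^ k) → Fin (2 ^ k) → A, IsMU 1 g)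
    (hC : ∀ S ε, 0 ≤ C S ε) (h : Good T C ρ) {J : Type} [Fintype J] (S : J → A →L[ℂ] A)
    {v : J → A} (hv : ∀ j, v j ∈ unitary A) {η : ℝ} (hη : 0 < η) :
    ∃ ρ', Good T C ρ' ∧ ∀ j, T.n2 (ρ' (S j) (v j) - ρ' (S j) 1 * v j) ^ 2 ≤ η := by
  obtain ⟨M, hM0, hM⟩ : ∃ M ≥ 0, ∀ j, ‖S j‖ ≤ M := ⟨∑ j, ‖S j‖, by positivity, fun j =>
    single_le_sum (f := fun j => ‖S j‖) (fun _ _ => norm_nonneg _) (mem_univ j)⟩
  have hη' : 0 < η / 3 := by positivity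
  obtain ⟨δ, hδ, h1⟩ := exists_pos_mul_lt hη' (4 * M ^ 2)
  obtain ⟨D, c, hc0, hc1, hc⟩ := kernel_scalar hδ
  obtain ⟨ε, hε, h2⟩ := exists_pos_mul_lt hη' (8 * D * M * (4 * D + 1))
  obtain ⟨K, hK⟩ : ∃ K, ∀ j, C (S j) ε ≤ K := ⟨∑ j, C (S j) ε, fun j =>
    single_le_sum (f := fun j => C (S j) ε) (fun _ _ => hC _ _) (mem_univ j)⟩
  obtain ⟨γ, hγ, h3⟩ := exists_pos_mul_lt hη' (8 * D * M * (4 * K * D + M * (1 + 2 * D) * (2 * D)))
  obtain ⟨k, hk⟩ := pow_unbounded_of_one_lt ((D : ℝ) * D ^ D / γ ^ 2) one_lt_two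
  obtain ⟨f, hf⟩ := hmu k
  obtain ⟨e, he⟩ : ∃ e : ZMod (2 ^ k) → ZMod (2 ^ k) → A, IsMU 1 e :=
    ⟨fun s t => f ((ZMod.finEquiv _).symm s) ((ZMod.finEquiv _).symm t), fun _ _ _ _ => by
      simp [hf.mul], fun _ _ => hf.star _ _,
      (Equiv.sum_comp (ZMod.finEquiv _).symm.toEquiv fun s => f s s).trans hf.sum⟩
  obtain ⟨ρ₁, hρ₁, hm₁⟩ := exists_modular he h
  choose u hu hue huv using fun j => exists_entries he (v j)
  let g := fun i : Option (J × ZMod (2 ^ k) × ZMod (2 ^ k) × Fin 4) => i.elim 1 fun i => u i.1 i.2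
  have hg : ∀ i, g i ∈ unitary A := by rintro (_ | i); exacts [one_mem _, hu _ _]
  have hge : ∀ i s t, e s t * g i = g i * e s t := by
    rintro (_ | i) s t; exacts [by simp [g], hue _ _ s t]
  have hg' : ∀ i, Sum.elim g (fun i => star (g i)) i ∈ unitary A := by
    rintro (i | i); exacts [hg i, Unitary.star_mem (hg i)]
  have hge' : ∀ i s t, e s t * Sum.elim g (fun i => star (g i)) i =
      Sum.elim g (fun i => star (g i)) i * e s t := by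
    rintro (i | i) s t
    exacts [hge i s t, by simpa [he.star] using congrArg star (hge i t s).symm]
  obtain ⟨ρ₂, hρ₂, hH, hm₂⟩ := exists_harm hT hρ₁ hg'
  refine ⟨ρ₂, hρ₂, fun j => ?_⟩
  have hn : ‖ρ₂ (S j)‖ ≤ M :=
    (ContinuousLinearMap.opNorm_le_bound _ (norm_nonneg _) (hρ₂.norm _)).trans (hM j)
  refine (estimate he (fun a s t => hm₂ _ (fun i => hge' i s t) (hm₁ s t) _ a) hg' hge'
    (Equiv.sumComm _ _) (by rintro (i | i) <;> simp) (hH _) (hv j) (Submodule.span_mono ?_ (huv j))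
    hδ.le hc0 hc1 hc hε (hC _ ε) (hρ₂.mod _ ε hε) hγ ?_).trans (le_trans (b := 4 * M ^ 2 * δ +
      8 * D * M * (2 * (ε * (2 * D) + K * (2 * D * γ)) + M * (1 + 2 * D) * (2 * D * γ) + ε))
      ?_ (by linarith))
  · rintro _ ⟨i, s, t, rfl⟩
    exact ⟨.inl (some (j, i)), s, t, rfl⟩
  · rw [div_lt_iff₀ (by positivity)] at hk
    push_cast
    linarith
  · have := hC (S j) ε
    gcongr
    exact hK j

theorem retraction (hT : WCompact T)
    (hmu : ∀ k : ℕ, ∃ g : Fin (2 ^ k) → Fin (2 ^ k) → A, IsMU 1 g) :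
    ∃ ρ : (A →L[ℂ] A) → (A →L[ℂ] A), Pre ρ ∧ ρ (.id ℂ A) 1 = 1 ∧ ∀ S a, ρ S a = ρ S 1 * a := by
  obtain ⟨C, ρ₀, hC, h₀⟩ := exists_good T hT
  obtain ⟨𝒰, h𝒰⟩ := exists_ultra (X := {ρ // Good T C ρ})
    (fun (i : (A →L[ℂ] A) × unitary A × ℕ) ρ => T.n2 (ρ.1 i.1 i.2.1 - ρ.1 i.1 1 * i.2.1) ≤
      1 / ((i.2.2 : ℝ) + 1)) fun F => by
    obtain ⟨ρ, h1, h2⟩ := stage hT hmu hC h₀ (fun j => (F.equivFin.symm j).1.1)
      (fun j => (F.equivFin.symm j).1.2.1.2) (η := (1 / ((F.sup fun i => i.2.2 : ℕ) + 1)) ^ 2)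
      (by positivity)
    refine ⟨⟨ρ, h1⟩, fun i hi => ?_⟩
    have h3 := h2 (F.equivFin ⟨i, hi⟩)
    rw [Equiv.symm_apply_apply] at h3
    refine (abs_le_of_sq_le_sq' h3 (by positivity)).2.trans ?_
    gcongr
    exact le_sup (f := fun i : (A →L[ℂ] A) × unitary A × ℕ => i.2.2) hi
  obtain ⟨ρ, h1, h2⟩ := Good.lim T hT 𝒰 (F := Subtype.val) Subtype.prop
  refine ⟨ρ, h1.toPre, h1.one 1, fun S a => ?_⟩
  have h3 : ∀ v : unitary A, ρ S v = ρ S 1 * v := fun v => sub_eq_zero.1 (T.eq_zero_of_n2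
    (le_antisymm (ge_of_tendsto' tendsto_one_div_add_atTop_nhds_zero_nat fun n =>
      ((h2 S v).sub ((h2 S 1).mul_right v)).n2_le (h𝒰 (S, v, n))) (T.n2_nonneg _)))
  obtain ⟨u, c, rfl, -⟩ := CStarAlgebra.exists_sum_four_unitary a
  simp only [map_sum, map_smul, h3, mul_sum, mul_smul_comm]

end Tc

theorem exists_retraction {R : Type*} [CStarAlgebra R] [PartialOrder R] [StarOrderedRing R]
    (τ : R →ₚ[ℂ] ℂ) (htr : ∀ x y, τ (x * y) = τ (y * x))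
    (hf : ∀ x, τ (star x * x) = 0 → x = 0)
    (hlim : ∀ U : Ultrafilter R, Metric.closedBall (0 : R) 1 ∈ U →
      ∃ y, ‖y‖ ≤ 1 ∧ ∀ z, Tendsto (fun x => τ (z * x)) U (𝓝 (τ (z * y))))
    (hmu : ∀ k : ℕ, ∃ g : Fin (2 ^ k) → Fin (2 ^ k) → R, IsMU 1 g) :
    ∃ Ψ : (R →L[ℂ] R) →ₗ[ℂ] R, (∀ T, ‖Ψ T‖ ≤ ‖T‖) ∧
      (∀ a T, Ψ ((ContinuousLinearMap.mul ℂ R a).comp T) = a * Ψ T) ∧
      (∀ a T, Ψ (T.comp (ContinuousLinearMap.mul ℂ R a)) = Ψ T * a) ∧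
      Ψ (ContinuousLinearMap.id ℂ R) = 1 := by
  by_cases h0 : τ 1 = 0
  · have := subsingleton_of_zero_eq_one (hf 1 (by simpa using h0)).symm
    exact ⟨0, by simp, by simp, by simp, Subsingleton.elim _ _⟩
  let T : Tr R :=
    { τ := (τ 1)⁻¹ • τ.toLinearMap
      one := by simpa using inv_mul_cancel₀ h0
      pos := fun x => mul_nonneg (inv_nonneg.2 (map_nonneg τ zero_le_one))
        (map_nonneg τ (star_mul_self_nonneg x))
      comm := fun x y => by simp [htr x y]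
      faithful := fun x hx => hf x (by simpa [h0] using hx) }
  have hT : Tc.WCompact T := fun 𝒰 C hC => by
    have hp : 0 < |C| + 1 := by positivity
    obtain ⟨y, -, hy⟩ := hlim (𝒰.map fun x => ((|C| + 1 : ℝ) : ℂ)⁻¹ • x) (hC.mono fun x hx => by
      rw [mem_closedBall_zero_iff, norm_smul, norm_inv, Complex.norm_real, Real.norm_eq_abs,
        abs_of_pos hp, inv_mul_le_one₀ hp]
      linarith [le_abs_self C])
    refine ⟨((|C| + 1 : ℝ) : ℂ) • y, fun z => ?_⟩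
    have h1 := (Complex.continuous_re.tendsto _).comp
      ((hy (((|C| + 1 : ℝ) : ℂ) • star z)).const_mul (τ 1)⁻¹)
    have h2 : ((|C| + 1 : ℝ) : ℂ) ≠ 0 := Complex.ofReal_ne_zero.2 hp.ne'
    rw [Ultrafilter.coe_map, tendsto_map'_iff] at h1
    convert h1 using 2
    · simp only [Function.comp_apply, smul_mul_smul_comm, mul_inv_cancel₀ h2, one_smul]
      rfl
    · rw [smul_mul_assoc, ← mul_smul_comm]
      rfl
  obtain ⟨ρ, hρ, h1, h2⟩ := Tc.retraction hT hmu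
  have := T.nontrivial
  exact ⟨{ toFun := fun S => ρ S 1, map_add' := fun S S' => hρ.add S S' 1
           map_smul' := fun c S => hρ.smul c S 1 }, fun S => by simpa using hρ.norm S 1,
    fun a S => hρ.left a S 1, fun a S => (hρ.right a S 1).trans (by rw [mul_one, h2]; rfl), h1⟩

end Vale.Agent.P082
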