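import Vale.Agent.P082.Lim
import Vale.Agent.P082.Core
import Vale.Agent.P104.Trace
import Vale.Agent.P104.Tracial
import Vale.Agent.P104.GoodVN
import Vale.Agent.P104.CoreA

/-! Retractions on abelian and on finite corners. -/

open scoped InnerProductSpace ComplexOrder Topology ComplexStarModule
open Filter

namespace Vale.Agent.P082

open Vale.Agent.P104

theorem norm_sum_proj_le {B : Type*} [CStarAlgebra B] {κ : Type*} [Fintype κ] {g y : κ → B}
    (hg : ∀ a, CP (g a)) (ho : Pairwise fun a b => g a * g b = 0) (hs : ∑ a, g a = 1) {K : ℝ}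
    (hK : 0 ≤ K) (hy : ∀ a, ‖y a‖ ≤ K) : ‖∑ a, y a * g a‖ ≤ K := by
  classical
  let := CStarAlgebra.spectralOrder B
  have := CStarAlgebra.spectralOrderedRing B
  have h1 : star (∑ a, y a * g a) * ∑ a, y a * g a ≤ (K ^ 2 : ℝ) • (1 : B) := by
    rw [star_sum, Finset.sum_mul_sum, ← hs, Finset.smul_sum]
    refine Finset.sum_le_sum fun a _ => ?_
    rw [Finset.sum_eq_single a (fun b _ hb => ?_) (by simp)]
    · refine (gram_mul_le _ _).trans ?_
      rw [(hg a).1.isSelfAdjoint.star_eq, (hg a).1.isIdempotentElem.eq]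
      exact smul_le_smul_of_nonneg_right (pow_le_pow_left₀ (norm_nonneg _) (hy a) 2)
        (hg a).1.nonneg
    · rw [star_mul, (hg a).1.isSelfAdjoint.star_eq, mul_assoc, (hg a).2, mul_assoc, mul_assoc,
        ho hb, mul_zero, mul_zero]
  rw [← Algebra.algebraMap_eq_smul_one, ← CStarAlgebra.norm_le_iff_le_algebraMap _ (sq_nonneg _)
    (star_mul_self_nonneg _), CStarRing.norm_star_mul_self, ← sq] at h1
  exact (abs_le_of_sq_le_sq' h1 hK).2

theorem exists_trace' {B : Type*} [CStarAlgebra B] [PartialOrder B] [StarOrderedRing B]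
    (ψ : B →ₚ[ℂ] ℂ) (h : ∀ x, (ψ (x * star x)).re ≤ 2 * (ψ (star x * x)).re) :
    ∃ τ : B →ₚ[ℂ] ℂ, (∀ x y, τ (x * y) = τ (y * x)) ∧
      ∀ c, 0 ≤ c → (ψ c).re ≤ (τ c).re ∧ (τ c).re ≤ 2 * (ψ c).re := by
  obtain ⟨T, hT⟩ := TraceAux.exists_T h
  obtain ⟨f, hf⟩ : ∃ f : B →ₗ[ℂ] ℂ, ∀ x, f x = (T (ℜ x) : ℂ) + Complex.I * (T (ℑ x) : ℂ) := by
    refine ⟨{ toFun := fun x => (T (ℜ x) : ℂ) + Complex.I * (T (ℑ x) : ℂ)
              map_add' := fun x y => ?_
              map_smul' := fun c x => ?_ }, fun _ => rfl⟩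
    · simp only [map_add, Complex.ofReal_add]
      ring
    · simp only [realPart_smul, imaginaryPart_smul, map_add, map_sub, map_smul, smul_eq_mul,
        RingHom.id_apply]
      apply Complex.ext <;> simp
  have hpos : ∀ x, 0 ≤ x → f x = (TraceAux.tt ψ x : ℝ) := by
    intro x hx
    have h1 : ((ℜ x : selfAdjoint B) : B) = x := hx.isSelfAdjoint.coe_realPart
    rw [hf, hx.isSelfAdjoint.imaginaryPart, map_zero, hT _ (h1.symm ▸ hx), h1]
    simp
  refine ⟨PositiveLinearMap.mk₀ f fun x hx => ?_, fun x y => ?_, fun c hc => ⟨?_, ?_⟩⟩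
  · rw [hpos x hx]
    exact Complex.zero_le_real.2 (TraceAux.tt_nonneg h hx)
  · change f (x * y) = f (y * x)
    have h0 : ∀ a, f (star a * a) = f (a * star a) := fun a => by
      rw [hpos _ (star_mul_self_nonneg a), hpos _ (mul_star_self_nonneg a), TraceAux.tt_comm h]
    have h1 := h0 (star x + y)
    have h2 := h0 (star x + Complex.I • y)
    have h3 := h0 (star x)
    have h4 := h0 y
    simp only [star_add, star_star, star_smul, add_mul, mul_add, map_add, smul_mul_assoc,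
      mul_smul_comm, map_smul, smul_eq_mul, Complex.star_def, Complex.conj_I] at h1 h2 h3 h4
    have hI : Complex.I * Complex.I = -1 := Complex.I_mul_I
    linear_combination (1 / 2 : ℂ) * h1 - (Complex.I / 2) * h2 - ((1 - Complex.I) / 2) * h3
      - ((1 - Complex.I) / 2) * h4 - (1 / 2 : ℂ) * (f (star y * star x) - f (star x * star y)
        - (f (x * y) - f (y * x)) + Complex.I * (f (star y * y) - f (y * star y))) * hI
  · change (ψ c).re ≤ (f c).re
    rw [hpos c hc, Complex.ofReal_re]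
    exact TraceAux.le_tt h hc
  · change (f c).re ≤ _
    rw [hpos c hc, Complex.ofReal_re]
    refine TraceAux.tt_le hc fun l hl => (TraceAux.rs_le h l).trans ?_
    rw [max_eq_left zero_le_two]
    exact mul_le_mul_of_nonneg_left (TraceAux.re_mono ψ hl) zero_le_two

theorem isRet_of {B : Type*} [CStarAlgebra B] {Φ : (B →L[ℂ] B) →ₗ[ℂ] B}
    (h1 : ∀ T, ‖Φ T‖ ≤ ‖T‖) (h2 : ∀ a T, Φ ((lm a).comp T) = a * Φ T)
    (h3 : ∀ a T, Φ (T.comp (lm a)) = Φ T * a) (h4 : Φ (ContinuousLinearMap.id ℂ B) = 1) :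
    IsRet Bd 1 Φ :=
  ⟨fun T _ _ h => (h1 T).trans h, fun T _ _ _ a => h2 a T, fun T _ _ _ a => h3 a T, fun c => by
    rw [← (lm c).comp_id, h2, h4, mul_one, one_mul]⟩

variable {L : Type*} [NormedAddCommGroup L] [InnerProductSpace ℂ L] [CompleteSpace L]
  {B : Type*} [CStarAlgebra B] {M : VonNeumannAlgebra L} {e : L →L[ℂ] L}
  {i : B →⋆ₙₐ[ℂ] (L →L[ℂ] L)}

theorem abel_part (hi : Corner M e i) (he : IsAbel M e) (s : Finset B) {ε : ℝ} (hε : 0 < ε) :
    ∃ P : (B →L[ℂ] B) →L[ℂ] B, ‖P‖ ≤ 1 ∧ (∀ a T, P ((lm a).comp T) = a * P T) ∧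
      (∀ a ∈ s, IsSelfAdjoint a → ∀ T, ‖P (T.comp (lm a)) - P T * a‖ ≤ 2 * ‖T‖ * ε) ∧
      P (ContinuousLinearMap.id ℂ B) = 1 := by
  classical
  have hee : ∀ b, e * i b * e = i b := fun b => by rw [hi.el, hi.er]
  obtain ⟨κ, _, g, hg, ho, hsum, hc⟩ := g_partition (hi.one ▸ hi.mem 1) hi.proj he hε
    ((s.filter IsSelfAdjoint).image i) (by
      intro y hy
      obtain ⟨b, hb, rfl⟩ := Finset.mem_image.1 hy
      exact ⟨hi.mem b, hee b, (Finset.mem_filter.1 hb).2.map i⟩)
  choose G hG using fun a => hi.surj (g a) (hg a).1 (by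
    rw [(hg a).2.2, proj_flip' hi.proj (hg a).2.1 (hg a).2.2])
  have hcp : ∀ a, CP (G a) := fun a => ⟨⟨hi.inj (by
      rw [map_mul, hG]; exact (hg a).2.1.isIdempotentElem), hi.inj (by
      rw [map_star, hG]; exact (hg a).2.1.isSelfAdjoint)⟩, fun x => hi.inj (by
    rw [map_mul, map_mul, hG]
    exact g_proj_comm he hi.proj (hg a).1 (hg a).2.1 (hg a).2.2 (hi.mem x) (hee x))⟩
  have hGo : Pairwise fun a b => G a * G b = 0 := fun a b hab => hi.inj (by
    rw [map_mul, hG, hG, ho hab, map_zero])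
  have hGs : ∑ a, G a = 1 := hi.inj (by simp only [map_sum, hG, hsum, hi.one])
  have hn : ∀ a, ‖G a‖ ≤ 1 := fun a => (hcp a).1.norm_le
  let P : (B →L[ℂ] B) →ₗ[ℂ] B :=
    { toFun := fun T => ∑ a, T (G a) * G a
      map_add' := fun T T' => by simp [add_mul, Finset.sum_add_distrib]
      map_smul' := fun c T => by simp [Finset.smul_sum] }
  have hP : ∀ T, ‖P T‖ ≤ 1 * ‖T‖ := fun T => by
    rw [one_mul]
    exact norm_sum_proj_le hcp hGo hGs (norm_nonneg _) fun a => by
      simpa using T.le_of_opNorm_le_of_le le_rfl (hn a)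
  refine ⟨P.mkContinuous 1 hP, P.mkContinuous_norm_le zero_le_one hP, fun a T => ?_,
    fun a ha hsa T => ?_, ?_⟩
  · simp [P, Finset.mul_sum, mul_assoc]
  · choose c hc' using hc (i a) (Finset.mem_image_of_mem i (Finset.mem_filter.2 ⟨ha, hsa⟩))
    have h1 : ∀ k, ‖a * G k - (c k : ℂ) • G k‖ ≤ ε := fun k => by
      rw [← hi.norm_eq, map_sub, map_mul, map_smul, hG]
      exact hc' k
    have h2 : P.mkContinuous 1 hP (T.comp (lm a)) - P.mkContinuous 1 hP T * a =
        ∑ k, (T (a * G k - (c k : ℂ) • G k) - T (G k) * (a * G k - (c k : ℂ) • G k)) * G k := by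
      simp only [LinearMap.mkContinuous_apply, P, LinearMap.coe_mk, AddHom.coe_mk, Finset.sum_mul,
        ← Finset.sum_sub_distrib]
      refine Finset.sum_congr rfl fun k _ => ?_
      simp only [ContinuousLinearMap.comp_apply, ContinuousLinearMap.mul_apply', map_sub, map_smul,
        sub_mul, mul_sub, mul_assoc, smul_mul_assoc, mul_smul_comm,
        (hcp k).1.isIdempotentElem.eq, (hcp k).2 a]
      abel
    rw [h2]
    refine norm_sum_proj_le hcp hGo hGs (by positivity) fun k => (norm_sub_le _ _).trans ?_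
    have h3 := T.le_of_opNorm_le_of_le le_rfl (h1 k)
    have h4 := T.le_of_opNorm_le_of_le le_rfl (hn k)
    have h5 := (norm_mul_le (T (G k)) _).trans
      (mul_le_mul h4 (h1 k) (norm_nonneg _) (by positivity))
    linarith
  · simp [P, (hcp _).1.isIdempotentElem.eq, hGs]
where
  proj_flip' {p q : L →L[ℂ] L} (hp : IsStarProjection p) (hq : IsStarProjection q)
      (h : p * q = q) : q * p = q := by
    simpa [hp.isSelfAdjoint.star_eq, hq.isSelfAdjoint.star_eq] using congrArg star h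

theorem ret_abel (hi : Corner M e i) (he : IsAbel M e) :
    ∃ Φ : (B →L[ℂ] B) →ₗ[ℂ] B, IsRet Bd 1 Φ := by
  classical
  choose P h1 h2 h3 h4 using fun x : Finset B × ℕ =>
    abel_part hi he x.1 (Nat.one_div_pos_of_nat (n := x.2))
  obtain ⟨S, s1, s2⟩ := hi.exists_wl_clm (Ultrafilter.of (atTop : Filter (Finset B × ℕ))) P
    (Eventually.of_forall h1)
  have key : ∀ a, IsSelfAdjoint a → ∀ T, S (T.comp (lm a)) = S T * a := fun a ha T => by
    rw [← sub_eq_zero, ← norm_le_zero_iff]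
    refine ge_of_tendsto' (f := fun n : ℕ => 2 * ‖T‖ * (1 / ((n : ℝ) + 1))) (by
      simpa using tendsto_one_div_add_atTop_nhds_zero_nat.const_mul (2 * ‖T‖)) fun n => ?_
    refine ((s2 _).sub ((s2 T).mul_right a)).norm_le hi.inj ?_
    refine Eventually.filter_mono (Ultrafilter.of_le _) ?_
    filter_upwards [eventually_ge_atTop (({a} : Finset B), n)] with x hx
    refine (h3 x a (by simpa using hx.1) ha T).trans ?_
    exact mul_le_mul_of_nonneg_left (Nat.one_div_le_one_div hx.2) (by positivity)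
  refine ⟨S, isRet_of (fun T => by simpa using S.le_of_opNorm_le s1 T) (fun a T => ?_)
    (fun a T => ?_) ?_⟩
  · exact (s2 _).unique hi.inj (((s2 T).mul_left a).congr fun x => (h2 x a T).symm)
  · have e1 := key _ (ℜ a).2 T
    have e2 := key _ (ℑ a).2 T
    rw [← realPart_add_I_smul_imaginaryPart a]
    simp only [lm, map_add, map_smul, ContinuousLinearMap.comp_add, ContinuousLinearMap.comp_smul,
      mul_add, mul_smul_comm, ContinuousLinearMap.coe_coe] at e1 e2 ⊢
    rw [e1, e2]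
  · exact (s2 _).unique hi.inj ((WL.const i _ 1).congr fun x => (h4 x).symm)

theorem ret_fin (hi : Corner M e i) (he : IsFin M e) :
    ∃ Φ : (B →L[ℂ] B) →ₗ[ℂ] B, IsRet Bd 1 Φ := by
  obtain ⟨η, -, hcyc, htr, hmu⟩ := he
  let := CStarAlgebra.spectralOrder B
  have := CStarAlgebra.spectralOrderedRing B
  have hee : ∀ b, e * i b * e = i b := fun b => by rw [hi.el, hi.er]
  obtain ⟨ψ, -, hψ⟩ := exists_vec i η
  obtain ⟨τ, hτ1, hτ2⟩ := exists_trace' ψ fun b => by
    have h1 := hψ (star b)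
    rw [star_star] at h1
    rw [h1, hψ, map_star]
    exact htr _ (hi.mem b) (hee b)
  have hsep : ∀ b, i b η = 0 → b = 0 := fun b hb => hi.inj (ContinuousLinearMap.ext fun ξ => by
    rw [map_zero, zero_apply, ← norm_le_zero_iff]
    refine le_of_forall_pos_le_add fun ε hε => ?_
    obtain ⟨s, hs1, hs2⟩ := hcyc ξ (ε / (‖b‖ + 1)) (by positivity)
    have e1 : i b ξ = i b (e ξ - s η) := by
      rw [map_sub, ← mul_apply_eq_comp, hi.er, ← mul_apply_eq_comp,
        ← (commute_of_mem M hs1 (hi.mem b)).eq, mul_apply_eq_comp, hb, map_zero, sub_zero]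
    rw [e1, zero_add]
    refine ((i b).le_of_opNorm_le_of_le (hi.norm_eq b).le hs2).trans ?_
    rw [← mul_div_assoc, div_le_iff₀ (by positivity)]
    nlinarith)
  have hn2 : ∀ b, n2 τ b ≤ 2 * ‖i b η‖ := fun b => by
    refine (abs_le_of_sq_le_sq' ?_ (by positivity)).2
    have := (hτ2 _ (star_mul_self_nonneg b)).2
    rw [hψ] at this
    rw [n2_sq, rl_apply]
    nlinarith [sq_nonneg ‖i b η‖]
  have hrep : ∀ z, ∃ ζ : L, ∀ x, τ (z * x) = ⟪ζ, i x η⟫_ℂ := fun z => by
    let E : B →ₗ[ℂ] L :=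
      { toFun := fun x => i x η
        map_add' := fun x y => by simp
        map_smul' := fun c x => by simp }
    have hE : Function.Injective E := (injective_iff_map_eq_zero E).2 hsep
    let f : LinearMap.range E →ₗ[ℂ] ℂ :=
      ((τ : B →ₗ[ℂ] ℂ) ∘ₗ LinearMap.mulLeft ℂ z) ∘ₗ (LinearEquiv.ofInjective E hE).symm
    have hf : ∀ x, f (LinearEquiv.ofInjective E hE x) = τ (z * x) := fun x => by simp [f]
    obtain ⟨g, hg, -⟩ := exists_extension_norm_eq (LinearMap.range E)
      (f.mkContinuous (n2 τ (star z) * 2) fun v => by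
        obtain ⟨x, rfl⟩ := (LinearEquiv.ofInjective E hE).surjective v
        have h1 := norm_inner_le_norm (𝕜 := ℂ) (τ.toPreGNS (star z)) (τ.toPreGNS x)
        rw [τ.preGNS_inner_def, τ.ofPreGNS_toPreGNS, τ.ofPreGNS_toPreGNS, star_star] at h1
        rw [hf, mul_assoc]
        exact h1.trans (mul_le_mul_of_nonneg_left (hn2 x) (norm_nonneg _)))
    refine ⟨(InnerProductSpace.toDual ℂ L).symm g, fun x => ?_⟩
    rw [InnerProductSpace.toDual_symm_apply, ← hf]
    exact (hg (LinearEquiv.ofInjective E hE x)).symm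
  obtain ⟨Ψ, h1, h2, h3, h4⟩ := exists_retraction τ hτ1 (fun x hx => hsep x (by
      have := (hτ2 _ (star_mul_self_nonneg x)).1
      rw [hψ, hx, Complex.zero_re] at this
      exact norm_eq_zero.1 (pow_eq_zero_iff two_ne_zero |>.1 (le_antisymm this (sq_nonneg _)))))
    (fun U hU => by
      obtain ⟨y, hy1, hy2⟩ := hi.exists_wl U id (C := 1)
        (Filter.mem_of_superset hU fun x hx => by simpa using hx)
      refine ⟨y, hy1, fun z => ?_⟩
      obtain ⟨ζ, hζ⟩ := hrep z
      simpa only [hζ, id] using hy2 ζ η)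
    fun k => by
      obtain ⟨g, hgM, hg⟩ := hmu k
      have hl : ∀ s t, e * g s t = g s t := fun s t => by
        rw [← hg.sum, Finset.sum_mul, Finset.sum_eq_single s
          (fun r _ hr => by rw [hg.mul, if_neg hr]) (by simp), hg.mul, if_pos rfl]
      have hr : ∀ s t, g s t * e = g s t := fun s t => by
        rw [← hg.sum, Finset.mul_sum, Finset.sum_eq_single t
          (fun r _ hr => by rw [hg.mul, if_neg hr.symm]) (by simp), hg.mul, if_pos rfl]
      choose G hG using fun s t => hi.surj _ (hgM s t) (by rw [hl, hr])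
      refine ⟨G, fun s t s' t' => hi.inj ?_, fun s t => hi.inj ?_, hi.inj ?_⟩
      · rw [map_mul, hG, hG, hg.mul]
        split_ifs
        · rw [hG]
        · rw [map_zero]
      · rw [map_star, hG, hG, hg.star]
      · rw [map_sum, hi.one, ← hg.sum]
        exact Finset.sum_congr rfl fun t _ => hG t t
  exact ⟨Ψ, isRet_of h1 h2 h3 h4⟩

end Vale.Agent.P082
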