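import Vale.Agent.P082.Kernel

/-! Random phases and a flat matrix make returns to a block unlikely. -/

namespace Vale.Agent.P082.Tc

open scoped BigOperators ComplexConjugate
open Finset Vale.Agent.P085 Vale.Agent.P104

variable {A : Type*} [CStarAlgebra A] (T : Tr A)

section

variable {α : Type} [Fintype α] [DecidableEq α]

theorem part_of_mu {e : α → α → A} (h : IsMU 1 e) : Part fun s => e s s :=
  ⟨fun s t => by rw [h.mul]; split_ifs with hst <;> simp [hst], fun s => h.star s s, h.sum⟩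

omit [DecidableEq α] in
theorem sum_cons {V : Type*} [AddCommMonoid V] {k : ℕ} (G : (Fin (k + 1) → α) → V) :
    ∑ f, G f = ∑ a, ∑ f : Fin k → α, G (Fin.cons a f) := by
  rw [← Fintype.sum_prod_type']
  exact (Fintype.sum_equiv (Fin.consEquiv fun _ => α) _ _ fun _ => rfl).symm

/-- The word along a path. -/
def wd (M : α → A) {k : ℕ} (f : Fin k → α) : A := (List.ofFn fun i => M (f i)).prod

omit [Fintype α] [DecidableEq α] in
theorem wd_cons (M : α → A) {k : ℕ} (a : α) (f : Fin k → α) :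
    wd M (Fin.cons a f : Fin (k + 1) → α) = M a * wd M f := by
  simp [wd, List.ofFn_succ]

theorem pow_expand {q : ℕ} (ψ : AddChar (α → ZMod q) ℂ) (M : α → A) (k : ℕ) :
    (∑ t, ψ (Pi.single t 1) • M t) ^ k =
      ∑ f : Fin k → α, ψ (∑ i, Pi.single (f i) 1) • wd M f := by
  induction k with
  | zero => simp [wd]
  | succ k ih =>
    rw [pow_succ', ih, sum_cons, sum_mul]
    refine sum_congr rfl fun a _ => ?_
    rw [mul_sum]
    refine sum_congr rfl fun f _ => ?_
    simp [wd_cons, Fin.sum_univ_succ, ψ.map_add_eq_mul, smul_smul, mul_comm]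

omit [DecidableEq α] in
theorem parseval {M : α → A} (hM : ∀ a, ∑ t, T.n2 (M t * a) ^ 2 = T.n2 a ^ 2) (a : A) (k : ℕ) :
    ∑ f : Fin k → α, T.n2 (wd M f * a) ^ 2 = T.n2 a ^ 2 := by
  induction k with
  | zero => simp [wd]
  | succ k ih =>
    rw [sum_cons, sum_comm, ← ih]
    simp only [wd_cons, mul_assoc, hM]

theorem expect_paths {q k : ℕ} [NeZero q] (hk : k < q) (c : (Fin k → α) → A) :
    𝔼 ψ : AddChar (α → ZMod q) ℂ, T.n2 (∑ f, ψ (∑ i, Pi.single (f i) 1) • c f) ^ 2 ≤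
      k ^ k * ∑ f, T.n2 (c f) ^ 2 := by
  rw [expect_char]
  obtain ⟨g, hg⟩ : ∃ g : (Fin k → α) → (α → ZMod q), ∀ f, ∑ i, Pi.single (f i) 1 = g f :=
    ⟨_, fun _ => rfl⟩
  have hcount : ∀ f, ((univ.filter fun f' => g f = g f').card : ℝ) ≤ k ^ k := fun f => by
    have h1 : (univ.filter fun f' => g f = g f') ⊆ Fintype.piFinset fun _ => univ.image f := by
      intro f' hf'
      rw [Fintype.mem_piFinset]
      intro i
      by_contra hi
      have h2 := congrFun (mem_filter.1 hf').2 (f' i)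
      rw [← hg, ← hg, Finset.sum_apply, Finset.sum_apply, sum_eq_zero fun j _ =>
        Pi.single_eq_of_ne (fun h => hi (mem_image.2 ⟨j, mem_univ _, h.symm⟩)) _] at h2
      simp only [Pi.single_apply, sum_boole] at h2
      have h3 := Nat.le_of_dvd (card_pos.2 ⟨i, by simp⟩) ((ZMod.natCast_eq_zero_iff _ _).1 h2.symm)
      have h4 := card_filter_le (univ : Finset (Fin k)) fun j => f' i = f' j
      rw [card_univ, Fintype.card_fin] at h4
      omega
    have h2 := card_le_card h1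
    rw [Fintype.card_piFinset, prod_const, card_univ, Fintype.card_fin] at h2
    have h3 : (univ.image f).card ≤ k := card_image_le.trans (by simp)
    exact_mod_cast h2.trans (Nat.pow_le_pow_left h3 k)
  simp only [hg]
  have h1 : ∀ f f', (if g f = g f' then T.ip (c f) (c f') else 0) ≤
      (if g f = g f' then T.n2 (c f) ^ 2 / 2 else 0) +
        if g f' = g f then T.n2 (c f') ^ 2 / 2 else 0 := fun f f' => by
    by_cases h : g f = g f'
    · simp only [h, if_true]
      nlinarith [T.ip_le (c f) (c f'), sq_nonneg (T.n2 (c f) - T.n2 (c f'))]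
    · simp [h, Ne.symm h]
  have h2 : ∑ f, ∑ f', (if g f = g f' then T.n2 (c f) ^ 2 / 2 else 0) ≤
      k ^ k * (∑ f, T.n2 (c f) ^ 2) / 2 := by
    rw [mul_sum, sum_div]
    refine sum_le_sum fun f _ => ?_
    rw [← sum_filter, sum_const, nsmul_eq_mul, mul_div_assoc]
    exact mul_le_mul_of_nonneg_right (hcount f) (by positivity)
  refine (sum_le_sum fun f _ => sum_le_sum fun f' _ => h1 f f').trans ?_
  simp only [sum_add_distrib]
  nth_rw 2 [sum_comm]
  linarith

/-- Diagonal unitary of phases. -/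
noncomputable def lam {q : ℕ} (p : α → A) (ψ : AddChar (α → ZMod q) ℂ) : A :=
  ∑ t, ψ (Pi.single t 1) • p t

theorem lam_unitary {q : ℕ} [NeZero q] {p : α → A} (hp : Part p) (ψ : AddChar (α → ZMod q) ℂ) :
    lam p ψ ∈ unitary A := by
  have := block_unitary hp (u := fun t => ψ (Pi.single t 1) • (1 : A))
    (fun t => char_unitary ψ _ (one_mem _)) fun s t => by simp
  simpa [lam] using this

theorem returns {q k : ℕ} [NeZero q] (hk : k + 1 < q) {p : α → A} (hp : Part p) {F V : A}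
    (hF : F ∈ unitary A) (hV : V ∈ unitary A) {N : ℝ}
    (hflat : ∀ s t a, T.n2 (p s * (F * (p t * a))) ^ 2 = N⁻¹ * T.n2 (p t * a) ^ 2) :
    𝔼 ψ : AddChar (α → ZMod q) ℂ, ∑ s, T.n2 (p s * ((F * lam p ψ * V) ^ (k + 1) * p s)) ^ 2 ≤
      (k + 1) ^ (k + 1) * N⁻¹ := by
  have hM : ∀ a, ∑ t, T.n2 (F * (p t * V) * a) ^ 2 = T.n2 a ^ 2 := fun a => by
    simp only [mul_assoc, n2_unit_mul T hF]
    rw [sum_left T hp, n2_unit_mul T hV]
  have h1 : ∑ s, ((k + 1) ^ (k + 1) * N⁻¹ : ℝ) * T.n2 (p s * 1) ^ 2 = (k + 1) ^ (k + 1) * N⁻¹ := by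
    rw [← mul_sum, sum_left T hp, T.n2_one, one_pow, mul_one]
  rw [expect_sum_comm, ← h1]
  refine sum_le_sum fun s _ => ?_
  have e : ∀ ψ : AddChar (α → ZMod q) ℂ, p s * ((F * lam p ψ * V) ^ (k + 1) * p s) =
      ∑ f : Fin (k + 1) → α, ψ (∑ i, Pi.single (f i) 1) •
        (p s * (wd (fun t => F * (p t * V)) f * p s)) := fun ψ => by
    have : F * lam p ψ * V = ∑ t, ψ (Pi.single t 1) • (F * (p t * V)) := by
      simp [lam, mul_sum, sum_mul, mul_assoc]
    simp only [this, pow_expand, sum_mul, mul_sum, smul_mul_assoc, mul_smul_comm]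
  simp only [e]
  refine (expect_paths T hk _).trans_eq ?_
  rw [sum_cons, sum_comm]
  simp only [wd_cons, mul_assoc, hflat, ← mul_sum, sum_left T hp, n2_unit_mul T hV]
  rw [parseval T hM, mul_one]
  push_cast
  ring

end

variable {N : ℕ} [NeZero N] {e : ZMod N → ZMod N → A}

/-- The Fourier matrix. -/
noncomputable def four (e : ZMod N → ZMod N → A) : A :=
  ∑ s, ∑ t, (((√N)⁻¹ : ℝ) * ZMod.stdAddChar (s * t) : ℂ) • e s t

theorem four_cut (h : IsMU 1 e) (s t : ZMod N) :
    e s s * four e * e t t = (((√N)⁻¹ : ℝ) * ZMod.stdAddChar (s * t) : ℂ) • e s t := by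
  simp [four, mul_sum, sum_mul, h.mul]

theorem norm_coef (a : ZMod N) : ‖(((√N)⁻¹ : ℝ) * ZMod.stdAddChar a : ℂ)‖ ^ 2 = (N : ℝ)⁻¹ := by
  rw [norm_mul, AddChar.norm_apply, mul_one, Complex.norm_real, Real.norm_eq_abs, sq_abs, inv_pow,
    Real.sq_sqrt (Nat.cast_nonneg _)]

theorem four_flat (h : IsMU 1 e) (s t : ZMod N) (a : A) :
    T.n2 (e s s * (four e * (e t t * a))) ^ 2 = (N : ℝ)⁻¹ * T.n2 (e t t * a) ^ 2 := by
  rw [← mul_assoc, ← mul_assoc, four_cut h, smul_mul_assoc, T.n2_smul, mul_pow, norm_coef,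
    T.n2_sq, T.n2_sq, ip_mul_left, ip_mul_left, h.star, h.star, ← mul_assoc, ← mul_assoc, h.mul,
    h.mul, if_pos rfl, if_pos rfl]

theorem four_unitary (h : IsMU 1 e) : four e ∈ unitary A := by
  have hN : (N : ℂ) ≠ 0 := Nat.cast_ne_zero.2 (NeZero.ne N)
  have key : ∀ s t : ZMod N, ∑ r, (((√N)⁻¹ : ℝ) * ZMod.stdAddChar (r * s) : ℂ) *
      conj (((√N)⁻¹ : ℝ) * ZMod.stdAddChar (r * t) : ℂ) = if s = t then 1 else 0 := fun s t => by
    have e1 : ∀ r, (((√N)⁻¹ : ℝ) * ZMod.stdAddChar (r * s) : ℂ) *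
        conj (((√N)⁻¹ : ℝ) * ZMod.stdAddChar (r * t) : ℂ) =
        (N : ℂ)⁻¹ * ZMod.stdAddChar (r * (s - t)) := fun r => by
      rw [map_mul (starRingEnd ℂ), Complex.conj_ofReal, ← AddChar.map_neg_eq_conj, mul_mul_mul_comm,
        ← AddChar.map_add_eq_mul, ← Complex.ofReal_mul, ← mul_inv,
        Real.mul_self_sqrt (Nat.cast_nonneg _), mul_sub, sub_eq_add_neg]
      simp
    simp only [e1, ← mul_sum, AddChar.sum_mulShift _ (ZMod.isPrimitive_stdAddChar N), sub_eq_zero,
      ZMod.card]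
    split_ifs <;> simp [hN]
  have hs : star (four e) =
      ∑ s, ∑ t, conj (((√N)⁻¹ : ℝ) * ZMod.stdAddChar (s * t) : ℂ) • e s t := by
    simp only [four, star_sum, star_smul, h.star]
    rw [sum_comm]
    simp only [mul_comm (G := ZMod N)]
    rfl
  have mul : ∀ a b : ZMod N → ZMod N → ℂ, (∑ s, ∑ t, a s t • e s t) * ∑ s, ∑ t, b s t • e s t =
      ∑ s, ∑ t, (∑ r, a s r * b r t) • e s t := fun a b => by
    rw [sum_mul]
    refine sum_congr rfl fun s _ => ?_
    simp only [sum_smul]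
    rw [sum_comm (f := fun t r => (a s r * b r t) • e s t), sum_mul]
    refine sum_congr rfl fun r _ => ?_
    simp [mul_sum, h.mul, smul_smul, mul_comm]
  rw [Unitary.mem_iff, hs, four, mul, mul, ← h.sum]
  constructor
  · refine sum_congr rfl fun s _ => ?_
    simp only [mul_comm s, mul_comm (conj _ : ℂ), key]
    simp
  · refine sum_congr rfl fun s _ => ?_
    simp only [mul_comm s, key]
    simp

end Vale.Agent.P082.Tc
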