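import Vale.Agent.P082.Peel
import Vale.Agent.P082.Ret

/-! The main estimate for harmonic modular maps. -/

namespace Vale.Agent.P082.Tc

open scoped BigOperators ComplexConjugate
open Finset Vale.Agent.P085 Vale.Agent.P104

variable {A : Type*} [CStarAlgebra A] {T : Tr A}

theorem bw_star {α Ω : Type} [Fintype α] {p : α → A} {u : Ω → A} (hp : ∀ s, star (p s) = p s)
    (hc : ∀ o s, star (u o) * p s = p s * star (u o)) (ω : α → Ω) :
    bw p (fun o => star (u o)) ω = star (bw p u ω) := by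
  simp only [bw, star_sum, star_mul, hp, hc]

theorem estimate {N : ℕ} [NeZero N] {e : ZMod N → ZMod N → A} (he : IsMU 1 e) {S : A →L[ℂ] A}
    (hmod : ∀ a s t, S (a * e s t) = S a * e s t) {κ : Type} [Fintype κ] [Nonempty κ] {g : κ → A}
    (hg : ∀ i, g i ∈ unitary A) (hge : ∀ i s t, e s t * g i = g i * e s t) (σ : κ ≃ κ)
    (hσ : ∀ i, g (σ i) = star (g i)) (hS : Harm T S g) {v : A} (hv : v ∈ unitary A)
    (hvs : v ∈ Submodule.span ℂ {x | ∃ i s t, x = g i * e s t}) {δ : ℝ} (hδ : 0 ≤ δ) {D : ℕ}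
    {c : ℕ → ℝ} (hc0 : ∀ n, 0 ≤ c n) (hc1 : ∑ n ∈ range D, c n = 1) (hc : ∀ w : ℂ, ‖w‖ = 1 →
      ‖∑ n ∈ range D, (c n : ℂ) * (w ^ (n + 1) - conj w ^ (n + 1))‖ ≤ δ) {ε C γ : ℝ} (hε : 0 < ε)
    (hC : 0 ≤ C) (hm : ∀ x, T.n2 (S x) ≤ ε * ‖x‖ + C * T.n2 x) (hγ : 0 < γ)
    (hN : (D : ℝ) * D ^ D ≤ γ ^ 2 * N) :
    T.n2 (S v - S 1 * v) ^ 2 ≤ 4 * ‖S‖ ^ 2 * δ + 8 * D * ‖S‖ *
      (2 * (ε * (2 * D) + C * (2 * D * γ)) + ‖S‖ * (1 + 2 * D) * (2 * D * γ) + ε) := by
  have := T.nontrivial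
  have hN0 : (0 : ℝ) < N := Nat.cast_pos.2 (Nat.pos_of_neZero N)
  have hD : 0 < D := Nat.pos_of_ne_zero (by rintro rfl; simp at hc1)
  have hp := part_of_mu he
  have hnear : Near T S g v ∧ Near T S g (star v) := by
    clear hv
    induction hvs using Submodule.span_induction with
    | mem x hx =>
      obtain ⟨i, s, t, rfl⟩ := hx
      refine ⟨(Near.gen i).mul_right fun a => hmod a s t, ?_⟩
      rw [star_mul, he.star, ← hσ, hge]
      exact (Near.gen _).mul_right fun a => hmod a t s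
    | zero => simpa using Near.zero
    | add x y _ _ hx hy => exact ⟨hx.1.add hy.1, star_add x y ▸ hx.2.add hy.2⟩
    | smul a x _ hx => exact ⟨hx.1.smul a, star_smul a x ▸ hx.2.smul _⟩
  let m := fun ψ : AddChar (ZMod N → ZMod (D + 1)) ℂ => four e * lam (fun s => e s s) ψ
  have hmu : ∀ ψ, m ψ ∈ unitary A := fun ψ => mul_mem (four_unitary he) (lam_unitary hp ψ)
  have hm1 : ∀ ψ a, S (a * m ψ) = S a * m ψ := fun ψ a => by
    simp only [m, four, lam, mul_sum, sum_mul, map_sum, mul_smul_comm, smul_mul_assoc, map_smul,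
      ← mul_assoc, hmod]
  have hm2 : ∀ ψ i, m ψ * g i = g i * m ψ := fun ψ i => by
    simp only [m, four, lam, mul_sum, sum_mul, mul_smul_comm, smul_mul_assoc, mul_assoc, hge]
    simp only [← mul_assoc, hge]
  have hm3 : ∀ ψ a, S (a * star (m ψ)) = S a * star (m ψ) := fun ψ a => by
    rw [← mul_one (S (a * _)), ← (hmu ψ).2, ← mul_assoc, ← hm1, mul_assoc, (hmu ψ).1, mul_one]
  obtain ⟨Ω, _, _, u, huQ, hu1, hu2, hu3⟩ := exists_walk hg σ hσ hS
    (Z := fun j : AddChar (ZMod N → ZMod (D + 1)) ℂ × Bool =>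
      if j.2 then m j.1 * star v else star (m j.1 * star v)) (fun j => by
      split_ifs
      · exact hnear.2.mul_left (hm1 _) (hm2 _)
      · rw [star_mul, star_star]; exact hnear.1.mul_right (hm3 _)) (div_pos hε hN0)
  have huu := huQ (unitary A) hg
  have huc : ∀ o s, u o * e s s = e s s * u o := fun o s =>
    (huQ (Submonoid.centralizer {e s s}) (fun i _ hx => hx ▸ hge i s s) o _ rfl).symm
  have huc' : ∀ o s, star (u o) * e s s = e s s * star (u o) := fun o s => by
    simpa [he.star] using congrArg star (huc o s).symm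
  have hW := fun ω : ZMod N → Ω => block_unitary hp (fun s => huu (ω s)) fun _ _ => huc _ _
  obtain ⟨ψ, -, hψ⟩ := exists_le_of_expect_le (s := univ) (a := γ ^ 2) univ_nonempty
    (f := fun ψ => ∑ k ∈ range D, 𝔼 ω, ∑ s, T.n2 (e s s * (m ψ * star v *
      (bw (fun s => e s s) u ω * (m ψ * star v)) ^ k * e s s)) ^ 2) (by
    rw [expect_sum_comm]
    refine (sum_le_card_nsmul _ _ ((D : ℝ) ^ D * (N : ℝ)⁻¹) fun k hk => ?_).trans ?_
    · have hk := mem_range.1 hk
      rw [expect_comm]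
      refine expect_le univ_nonempty fun ω _ => le_trans (le_of_eq ?_) ((returns T
        (q := D + 1) (k := k) (by omega) hp (four_unitary he)
        (mul_mem (Unitary.star_mem hv) (hW ω)) (four_flat T he)).trans ?_)
      · refine expect_congr rfl fun ψ _ => sum_congr rfl fun s _ => ?_
        have h1 : bw (fun s => e s s) u ω * e s s = e s s * u (ω s) := by
          rw [← huc]
          simp [bw, sum_mul, mul_assoc, he.mul]
        rw [← n2_mul_unit T (huu (ω s)), mul_assoc, mul_assoc, ← h1, ← mul_pow_mul, ← mul_assoc _ _ (e s s),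
          mul_assoc _ _ (bw _ u ω), ← pow_succ, mul_assoc (m ψ)]
        rfl
      · refine mul_le_mul_of_nonneg_right ?_ (by positivity)
        have : (k + 1) ^ (k + 1) ≤ D ^ D :=
          (Nat.pow_le_pow_left hk _).trans (Nat.pow_le_pow_right hD hk)
        exact_mod_cast this
    · rw [card_range, nsmul_eq_mul, ← mul_assoc, mul_inv_le_iff₀ hN0]
      exact hN)
  have hZ : m ψ * star v ∈ unitary A := mul_mem (hmu ψ) (Unitary.star_mem hv)
  have hc1' := (hu3 (ψ, true)).1
  have hc2' := (hu3 (ψ, false)).2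
  simp only [if_true, Bool.false_eq_true, if_false] at hc1' hc2'
  have hq : qf T S (S v * star v - S 1) (star (m ψ * star v)) - qf T S (S v * star v - S 1) 1 =
      T.n2 (S v - S 1 * v) ^ 2 := by
    have e1 : S v - S 1 * v = (S v * star v - S 1) * v := by rw [sub_mul, mul_assoc, hv.1, mul_one]
    rw [e1, n2_mul_unit T hv, qf, qf, star_mul, star_star, hm3, ip_mul_right, star_star, mul_one,
      mul_assoc _ (v * _), mul_assoc v, (hmu ψ).1, mul_one, T.n2_sq, T.ip_sub_right,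
      ip_mul_right, star_star]
  have hd : ‖S v * star v - S 1‖ ≤ 2 * ‖S‖ := by
    have h1 := norm_sub_le (S v * star v) (S 1)
    rw [CStarRing.norm_mul_mem_unitary _ (Unitary.star_mem hv)] at h1
    linarith [S.unit_le_opNorm v (unit_norm_le hv), S.unit_le_opNorm 1 norm_one.le]
  generalize m ψ * star v = Z at *
  generalize S v * star v - S 1 = d at *
  have hret : ∀ k < D, 𝔼 ω, ∑ s, T.n2 (e s s * (Z * (bw (fun s => e s s) u ω * Z) ^ k * e s s)) ^ 2
      ≤ γ ^ 2 := fun k hk => le_trans (single_le_sum (f := fun k => 𝔼 ω, ∑ s,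
        T.n2 (e s s * (Z * (bw (fun s => e s s) u ω * Z) ^ k * e s s)) ^ 2)
        (fun _ _ => expect_nonneg fun _ _ => sum_nonneg fun _ _ => sq_nonneg _) (mem_range.2 hk)) hψ
  have s1 : Setup T S (fun s => e s s) u Z (ε / N) ε C γ D :=
    ⟨hp, huu, huc, fun a s => hmod a s s, hu1, hc1', hZ, hε.le, hC, hm, hγ, hret⟩
  have s2 : Setup T S (fun s => e s s) (fun o => star (u o)) (star Z) (ε / N) ε C γ D :=
    ⟨hp, fun o => Unitary.star_mem (huu o), huc', fun a s => hmod a s s, hu2, hc2',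
      Unitary.star_mem hZ, hε.le, hC, hm, hγ, fun k hk => le_trans (le_of_eq
        (expect_congr rfl fun ω _ => sum_congr rfl fun s _ => by
          rw [bw_star hp.star huc', ← T.n2_star, ← star_mul, ← star_pow, ← star_mul, mul_pow_mul,
            star_mul, star_mul, star_star, he.star, mul_assoc])) (hret k hk)⟩
  obtain ⟨E, hE⟩ : ∃ E, E = 2 * ‖S‖ * (2 * (ε * (2 * D) + C * (2 * D * γ)) +
    ‖S‖ * (1 + 2 * D) * (2 * D * γ) + ε) := ⟨_, rfl⟩
  have h0 : 0 ≤ ε * (2 * D) + C * (2 * D * γ) := by positivity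
  have h0' : 0 ≤ ‖S‖ * (1 + 2 * D) * (2 * D * γ) := by positivity
  have hE0 : 0 ≤ E := by rw [hE]; positivity
  have hE1 : ‖d‖ * (ε * (2 * D) + C * (2 * D * γ) + ‖S‖ * (1 + 2 * D) * (2 * D * γ)) ≤ E :=
    hE ▸ mul_le_mul hd (by linarith) (by positivity) (by positivity)
  have hE2 : ‖d‖ * (2 * (ε * (2 * D) + C * (2 * D * γ)) + Fintype.card (ZMod N) * (ε / N)) ≤ E := by
    rw [ZMod.card, mul_div_cancel₀ _ hN0.ne', hE]
    exact mul_le_mul hd (by linarith) (by positivity) (by positivity)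
  have h1 := expect_le (s := univ) univ_nonempty fun (ω : ZMod N → Ω) _ =>
    reflection T hδ hD hc (mul_mem (hW ω) hZ) S d
  have h2 : ∑ n ∈ range D, c n * (T.n2 (S v - S 1 * v) ^ 2 - 4 * D * E) ≤
      2 * (‖d‖ * (‖S‖ * δ)) := by
    refine le_trans ?_ h1
    rw [expect_sum_comm]
    refine sum_le_sum fun n hn => ?_
    have hn := mem_range.1 hn
    have hn' : (n : ℝ) + 1 ≤ D := by exact_mod_cast hn
    rw [← mul_expect, expect_sub_distrib]
    refine mul_le_mul_of_nonneg_left ?_ (hc0 n)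
    have h3 := (abs_le.1 (s1.peel (one_mem _) d hE1 hE2 (n + 1) hn).1).2
    have h4 := (abs_le.1 (s2.peel (Unitary.star_mem hZ) d hE1 hE2 n hn.le).2).1
    simp only [one_mul] at h3
    have e : ∀ W : A, star Z * (star W * star Z) ^ n * star W = star (W * Z) ^ (n + 1) :=
      fun W => by rw [← mul_pow_mul, mul_assoc, ← pow_succ, star_mul]
    simp only [bw_star hp.star huc', e] at h4
    push_cast at h3
    have h5 := mul_le_mul_of_nonneg_right hn' hE0
    simp only [bw] at h3 h4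
    linarith
  rw [← sum_mul, hc1, one_mul] at h2
  have h3 := mul_le_mul_of_nonneg_right hd (mul_nonneg (norm_nonneg S) hδ)
  nlinarith

end Vale.Agent.P082.Tc
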