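import Vale.Agent.P082.Normal
import Vale.Agent.P082.Est

/-! Averaging operators: modular and harmonic ones. -/

namespace Vale.Agent.P082.Tc

open scoped BigOperators ComplexConjugate
open Finset Filter Topology Vale.Agent.P085 Vale.Agent.P104

variable {A : Type*} [CStarAlgebra A] {T : Tr A} {C : (A →L[ℂ] A) → ℝ → ℝ}
  {ρ : (A →L[ℂ] A) → (A →L[ℂ] A)}

theorem ext_ip (T : Tr A) {a b : A} (h : ∀ y, T.ip y a = T.ip y b) : a = b :=
  (WL.const (T := T) (l := (⊤ : Filter Unit)) a).unique fun y => h y ▸ tendsto_const_nhds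

theorem avg_apply {κ : Type*} [Fintype κ] (f : κ → A →L[ℂ] A) (x : A) :
    avg f x = avg fun i => f i x := by simp [avg]

theorem Good.avg {κ : Type*} [Fintype κ] [Nonempty κ] {F : κ → (A →L[ℂ] A) → (A →L[ℂ] A)}
    (h : ∀ i, Good T C (F i)) : Good T C fun S => avg fun i => F i S where
  add S S' x := by simp [Tc.avg, (h _).add, sum_add_distrib]
  smul c S x := by simp [Tc.avg, (h _).smul, smul_sum, smul_comm c]
  norm S x := by rw [avg_apply]; exact norm_avg_le _ fun i => (h i).norm S x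
  left a S x := by simp [Tc.avg, (h _).left, mul_sum]
  right b S x := by simp [avg_apply, (h _).right]
  one x := ext_ip T fun y => by simp [avg_apply, ip_avg, (h _).one]
  mod S ε hε x := by
    rw [avg_apply]
    exact (n2_avg_le T _).trans (expect_le univ_nonempty fun i _ => (h i).mod S ε hε x)

/-- One step of the walk. -/
noncomputable def Qa {κ : Type*} [Fintype κ] (g : κ → A) (ρ : (A →L[ℂ] A) → (A →L[ℂ] A))
    (S : A →L[ℂ] A) : A →L[ℂ] A := avg fun i => rm (star (g i)) ∘L ρ S ∘L rm (g i)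

variable {κ : Type} [Fintype κ] {g : κ → A}

theorem ip_Qa (T : Tr A) (S : A →L[ℂ] A) (x y : A) :
    T.ip y (Qa g ρ S x) = 𝔼 i, T.ip (y * g i) (ρ S (x * g i)) := by
  simp [Qa, avg_apply, ip_avg, ip_mul_right]

theorem Good.Qa [Nonempty κ] (h : Good T C ρ) (hg : ∀ i, g i ∈ unitary A) : Good T C (Qa g ρ) :=
  Good.avg fun i =>
  { add := fun S S' x => by simp [h.add]
    smul := fun c S x => by simp [h.smul]
    norm := fun S x => by
      simpa [CStarRing.norm_mul_mem_unitary _ (Unitary.star_mem (hg i)),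
        CStarRing.norm_mul_mem_unitary _ (hg i)] using h.norm S (x * g i)
    left := fun a S x => by simp [h.left, mul_assoc]
    right := fun b S x => by simp [h.right, mul_assoc]
    one := fun x => by simp [h.one, mul_assoc, (hg i).2]
    mod := fun S ε hε x => by
      simpa [n2_mul_unit T (Unitary.star_mem (hg i)), n2_mul_unit T (hg i),
        CStarRing.norm_mul_mem_unitary _ (hg i)] using h.mod S ε hε (x * g i) }

theorem exists_harm [Nonempty κ] (hT : WCompact T) (h : Good T C ρ) (hg : ∀ i, g i ∈ unitary A) :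
    ∃ ρ', Good T C ρ' ∧ (∀ S, Harm T (ρ' S) g) ∧ ∀ m, (∀ i, m * g i = g i * m) →
      (∀ S a, ρ S (a * m) = ρ S a * m) → ∀ S a, ρ' S (a * m) = ρ' S a * m := by
  have hk : ∀ k, Good T C ((Qa g)^[k] ρ) := fun k => by
    induction k with
    | zero => exact h
    | succ k ih => rw [Function.iterate_succ_apply']; exact ih.Qa hg
  obtain ⟨ρ', h1, h2⟩ := Good.lim T hT (hyperfilter ℕ)
    (F := fun K S => avg fun k : Fin (K + 1) => (Qa g)^[k] ρ S) fun K => Good.avg fun k => hk k
  refine ⟨ρ', h1, fun S x y => ?_, fun m hm hρ S a => ?_⟩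
  · obtain ⟨φ, hφ⟩ : ∃ φ : ℕ → ℝ, ∀ k, φ k = T.ip y ((Qa g)^[k] ρ S x) := ⟨_, fun _ => rfl⟩
    have hb : ∀ k, |φ k| ≤ T.n2 y * (‖S‖ * ‖x‖) := fun k => hφ k ▸ (T.abs_ip_le_norm _ _).trans
      (mul_le_mul_of_nonneg_left ((hk k).norm S x) (T.n2_nonneg _))
    have h3 := (tendsto_finsetSum univ fun i _ => h2 S (x * g i) (y * g i)).const_mul
      (Fintype.card κ : ℝ)⁻¹
    have h4 : Tendsto (fun K : ℕ => (φ (K + 1) - φ 0) / (K + 1)) (hyperfilter ℕ) (𝓝 0) := by
      refine (squeeze_zero_norm (fun K => ?_) (tendsto_const_div_atTop_nhds_zero_nat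
        (2 * (T.n2 y * (‖S‖ * ‖x‖))) |>.comp (tendsto_add_atTop_nat 1))).mono_left
        Nat.hyperfilter_le_atTop
      rw [norm_div, Real.norm_eq_abs, Real.norm_eq_abs, abs_of_pos (a := (K : ℝ) + 1)
        (by positivity), Function.comp_apply, Nat.cast_succ]
      gcongr
      linarith [abs_sub (φ (K + 1)) (φ 0), hb (K + 1), hb 0]
    have h5 := (h2 S x y).add h4
    rw [add_zero] at h5
    rw [expect_eq]
    refine tendsto_nhds_unique h3 (h5.congr fun K => ?_)
    simp only [avg_apply, ip_avg, ← expect_eq]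
    rw [expect_comm]
    have h6 : ∀ k, 𝔼 i, T.ip (y * g i) ((Qa g)^[k] ρ S (x * g i)) = φ (k + 1) := fun k => by
      rw [hφ, Function.iterate_succ_apply', ip_Qa]
    simp only [h6, ← hφ, expect_eq, Fintype.card_fin]
    rw [Fin.sum_univ_eq_sum_range φ, Fin.sum_univ_eq_sum_range fun k => φ (k + 1)]
    have := sum_range_succ' φ (K + 1)
    rw [sum_range_succ] at this
    push_cast
    field_simp
    linarith
  · have hm' : ∀ i, m * star (g i) = star (g i) * m := fun i => by
      rw [← mul_one (star (g i) * m), ← (hg i).2, ← mul_assoc, mul_assoc _ m, hm, ← mul_assoc,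
        (hg i).1, one_mul]
    have h3 : ∀ k S a, (Qa g)^[k] ρ S (a * m) = (Qa g)^[k] ρ S a * m := fun k => by
      induction k with
      | zero => exact hρ
      | succ k ih =>
        intro S a
        rw [Function.iterate_succ_apply']
        simp [Qa, avg, mul_assoc, hm, sum_mul, ← hm']
        simp [← mul_assoc, ih]
    refine (h2 S _).unique ?_
    simpa [avg, h3, sum_mul] using (h2 S a).mul_right m

theorem exists_modular {N : ℕ} [NeZero N] {e : ZMod N → ZMod N → A} (he : IsMU 1 e)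
    (h : Good T C ρ) : ∃ ρ', Good T C ρ' ∧ ∀ s t S a, ρ' S (a * e s t) = ρ' S a * e s t := by
  let g := fun i : ZMod N × AddChar (ZMod N) ℂ => ∑ s, i.2 s • e s (s + i.1)
  have hc : ∀ (ψ : AddChar (ZMod N) ℂ) s, conj (ψ s) * ψ s = 1 := fun ψ s => by
    rw [← ψ.map_neg_eq_conj, ← ψ.map_add_eq_mul, neg_add_cancel, ψ.map_zero_eq_one]
  refine ⟨Qa g ρ, h.Qa fun i => ⟨?_, ?_⟩, fun s t S a => ext_ip T fun y => ?_⟩
  · simpa [g, star_sum, sum_mul, mul_sum, he.star, he.mul, smul_smul, mul_comm (i.2 _), hc,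
      ← he.sum] using Equiv.sum_comp (Equiv.addRight i.1) fun x => e x x
  · simp [g, star_sum, sum_mul, mul_sum, he.star, he.mul, smul_smul, hc, he.sum]
  · have key : ∀ x y, T.ip y (Qa g ρ S x) =
        𝔼 b, ∑ s, T.ip (y * e s (s + b)) (ρ S (x * e s (s + b))) := fun x y => by
      rw [ip_Qa, ← univ_product_univ, expect_product]
      refine expect_congr rfl fun b _ => ?_
      simp only [g, mul_sum, map_sum, mul_smul_comm, map_smul, ip_sum_left, T.ip_sum_right,
        expect_sum_comm, expect_ip_char]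
      simp
    rw [ip_mul_right, key, key]
    refine Fintype.expect_equiv (Equiv.addRight (t - s)) _ _ fun b => ?_
    rw [sum_eq_single t (fun x _ hx => by simp [mul_assoc, he.mul, hx.symm, Tr.ip]) (by simp),
      sum_eq_single s (fun x _ hx => by simp [mul_assoc, he.mul, he.star, hx.symm, Tr.ip])
      (by simp)]
    simp [mul_assoc, he.mul, he.star, add_comm t, ← add_sub_assoc]

theorem exists_entries {α : Type} [Fintype α] [DecidableEq α] {e : α → α → A} (he : IsMU 1 e)
    (v : A) : ∃ u : α × α × Fin 4 → A, (∀ i, u i ∈ unitary A) ∧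
      (∀ i s t, e s t * u i = u i * e s t) ∧
      v ∈ Submodule.span ℂ {x | ∃ i s t, x = u i * e s t} := by
  let B := StarSubalgebra.centralizer ℂ {x | ∃ s t, x = e s t}
  have hB : ∀ x, x ∈ B ↔ ∀ s t, e s t * x = x * e s t := fun x => by
    rw [StarSubalgebra.mem_centralizer_iff]
    refine ⟨fun h s t => (h _ ⟨s, t, rfl⟩).1, ?_⟩
    rintro h _ ⟨s, t, rfl⟩
    exact ⟨h s t, he.star s t ▸ h t s⟩
  have : IsClosed (B : Set A) := by
    rw [show (B : Set A) = ⋂ s, ⋂ t, {x | e s t * x = x * e s t} by ext; simp [hB]]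
    exact isClosed_iInter fun s => isClosed_iInter fun t => isClosed_eq (by fun_prop) (by fun_prop)
  choose u c hu _ using fun a b => CStarAlgebra.exists_sum_four_unitary (A := B)
    ⟨∑ r, e r a * v * e b r, (hB _).2 fun s t => by
      simp [mul_sum, sum_mul, mul_assoc, he.mul]
      simp [← mul_assoc, he.mul]⟩
  refine ⟨fun i => (u i.1 i.2.1 i.2.2 : B), fun i => ⟨congrArg Subtype.val (u _ _ _).2.1,
    congrArg Subtype.val (u _ _ _).2.2⟩, fun i => (hB _).1 (Subtype.prop _), ?_⟩
  have h1 : v = ∑ a, ∑ b, (∑ r, e r a * v * e b r) * e a b := by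
    simp [sum_mul, mul_assoc, he.mul]
    simp [← mul_sum, ← sum_mul, he.sum]
  rw [h1]
  refine sum_mem fun a _ => sum_mem fun b _ => ?_
  have h2 := congrArg Subtype.val (hu a b)
  simp only [AddSubmonoidClass.coe_finsetSum, SetLike.val_smul] at h2
  rw [h2, sum_mul]
  exact sum_mem fun i _ => smul_mul_assoc (c a b i) _ (e a b) ▸
    Submodule.smul_mem _ _ (Submodule.subset_span ⟨(a, b, i), a, b, rfl⟩)

end Vale.Agent.P082.Tc
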