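import Vale.Agent.P104.Defs

/-! Shared notions for the proof of the Kadison-Ringrose conjecture (P082). -/

open scoped InnerProductSpace ComplexOrder Topology
open Filter

namespace Vale.Agent.P082

open Vale.Agent.P104

section Bar

variable {A X : Type*} [Ring A] [AddCommGroup X]

/-- Right bar differential of `f` at the list `a :: l`; `r` is the right action on values. -/
def bD (r : X → A → X) : (List A → X) → A → List A → X
  | f, a, [] => r (f []) a
  | f, a, b :: l => f (a * b :: l) - bD r (fun m => f (a :: m)) b l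

/-- Hochschild coboundary of a list cochain at the list `a :: l`. -/
def dL (f : List A → A) (a : A) (l : List A) : A := a * f l - bD (· * ·) f a l

end Bar

section Normed

variable {A : Type*} [NormedRing A] [NormedAlgebra ℂ A]

/-- `f` is linear in every entry on lists of length `k`. -/
def Lin {X : Type*} [AddCommGroup X] [Module ℂ X] (k : ℕ) (f : List A → X) : Prop :=
  ∀ l : List A, l.length = k → ∀ i, i < k → IsLinearMap ℂ fun a => f (l.set i a)

/-- Product of the norms. -/
noncomputable def np (l : List A) : ℝ := (l.map norm).prod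

/-- Bounded multilinear list cochain of degree `k`. -/
structure ML (k : ℕ) (C : ℝ) (f : List A → A) : Prop where
  lin : Lin k f
  bd : ∀ l : List A, l.length = k → ‖f l‖ ≤ C * np l

/-- `z f` is the coboundary of a cochain of degree `k` and norm at most `K`. -/
def Loc (k : ℕ) (K : ℝ) (f : List A → A) (z : A) : Prop :=
  ∃ g : List A → A, ML k K g ∧ ∀ a l, l.length = k → dL g a l = z * f (a :: l)

/-- Left multiplication. -/
noncomputable abbrev lm (a : A) : A →L[ℂ] A := ContinuousLinearMap.mul ℂ A a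

/-- A bimodule retraction on the class `P` of maps; `P T C` means `T` has class norm `≤ C`. -/
structure IsRet (P : (A →L[ℂ] A) → ℝ → Prop) (z : A) (Ψ : (A →L[ℂ] A) →ₗ[ℂ] A) : Prop where
  norm_le : ∀ T C, 0 ≤ C → P T C → ‖Ψ T‖ ≤ C
  left : ∀ T C, 0 ≤ C → P T C → ∀ a, Ψ ((lm a).comp T) = a * Ψ T
  right : ∀ T C, 0 ≤ C → P T C → ∀ a, Ψ (T.comp (lm a)) = Ψ T * a
  mul : ∀ c, Ψ (lm c) = z * c

/-- The class of all bounded maps. -/
def Bd (T : A →L[ℂ] A) (C : ℝ) : Prop := ‖T‖ ≤ C

end Normed

/-- Central projection. -/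
def CP {A : Type*} [Ring A] [StarRing A] (z : A) : Prop :=
  IsStarProjection z ∧ ∀ x, z * x = x * z

section VN

variable {L : Type*} [NormedAddCommGroup L] [InnerProductSpace ℂ L] [CompleteSpace L]
  {B : Type*} [CStarAlgebra B]

/-- `j` identifies `B` with the corner `e M e`. -/
structure Corner (M : VonNeumannAlgebra L) (e : L →L[ℂ] L) (j : B →⋆ₙₐ[ℂ] (L →L[ℂ] L)) :
    Prop where
  inj : Function.Injective j
  one : j 1 = e
  mem : ∀ b, j b ∈ M
  surj : ∀ x ∈ M, e * x * e = x → ∃ b, j b = x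

/-- Weak operator convergence along a filter. -/
def WL (j : B →⋆ₙₐ[ℂ] (L →L[ℂ] L)) {ι : Type*} (U : Filter ι) (x : ι → B) (y : B) : Prop :=
  ∀ η ξ : L, Tendsto (fun i => ⟪η, j (x i) ξ⟫_ℂ) U (𝓝 ⟪η, j y ξ⟫_ℂ)

/-- `T` is completely bounded on matrices with index type `ι`. -/
def CBon (j : B →⋆ₙₐ[ℂ] (L →L[ℂ] L)) (ι : Type) [Fintype ι] (T : B →L[ℂ] B) (C : ℝ) : Prop :=
  ∀ x : ι → ι → B, MBdd 1 (fun a b => j (x a b)) → MBdd C fun a b => j (T (x a b))

/-- The class of completely bounded maps. -/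
def CB (j : B →⋆ₙₐ[ℂ] (L →L[ℂ] L)) (T : B →L[ℂ] B) (C : ℝ) : Prop :=
  ∀ (ι : Type) [Fintype ι], CBon j ι T C

end VN

end Vale.Agent.P082
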