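import Vale.Agent.P082.CBAvgAux

/-! Averaging of completely bounded maps. -/

open scoped InnerProductSpace ComplexOrder Topology
open Filter

namespace Vale.Agent.P082

open Vale.Agent.P104

section Aux

variable {L : Type*} [NormedAddCommGroup L] [InnerProductSpace ℂ L] [CompleteSpace L]
  {A : Type*} [CStarAlgebra A] {M : VonNeumannAlgebra L} {j : A →⋆ₙₐ[ℂ] (L →L[ℂ] L)}

/-- The space of completely bounded maps. -/
def cbS (j : A →⋆ₙₐ[ℂ] (L →L[ℂ] L)) : Submodule ℂ (A →L[ℂ] A) where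
  carrier := {T | ∃ t, NB j T 1 t}
  add_mem' := fun ⟨_, h⟩ ⟨_, h'⟩ => ⟨_, h.add h'⟩
  zero_mem' := ⟨0, le_rfl, fun _ _ _ _ _ _ ξ => by simp⟩
  smul_mem' := fun c _ ⟨_, h⟩ => h.smul c

/-- Admissible averaging operators. -/
structure Adm (j : A →⋆ₙₐ[ℂ] (L →L[ℂ] L)) (Q : cbS j →ₗ[ℂ] cbS j) : Prop where
  nb : ∀ (T : cbS j) (z : A) (t : ℝ), CP z → NB j T.1 z t → NB j (Q T).1 z t
  left : ∀ (a : A) (T T' : cbS j), (∀ x, T'.1 x = a * T.1 x) → ∀ x, (Q T').1 x = a * (Q T).1 x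
  right : ∀ (a : A) (T T' : cbS j), (∀ x, T'.1 x = T.1 (a * x)) →
    ∀ x, (Q T').1 x = (Q T).1 (a * x)
  one : ∀ T : cbS j, (∀ x, T.1 x = x) → ∀ x, (Q T).1 x = x

theorem adm_id : Adm j LinearMap.id :=
  ⟨fun _ _ _ _ h => h, fun _ _ _ h => h, fun _ _ _ h => h, fun _ h => h⟩

theorem Adm.comp {Q Q' : cbS j →ₗ[ℂ] cbS j} (h : Adm j Q) (h' : Adm j Q') : Adm j (Q.comp Q') :=
  ⟨fun T z t hz hT => h.nb _ z t hz (h'.nb T z t hz hT),
    fun a T T' e => h.left a _ _ (h'.left a T T' e),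
    fun a T T' e => h.right a _ _ (h'.right a T T' e), fun T e => h.one _ (h'.one T e)⟩

theorem cba_cp_one : CP (1 : A) := ⟨IsStarProjection.one A, fun x => by simp⟩

theorem nb_lim {ι : Type*} {U : Filter ι} [U.NeBot] {T : ι → A → A} {S : A → A} {p : A} {t : ℝ}
    (hw : ∀ x, WL j U (fun i => T i x) (S x)) (h : ∀ i, NB j (T i) p t) : NB j S p t := by
  obtain ⟨i, -⟩ := (eventually_true U).exists
  exact ⟨(h i).1, fun α β _ _ X hX => rb_lim (fun a b => (hw (X a b)).mul_right p)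
    (Eventually.of_forall fun i => (h i).2 α β X hX)⟩

theorem exists_adm_lim (h : Corner M 1 j) {ι : Type*} (U : Ultrafilter ι)
    (Q : ι → (cbS j →ₗ[ℂ] cbS j)) (hQ : ∀ i, Adm j (Q i)) :
    ∃ R : cbS j →ₗ[ℂ] cbS j, Adm j R ∧ ∀ T x, WL j U (fun i => (Q i T).1 x) ((R T).1 x) := by
  have h1 : ∀ T : cbS j, ∃ S : cbS j, ∀ x, WL j U (fun i => (Q i T).1 x) (S.1 x) := fun T => by
    obtain ⟨t, ht⟩ := T.2
    have h2 := fun i => (hQ i).nb T 1 t cba_cp_one ht
    obtain ⟨S, -, hS⟩ := h.exists_wl_clm U (fun i => (Q i T).1) (C := √t)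
      (Eventually.of_forall fun i => (h2 i).norm_le h.inj)
    exact ⟨⟨S, t, nb_lim hS h2⟩, hS⟩
  choose S hS using h1
  let R : cbS j →ₗ[ℂ] cbS j :=
    { toFun := S
      map_add' := fun T T' => Subtype.ext (ContinuousLinearMap.ext fun x =>
        (hS _ x).unique h.inj (((hS T x).add (hS T' x)).congr fun i => by simp))
      map_smul' := fun c T => Subtype.ext (ContinuousLinearMap.ext fun x =>
        (hS _ x).unique h.inj (((hS T x).smul c).congr fun i => by simp)) }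
  refine ⟨R, ⟨fun T z t hz hT => nb_lim (hS T) fun i => (hQ i).nb T z t hz hT,
    fun a T T' e x => (hS T' x).unique h.inj (((hS T x).mul_left a).congr fun i =>
      ((hQ i).left a T T' e x).symm),
    fun a T T' e x => (hS T' x).unique h.inj ((hS T (a * x)).congr fun i =>
      ((hQ i).right a T T' e x).symm),
    fun T e x => (hS T x).unique h.inj ((WL.const j U x).congr fun i =>
      ((hQ i).one T e x).symm)⟩, hS⟩

theorem exists_adm_col (h : Corner M 1 j) {κ : Type*} [Fintype κ] (m : κ → A)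
    (hm : ∑ k, star (m k) * m k = 1) :
    ∃ Q : cbS j →ₗ[ℂ] cbS j, Adm j Q ∧ ∀ T x, (Q T).1 x = ∑ k, T.1 (x * star (m k)) * m k := by
  have hc : CCol j m := ccol_of_sum h.one hm
  have h0 : ∀ (T : A → A) z t, CP z → NB j T z t →
      NB j (fun x => ∑ k, T (x * star (m k)) * m k) z t := fun T z t hz hT =>
    ⟨hT.1, fun α β _ _ X hX => by
      have h1 := core_rb hT hX hc hc
      simpa only [Finset.sum_mul, mul_assoc, hz.2] using h1⟩
  let S : (A →L[ℂ] A) → (A →L[ℂ] A) := fun T => ∑ k, ((ContinuousLinearMap.mul ℂ A).flip (m k)).comp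
    (T.comp ((ContinuousLinearMap.mul ℂ A).flip (star (m k))))
  have hS : ∀ T x, S T x = ∑ k, T (x * star (m k)) * m k := fun T x => by simp [S]
  let Q : cbS j →ₗ[ℂ] cbS j :=
    { toFun := fun T => ⟨S T.1, by
        obtain ⟨t, ht⟩ := T.2
        exact ⟨t, (h0 _ 1 t cba_cp_one ht).congr (hS _)⟩⟩
      map_add' := fun T T' => Subtype.ext (ContinuousLinearMap.ext fun x => by
        simp [hS, add_mul, Finset.sum_add_distrib])
      map_smul' := fun c T => Subtype.ext (ContinuousLinearMap.ext fun x => by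
        simp [hS, Finset.smul_sum]) }
  have hQ : ∀ T x, (Q T).1 x = ∑ k, T.1 (x * star (m k)) * m k := fun T x => hS T.1 x
  refine ⟨Q, ⟨fun T z t hz hT => (h0 _ z t hz hT).congr (hQ T), fun a T T' e x => ?_,
    fun a T T' e x => ?_, fun T e x => ?_⟩, hQ⟩
  · simp only [hQ, e, Finset.mul_sum, mul_assoc]
  · simp only [hQ, e, mul_assoc]
  · simp only [hQ, e, mul_assoc, ← Finset.mul_sum, hm, mul_one]

theorem exists_adm_max (h : Corner M 1 j) : ∃ R : cbS j →ₗ[ℂ] cbS j, Adm j R ∧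
    ∀ Q, Adm j Q → ∃ Q', Adm j Q' ∧ R = Q'.comp (Q.comp R) := by
  classical
  let r : {Q // Adm j Q} → {Q // Adm j Q} → Prop := fun R R' => ∃ Q, Adm j Q ∧ R'.1 = Q.comp R.1
  have hrefl : ∀ R, r R R := fun R => ⟨_, adm_id, rfl⟩
  have htr : ∀ {a b c}, r a b → r b c → r a c := fun ⟨Q, hQ, e⟩ ⟨Q', hQ', e'⟩ =>
    ⟨_, hQ'.comp hQ, by rw [e', e]; rfl⟩
  have : Nonempty {Q // Adm j Q} := ⟨⟨_, adm_id⟩⟩
  obtain ⟨R, hR⟩ := exists_maximal_of_nonempty_chains_bounded (r := r) (fun c hc hne => by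
    have : Nonempty c := hne.to_subtype
    have : (⨅ R : c, 𝓟 {R' : c | r R.1 R'.1}).NeBot := by
      refine iInf_neBot_of_directed' (fun R R' => ?_) fun R =>
        principal_neBot_iff.2 ⟨R, hrefl _⟩
      have h1 : r R.1 R'.1 ∨ r R'.1 R.1 := by
        by_cases e : R.1 = R'.1
        · exact Or.inl (e ▸ hrefl _)
        · exact hc R.2 R'.2 e
      rcases h1 with h1 | h1
      · exact ⟨R', principal_mono.2 fun _ hx => htr h1 hx, le_rfl⟩
      · exact ⟨R, le_rfl, principal_mono.2 fun _ hx => htr h1 hx⟩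
    let U := Ultrafilter.of (⨅ R : c, 𝓟 {R' : c | r R.1 R'.1})
    obtain ⟨S, hS, hw⟩ := exists_adm_lim h U (fun R => R.1.1) fun R => R.1.2
    refine ⟨⟨S, hS⟩, fun R hRc => ?_⟩
    have h1 : ∀ R' : c, ∃ Q, Adm j Q ∧ (r R R'.1 → R'.1.1 = Q.comp R.1) := fun R' => by
      by_cases e : r R R'.1
      · obtain ⟨Q, hQ, e⟩ := e
        exact ⟨Q, hQ, fun _ => e⟩
      · exact ⟨_, adm_id, fun e' => absurd e' e⟩
    choose Q hQ hQ' using h1
    obtain ⟨Q0, hQ0, hw0⟩ := exists_adm_lim h U Q hQ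
    have h2 : ∀ᶠ R' : c in U, r R R'.1 :=
      Ultrafilter.of_le _ (mem_iInf_of_mem ⟨R, hRc⟩ (mem_principal_self _))
    refine ⟨Q0, hQ0, LinearMap.ext fun T => Subtype.ext (ContinuousLinearMap.ext fun x =>
      (hw T x).unique h.inj ((hw0 (R.1 T) x).congr' (h2.mono fun R' hR' => ?_)))⟩
    simp only [hQ' R' hR', LinearMap.comp_apply]) htr
  exact ⟨R.1, R.2, fun Q hQ => hR ⟨_, hQ.comp R.2⟩ ⟨Q, hQ, rfl⟩⟩

omit [CompleteSpace L] in
theorem cba_rot (x y : L) :
    ‖(3 / 5 : ℂ) • x + (4 / 5 : ℂ) • y‖ ^ 2 + ‖(4 / 5 : ℂ) • x - (3 / 5 : ℂ) • y‖ ^ 2 =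
      ‖x‖ ^ 2 + ‖y‖ ^ 2 := by
  have e3 : (3 / 5 : ℂ) = ((3 / 5 : ℝ) : ℂ) := by norm_num
  have e4 : (4 / 5 : ℂ) = ((4 / 5 : ℝ) : ℂ) := by norm_num
  rw [@norm_add_sq ℂ, @norm_sub_sq ℂ, e3, e4]
  simp only [norm_smul, inner_smul_left, inner_smul_right, Complex.conj_ofReal, Complex.norm_real,
    RCLike.re_to_complex, Complex.re_ofReal_mul, Real.norm_eq_abs]
  norm_num [abs_of_pos]
  ring

theorem cba_unit (h : Corner M 1 j) {u : A} (hu : star u * u = 1) (ξ : L) :
    ‖j u ξ‖ ^ 2 = ‖ξ‖ ^ 2 := by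
  rw [norm_sq_apply, ← map_star, ← map_mul, hu, h.one, one_apply_eq_self,
    inner_self_eq_norm_sq_to_K]
  norm_cast

/-- The norm drop on a projection where the defect is bounded below. -/
theorem cba_drop (h : Corner M 1 j) {T : A →L[ℂ] A} {z p u x₀ : A} {t c : ℝ} (hz : CP z)
    (hzp : z * p = p) (hp : IsStarProjection p) (hp0 : p ≠ 0) (hu : star u * u = 1)
    (hu' : u * star u = 1) (hx : ‖x₀‖ ≤ 1)
    (hc : ∀ ξ, c * ‖j p ξ‖ ^ 2 ≤ ‖j (T x₀ - T (x₀ * star u) * u) (j p ξ)‖ ^ 2)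
    (hT : NB j T z t) :
    NB j (fun x => (9 / 25 : ℂ) • T x + (16 / 25 : ℂ) • (T (x * star u) * u)) p
      (t - 144 / 625 * c) := by
  classical
  have key : ∀ (α β : Type) [Fintype α] [Fintype β] (X : α → β → A), RB j 1 X → ∀ ξ : β → L,
      ∑ a, ‖∑ b, j (((9 / 25 : ℂ) • T (X a b) + (16 / 25 : ℂ) • (T (X a b * star u) * u)) * p)
        (ξ b)‖ ^ 2 ≤ (t - 144 / 625 * c) * ∑ b, ‖j p (ξ b)‖ ^ 2 := by
    intro α β _ _ X hX ξ
    let Y : α ⊕ β → β ⊕ β → A := fun a b => Sum.elim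
      (fun a => Sum.elim (fun b => (3 / 5 : ℂ) • X a b) (fun b => (4 / 5 : ℂ) • (X a b * star u)) b)
      (fun a => Sum.elim (fun b => if a = b then (4 / 5 : ℂ) • x₀ else 0)
        (fun b => if a = b then -((3 / 5 : ℂ) • (x₀ * star u)) else 0) b) a
    have h1 : RB j 1 Y := fun η => by
      have h2 := hX fun b => (3 / 5 : ℂ) • η (Sum.inl b) + (4 / 5 : ℂ) • j (star u) (η (Sum.inr b))
      have h3 : ∀ w, ‖j x₀ w‖ ^ 2 ≤ ‖w‖ ^ 2 := fun w => by
        simpa using rb_unit (j := j) hx fun _ => w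
      have h4 : ∀ b, _ := fun b => cba_rot (η (Sum.inl b)) (j (star u) (η (Sum.inr b)))
      simp only [cba_unit h (u := star u) (by rw [star_star, hu'])] at h4
      have h5 := Finset.sum_le_sum fun b (_ : b ∈ Finset.univ) =>
        h3 ((4 / 5 : ℂ) • η (Sum.inl b) - (3 / 5 : ℂ) • j (star u) (η (Sum.inr b)))
      have h6 := Finset.sum_congr rfl fun b (_ : b ∈ Finset.univ) => h4 b
      simp only [Finset.sum_add_distrib] at h6
      simp only [Fintype.sum_sum_type, Y, Sum.elim_inl, Sum.elim_inr, apply_ite j, map_zero,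
        DFunLike.ite_apply, zero_apply, Finset.sum_ite_eq, Finset.mem_univ, if_true, map_smul, map_neg,
        map_mul, smul_apply, neg_apply, mul_apply_eq_comp]
      simp only [map_add, map_smul, Finset.sum_add_distrib] at h2
      simp only [map_sub, map_smul, sub_eq_add_neg, map_add, map_neg] at h5 h6
      linarith
    have h2 := hT.2 _ _ Y h1 (Sum.elim (fun b => (3 / 5 : ℂ) • j p (ξ b))
      fun b => (4 / 5 : ℂ) • j (u * p) (ξ b))
    have e1 : ∀ y η, j (y * z) (j p η) = j (y * p) η := fun y η => by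
      rw [← mul_apply_eq_comp, ← map_mul, mul_assoc, hzp]
    have e2 : ∀ y η, j (y * z) (j (u * p) η) = j (y * u * p) η := fun y η => by
      rw [← mul_apply_eq_comp, ← map_mul, mul_assoc, ← mul_assoc z, hz.2, mul_assoc u, hzp,
        mul_assoc]
    have e3 : ∀ b, ‖(3 / 5 : ℂ) • j p (ξ b)‖ ^ 2 = 9 / 25 * ‖j p (ξ b)‖ ^ 2 := fun b => by
      rw [norm_smul, mul_pow]; norm_num
    have e4 : ∀ b, ‖(4 / 5 : ℂ) • j (u * p) (ξ b)‖ ^ 2 = 16 / 25 * ‖j p (ξ b)‖ ^ 2 := fun b => by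
      rw [norm_smul, mul_pow, map_mul, mul_apply_eq_comp, cba_unit h hu]; norm_num
    have e5 : ∀ a, ∑ b, j (T (Y (Sum.inl a) b) * z) (Sum.elim (fun b => (3 / 5 : ℂ) • j p (ξ b))
        (fun b => (4 / 5 : ℂ) • j (u * p) (ξ b)) b) = ∑ b, j (((9 / 25 : ℂ) • T (X a b) +
          (16 / 25 : ℂ) • (T (X a b * star u) * u)) * p) (ξ b) := fun a => by
      simp only [Fintype.sum_sum_type, Y, Sum.elim_inl, Sum.elim_inr, map_smul, smul_mul_assoc,
        smul_apply, e1, e2, smul_smul, add_mul, map_add, add_apply, Finset.sum_add_distrib]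
      norm_num
    have e6 : ∀ a, 144 / 625 * c * ‖j p (ξ a)‖ ^ 2 ≤
        ‖∑ b, j (T (Y (Sum.inr a) b) * z) (Sum.elim (fun b => (3 / 5 : ℂ) • j p (ξ b))
        (fun b => (4 / 5 : ℂ) • j (u * p) (ξ b)) b)‖ ^ 2 := fun a => by
      have e7 : ∑ b, j (T (Y (Sum.inr a) b) * z) (Sum.elim (fun b => (3 / 5 : ℂ) • j p (ξ b))
          (fun b => (4 / 5 : ℂ) • j (u * p) (ξ b)) b) =
          (12 / 25 : ℂ) • j (T x₀ - T (x₀ * star u) * u) (j p (ξ a)) := by
        rw [← mul_apply_eq_comp, ← map_mul]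
        simp only [Fintype.sum_sum_type, Y, Sum.elim_inl, Sum.elim_inr, apply_ite T, map_zero,
          ite_mul, zero_mul, apply_ite j, DFunLike.ite_apply, zero_apply, Finset.sum_ite_eq,
          Finset.mem_univ, if_true, map_smul, map_neg, smul_mul_assoc, neg_mul, smul_apply,
          neg_apply, e1, e2, smul_smul, sub_mul, map_sub, sub_apply, smul_sub, smul_neg]
        norm_num [sub_eq_add_neg, smul_smul]
      have e8 : ‖(12 / 25 : ℂ)‖ ^ 2 = 144 / 625 := by norm_num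
      rw [e7, norm_smul, mul_pow, e8]
      linarith [hc (ξ a)]
    rw [Fintype.sum_sum_type, Fintype.sum_sum_type] at h2
    simp only [e5, Sum.elim_inl, Sum.elim_inr, e3, e4, ← Finset.mul_sum] at h2
    have h7 := Finset.sum_le_sum fun a (_ : a ∈ Finset.univ) => e6 a
    rw [← Finset.mul_sum] at h7
    linarith
  have h0 : 0 ≤ t - 144 / 625 * c := by
    obtain ⟨ξ, hξ⟩ : ∃ ξ, j p ξ ≠ 0 := by
      by_contra hcon
      push Not at hcon
      exact hp0 (h.inj ((ContinuousLinearMap.ext hcon).trans (map_zero j).symm))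
    have h1 := key Empty Unit (fun a => a.elim) (fun η => by simp) fun _ => ξ
    simp only [Finset.univ_eq_empty, Finset.sum_empty, Finset.univ_unique,
      Finset.sum_singleton] at h1
    exact nonneg_of_mul_nonneg_left h1 (by positivity)
  refine ⟨h0, fun α β _ _ X hX ξ => (key α β X hX ξ).trans (mul_le_mul_of_nonneg_left
    (Finset.sum_le_sum fun b _ => pow_le_pow_left₀ (norm_nonneg _)
      (proj_norm_apply_le (hp.map j) _) 2) h0)⟩

/-- A bound on a projection spreads to its central cover. -/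
theorem cba_spread (h : Corner M 1 j) {p : A} (hp : IsStarProjection p) :
    ∃ z, CP z ∧ z * p = p ∧ ∃ Q : cbS j →ₗ[ℂ] cbS j, Adm j Q ∧
      ∀ (T : cbS j) (t : ℝ), NB j T.1 p t → NB j (Q T).1 z t := by
  classical
  obtain ⟨z, F, hz, hzp, -, hF, ho, hs⟩ := exists_cover h hp
  let q : Finset F → A := fun s => ∑ v ∈ s, v.1 * star v.1
  have hq : ∀ s, IsStarProjection (q s) := fun s => by
    refine ⟨?_, by simp [q, IsSelfAdjoint, star_sum]⟩
    rw [IsIdempotentElem, Finset.sum_mul_sum]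
    refine Finset.sum_congr rfl fun v hv => ?_
    rw [Finset.sum_eq_single_of_mem v hv fun w _ hw => ?_]
    · exact (cv_pi_fin (hF _ v.2).1).isIdempotentElem
    · rw [mul_assoc, ← mul_assoc (star v.1), ho v.2 w.2 fun e => hw (Subtype.ext e).symm, zero_mul,
        mul_zero]
  let m : (s : Finset F) → Option s → A := fun s k => k.elim (1 - q s) fun v => star v.1.1
  have hm : ∀ s, ∑ k, star (m s k) * m s k = 1 := fun s => by
    rw [Fintype.sum_option]
    simp only [m, Option.elim_none, Option.elim_some, star_star]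
    rw [(hq s).one_sub.isSelfAdjoint.star_eq, (hq s).one_sub.isIdempotentElem,
      Finset.sum_coe_sort s fun v => v.1 * star v.1]
    exact sub_add_cancel _ _
  choose Q hQ hQ' using fun s => exists_adm_col h (m s) (hm s)
  obtain ⟨R, hR, hw⟩ := exists_adm_lim h (Ultrafilter.of atTop) Q hQ
  refine ⟨z, hz, hzp, R, hR, fun T t hT => ⟨hT.1, fun α β _ _ X hX => ?_⟩⟩
  have hc : ∀ s : Finset F, CCol j fun v : s => star v.1.1 := fun s ξ => by
    have h1 := ccol_of_sum h.one (hm s) ξ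
    rw [Fintype.sum_option] at h1
    exact le_trans (le_add_of_nonneg_left (sq_nonneg _)) h1
  have hc' : ∀ s : Finset F, CCol j fun v : s => star v.1.1 * z := fun s ξ => by
    simp only [map_mul, mul_apply_eq_comp]
    exact (hc s _).trans (pow_le_pow_left₀ (norm_nonneg _) (proj_norm_apply_le (hz.1.map j) _) 2)
  have hE : ∀ x, WL j atTop (fun s => T.1 (x * star (1 - q s)) * (1 - q s) * z) 0 := fun x => by
    refine wl_of_strong fun ξ => ?_
    have h1 : Tendsto (fun s => j ((1 - q s) * z) ξ) atTop (𝓝 0) := by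
      have h2 := (SSum.tendsto hs (j z ξ)).const_sub (j z ξ)
      rw [← mul_apply_eq_comp, ← map_mul, hz.1.isIdempotentElem, sub_self] at h2
      refine h2.congr fun s => ?_
      rw [sub_mul, one_mul, map_sub, map_mul, sub_apply, mul_apply_eq_comp]
    rw [map_zero, zero_apply]
    refine squeeze_zero_norm (fun s => ?_) (by
      simpa only [norm_zero, mul_zero] using h1.norm.const_mul (‖T.1‖ * ‖x‖))
    rw [mul_assoc, map_mul, mul_apply_eq_comp]
    refine (j _).le_of_opNorm_le ((h.norm_eq _).trans_le (T.1.le_opNorm_of_le ?_)) _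
    refine (norm_mul_le _ _).trans ?_
    rw [norm_star]
    exact mul_le_of_le_one_right (norm_nonneg _) (hq s).one_sub.norm_le
  refine rb_lim (U := (Ultrafilter.of atTop : Ultrafilter (Finset F))) (fun a b => ?_)
    (Eventually.of_forall fun s => core_rb hT hX (hc s) (hc' s))
  have h1 := ((hw T (X a b)).mul_right z).sub ((hE (X a b)).mono (Ultrafilter.of_le _))
  rw [sub_zero] at h1
  refine h1.congr fun s => ?_
  rw [hQ', Fintype.sum_option, add_mul]
  simp only [m, Option.elim_some, Option.elim_none]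
  rw [add_sub_cancel_left, Finset.sum_mul]
  refine Finset.sum_congr rfl fun v _ => ?_
  rw [mul_assoc _ p, ← mul_assoc p, cv_st_right hp (hF _ v.1.2).2, mul_assoc]

theorem cba_modular (h : Corner M 1 j) {R : cbS j →ₗ[ℂ] cbS j}
    (hR : ∀ Q, Adm j Q → ∃ Q', Adm j Q' ∧ R = Q'.comp (Q.comp R)) (T : cbS j) {u x₀ : A}
    (hu : star u * u = 1) (hu' : u * star u = 1) (hx : ‖x₀‖ ≤ 1) :
    (R T).1 x₀ = (R T).1 (x₀ * star u) * u := by
  by_contra hne
  obtain ⟨p, c, hp, hp0, hc0, hc⟩ := h.exists_lower (sub_ne_zero.2 hne)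
  obtain ⟨z, hz, hzp, Q, hQ, hQ'⟩ := cba_spread h hp
  obtain ⟨S, hS, hS'⟩ := exists_adm_col h ![(3 / 5 : ℂ) • 1, (4 / 5 : ℂ) • u] (by
    simp only [Fin.sum_univ_two, Matrix.cons_val_zero, Matrix.cons_val_one, star_smul, star_one,
      smul_mul_smul_comm, hu, mul_one, ← add_smul]
    norm_num)
  obtain ⟨Q', hQ1, e⟩ := hR _ (hQ.comp hS)
  have step : ∀ t, NB j (R T).1 z t → NB j (R T).1 z (t - 144 / 625 * c) := fun t ht => by
    have h1 : NB j (S (R T)).1 p (t - 144 / 625 * c) :=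
      (cba_drop h hz hzp hp hp0 hu hu' hx hc ht).congr fun x => by
        rw [hS']
        simp only [Fin.sum_univ_two, Matrix.cons_val_zero, Matrix.cons_val_one, star_smul,
          star_one, mul_smul_comm, mul_one, map_smul, smul_mul_assoc, smul_smul]
        norm_num
    have h2 := hQ1.nb _ z _ hz (hQ' _ _ h1)
    rw [e]
    exact h2
  obtain ⟨t, ht⟩ := (R T).2
  have h0 : NB j (R T).1 z t := ⟨ht.1, fun α β _ _ X hX ξ => by
    have h1 := ht.2 α β X hX fun b => j z (ξ b)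
    simp only [map_mul, mul_apply_eq_comp, mul_one] at h1 ⊢
    exact h1.trans (mul_le_mul_of_nonneg_left (Finset.sum_le_sum fun b _ =>
      pow_le_pow_left₀ (norm_nonneg _) (proj_norm_apply_le (hz.1.map j) _) 2) ht.1)⟩
  have h1 : ∀ n : ℕ, NB j (R T).1 z (t - n * (144 / 625 * c)) := fun n => by
    induction n with
    | zero => simpa using h0
    | succ n ih =>
      have := step _ ih
      rwa [sub_sub, ← add_one_mul, ← Nat.cast_succ] at this
  obtain ⟨n, hn⟩ := exists_nat_gt (t / (144 / 625 * c))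
  rw [div_lt_iff₀ (by positivity)] at hn
  linarith [(h1 n).1]

theorem cba_right (h : Corner M 1 j) {S : A →L[ℂ] A}
    (hS : ∀ u x : A, star u * u = 1 → u * star u = 1 → ‖x‖ ≤ 1 → S x = S (x * star u) * u)
    (a : A) : S a = S 1 * a := by
  have h1 : ∀ u : unitary A, S u = S 1 * u := fun u => by
    have h2 := hS u u u.2.1 u.2.2 (by
      rw [← h.norm_eq]
      refine ContinuousLinearMap.opNorm_le_bound _ zero_le_one fun ξ => ?_
      rw [one_mul]
      exact (abs_le_of_sq_le_sq' (cba_unit h u.2.1 ξ).le (norm_nonneg _)).2)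
    rwa [u.2.2] at h2
  obtain ⟨u, c, rfl, -⟩ := CStarAlgebra.exists_sum_four_unitary a
  simp only [map_sum, map_smul, h1, Finset.mul_sum, mul_smul_comm]

end Aux

theorem exists_ret_cb {L : Type*} [NormedAddCommGroup L] [InnerProductSpace ℂ L] [CompleteSpace L]
    {A : Type*} [CStarAlgebra A] {M : VonNeumannAlgebra L} {j : A →⋆ₙₐ[ℂ] (L →L[ℂ] L)}
    (h : Corner M 1 j) : ∃ Ψ : (A →L[ℂ] A) →ₗ[ℂ] A, IsRet (CB j) 1 Ψ := by
  obtain ⟨R, hR, hmax⟩ := exists_adm_max h
  let Ψ₀ : cbS j →ₗ[ℂ] A :=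
    { toFun := fun T => (R T).1 1
      map_add' := fun T T' => by simp
      map_smul' := fun c T => by simp }
  obtain ⟨Ψ, hΨ⟩ := Ψ₀.exists_extend
  have h1 : ∀ T : cbS j, Ψ T.1 = (R T).1 1 := fun T => LinearMap.congr_fun hΨ T
  refine ⟨Ψ, fun T C hC hT => ?_, fun T C hC hT a => ?_, fun T C hC hT a => ?_, fun c => ?_⟩
  · have h2 := (hR.nb ⟨T, _, nb_of_cb hT⟩ 1 _ cba_cp_one (nb_of_cb hT)).norm_le1 h.inj
      (IsStarProjection.one A).norm_le
    rwa [Real.sqrt_sq hC, ← h1] at h2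
  · exact (h1 ⟨(lm a).comp T, _, (nb_of_cb hT).mul_left a⟩).trans
      ((hR.left a ⟨T, _, nb_of_cb hT⟩ _ (fun x => rfl) 1).trans (by rw [← h1]))
  · refine (h1 ⟨T.comp (lm a), (nb_of_cb hT).transl a⟩).trans
      ((hR.right a ⟨T, _, nb_of_cb hT⟩ _ (fun x => rfl) 1).trans ?_)
    rw [mul_one, cba_right h (fun u x hu hu' hx => cba_modular h hmax _ hu hu' hx) a, ← h1]
  · refine (h1 ⟨lm c, _, nb_id.mul_left c⟩).trans
      ((hR.left c ⟨ContinuousLinearMap.id ℂ A, _, nb_id⟩ _ (fun x => rfl) 1).trans ?_)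
    rw [hR.one _ (fun x => rfl), mul_one, one_mul]

end Vale.Agent.P082
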