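import Vale.Agent.P082.CoverAux
import Vale.Agent.P104.GoodVNAux

/-! Rectangular matrix bounds used in the averaging of completely bounded maps. -/

open scoped InnerProductSpace ComplexOrder Topology
open Filter

namespace Vale.Agent.P082

open Vale.Agent.P104

variable {L : Type*} [NormedAddCommGroup L] [InnerProductSpace ℂ L] [CompleteSpace L]
  {A : Type*} [CStarAlgebra A] {M : VonNeumannAlgebra L} {j : A →⋆ₙₐ[ℂ] (L →L[ℂ] L)}

/-- The rectangular matrix `x` has squared norm at most `t`. -/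
def RB (j : A →⋆ₙₐ[ℂ] (L →L[ℂ] L)) (t : ℝ) {α β : Type*} [Fintype α] [Fintype β]
    (x : α → β → A) : Prop :=
  ∀ ξ : β → L, ∑ a, ‖∑ b, j (x a b) (ξ b)‖ ^ 2 ≤ t * ∑ b, ‖ξ b‖ ^ 2

/-- The map `x ↦ T x * p` has squared completely bounded norm at most `t`. -/
def NB (j : A →⋆ₙₐ[ℂ] (L →L[ℂ] L)) (T : A → A) (p : A) (t : ℝ) : Prop :=
  0 ≤ t ∧ ∀ (α β : Type) [Fintype α] [Fintype β] (X : α → β → A),
    RB j 1 X → RB j t fun a b => T (X a b) * p

/-- Column contraction. -/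
def CCol (j : A →⋆ₙₐ[ℂ] (L →L[ℂ] L)) {κ : Type*} [Fintype κ] (m : κ → A) : Prop :=
  ∀ ξ : L, ∑ k, ‖j (m k) ξ‖ ^ 2 ≤ ‖ξ‖ ^ 2

theorem CCol.row {κ : Type*} [Fintype κ] {m : κ → A} (h : CCol j m) (η : κ → L) :
    ‖∑ k, j (star (m k)) (η k)‖ ^ 2 ≤ ∑ k, ‖η k‖ ^ 2 := by
  have h1 : GCol 1 fun k => j (m k) := fun θ => by simpa using h θ
  simpa [map_star] using h1.row η

theorem ccol_of_sum {κ : Type*} [Fintype κ] {m : κ → A} (h1 : j 1 = 1)
    (h : ∑ k, star (m k) * m k = 1) : CCol j m := fun ξ => by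
  have e : ∑ k, ‖j (m k) ξ‖ ^ 2 = (⟪ξ, j (∑ k, star (m k) * m k) ξ⟫_ℂ).re := by
    rw [map_sum, sum_apply, inner_sum, Complex.re_sum]
    exact Finset.sum_congr rfl fun k _ => by rw [norm_sq_apply, map_mul, map_star]
  rw [e, h, h1, one_apply_eq_self, inner_self_eq_norm_sq_to_K]
  norm_cast

theorem rb_lim {ι α β : Type*} [Fintype α] [Fintype β] {U : Filter ι} [U.NeBot] {t : ℝ}
    {x : ι → α → β → A} {y : α → β → A} (hw : ∀ a b, WL j U (fun i => x i a b) (y a b))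
    (hx : ∀ᶠ i in U, RB j t (x i)) : RB j t y := fun ξ => by
  set Y : α → L := fun a => ∑ b, j (y a b) (ξ b) with hY
  have h1 : Tendsto (fun i => ∑ a, (⟪Y a, ∑ b, j (x i a b) (ξ b)⟫_ℂ).re) U
      (𝓝 (∑ a, ‖Y a‖ ^ 2)) := by
    refine tendsto_finsetSum _ fun a _ => ?_
    have h2 : Tendsto (fun i => ⟪Y a, ∑ b, j (x i a b) (ξ b)⟫_ℂ) U (𝓝 ⟪Y a, Y a⟫_ℂ) := by
      have h4 := tendsto_finsetSum Finset.univ fun b _ => hw a b (Y a) (ξ b)
      simpa only [← inner_sum] using h4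
    have h3 := (Complex.continuous_re.tendsto _).comp h2
    have e : (⟪Y a, Y a⟫_ℂ).re = ‖Y a‖ ^ 2 := by
      rw [inner_self_eq_norm_sq_to_K]; norm_cast
    rwa [e] at h3
  have h2 : ∑ a, ‖Y a‖ ^ 2 ≤ (∑ a, ‖Y a‖ ^ 2 + t * ∑ b, ‖ξ b‖ ^ 2) / 2 := by
    refine le_of_tendsto h1 (hx.mono fun i hi => ?_)
    have h3 := hi ξ
    have h4 : ∑ a, (⟪Y a, ∑ b, j (x i a b) (ξ b)⟫_ℂ).re ≤
        ∑ a, (‖Y a‖ ^ 2 + ‖∑ b, j (x i a b) (ξ b)‖ ^ 2) / 2 := Finset.sum_le_sum fun a _ => by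
      have h5 := (Complex.re_le_norm _).trans
        (norm_inner_le_norm (𝕜 := ℂ) (Y a) (∑ b, j (x i a b) (ξ b)))
      nlinarith [sq_nonneg (‖Y a‖ - ‖∑ b, j (x i a b) (ξ b)‖)]
    rw [← Finset.sum_div, Finset.sum_add_distrib] at h4
    linarith
  linarith

theorem core_rb0 {T : A → A} {p : A} {t : ℝ} (h : NB j T p t) {α β κ : Type} [Fintype α]
    [Fintype β] [Fintype κ] {X : α → β → A} (hX : RB j 1 X) {m n : κ → A} (hm : CCol j m)
    (hn : CCol j n) : RB j t fun a b => ∑ k, T (X a b * star (m k)) * p * n k := fun ξ => by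
  have h1 : RB j 1 fun a (bk : β × κ) => X a bk.1 * star (m bk.2) := fun η => by
    have h2 := hX fun b => ∑ k, j (star (m k)) (η (b, k))
    simp only [map_sum] at h2
    simp only [Fintype.sum_prod_type, map_mul, mul_apply_eq_comp]
    refine h2.trans ?_
    rw [one_mul, one_mul]
    exact Finset.sum_le_sum fun b _ => hm.row _
  have h2 := h.2 _ _ _ h1 fun bk => j (n bk.2) (ξ bk.1)
  simp only [Fintype.sum_prod_type] at h2
  simp only [map_sum, sum_apply, map_mul (f := j) _ (n _),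
    mul_apply_eq_comp]
  exact h2.trans (mul_le_mul_of_nonneg_left (Finset.sum_le_sum fun b _ => hn _) h.1)

theorem core_rb {T : A → A} {p : A} {t : ℝ} (h : NB j T p t) {α β : Type} {κ : Type*} [Fintype α]
    [Fintype β] [Fintype κ] {X : α → β → A} (hX : RB j 1 X) {m n : κ → A} (hm : CCol j m)
    (hn : CCol j n) : RB j t fun a b => ∑ k, T (X a b * star (m k)) * p * n k := by
  let e := (Fintype.equivFin κ).symm
  have h1 := core_rb0 h hX (m := fun i => m (e i)) (n := fun i => n (e i))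
    (fun ξ => by rw [e.sum_comp fun k => ‖j (m k) ξ‖ ^ 2]; exact hm ξ)
    (fun ξ => by rw [e.sum_comp fun k => ‖j (n k) ξ‖ ^ 2]; exact hn ξ)
  have e1 : ∀ a b, ∑ i, T (X a b * star (m (e i))) * p * n (e i) =
      ∑ k, T (X a b * star (m k)) * p * n k := fun a b =>
    e.sum_comp fun k => T (X a b * star (m k)) * p * n k
  simpa only [e1] using h1

theorem rb_unit {x : A} (hx : ‖x‖ ≤ 1) : RB j 1 fun (_ _ : Unit) => x := fun ξ => by
  have h1 := (j x).le_of_opNorm_le ((NonUnitalStarAlgHom.norm_apply_le j x).trans hx) (ξ ())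
  simpa using pow_le_pow_left₀ (norm_nonneg _) h1 2

theorem NB.norm_le1 (hj : Function.Injective j) {T : A → A} {t : ℝ} (h : NB j T 1 t) {x : A}
    (hx : ‖x‖ ≤ 1) : ‖T x‖ ≤ √t := by
  rw [← NonUnitalStarAlgHom.norm_map j hj]
  refine ContinuousLinearMap.opNorm_le_bound _ (Real.sqrt_nonneg _) fun ξ => ?_
  have h1 := h.2 _ _ _ (rb_unit hx) fun _ => ξ
  simp only [Finset.univ_unique, Finset.sum_singleton, mul_one] at h1
  refine (abs_le_of_sq_le_sq' ?_ (by positivity)).2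
  rwa [mul_pow, Real.sq_sqrt h.1]

theorem NB.norm_le (hj : Function.Injective j) {T : A →L[ℂ] A} {t : ℝ} (h : NB j T 1 t) :
    ‖T‖ ≤ √t :=
  ContinuousLinearMap.opNorm_le_of_unit_norm (Real.sqrt_nonneg _) fun _ hx =>
    h.norm_le1 hj hx.le

theorem nb_of_cb {T : A →L[ℂ] A} {C : ℝ} (h : CB j T C) : NB j T 1 (C ^ 2) := by
  refine ⟨sq_nonneg _, fun α β _ _ X hX ξ => ?_⟩
  let Y : α ⊕ β → α ⊕ β → A := fun a b => Sum.elim (fun a => Sum.elim (fun _ => 0) (X a) b)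
    (fun _ => 0) a
  have h1 : MBdd 1 fun a b => j (Y a b) := fun η => by
    have h2 := hX fun b => η (Sum.inr b)
    have h3 : 0 ≤ ∑ a, ‖η (Sum.inl a)‖ ^ 2 := Finset.sum_nonneg fun _ _ => sq_nonneg _
    simp only [Fintype.sum_sum_type, Y, Sum.elim_inl, Sum.elim_inr, map_zero,
      zero_apply, Finset.sum_const_zero, zero_add, add_zero, norm_zero]
    simp only [ne_eq, OfNat.ofNat_ne_zero, not_false_eq_true, zero_pow, Finset.sum_const_zero]
    linarith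
  have h2 := h _ Y h1 (Sum.elim (fun _ => 0) ξ)
  simpa [Fintype.sum_sum_type, Y] using h2

theorem nb_id : NB j (fun x => x) 1 1 :=
  ⟨zero_le_one, fun _ _ _ _ X hX => by simpa using hX⟩

theorem NB.congr {T T' : A → A} {p : A} {t : ℝ} (h : NB j T p t) (e : ∀ x, T' x = T x) :
    NB j T' p t := by
  rwa [funext e]

theorem NB.add {T T' : A → A} {p : A} {t t' : ℝ} (h : NB j T p t) (h' : NB j T' p t') :
    NB j (fun x => T x + T' x) p (2 * t + 2 * t') := by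
  refine ⟨by linarith [h.1, h'.1], fun α β _ _ X hX ξ => ?_⟩
  have h1 := h.2 _ _ X hX ξ
  have h2 := h'.2 _ _ X hX ξ
  simp only [add_mul, map_add, add_apply, Finset.sum_add_distrib]
  have h3 : ∀ u v : L, ‖u + v‖ ^ 2 ≤ 2 * ‖u‖ ^ 2 + 2 * ‖v‖ ^ 2 := fun u v => by
    have := pow_le_pow_left₀ (norm_nonneg _) (norm_add_le u v) 2
    nlinarith [sq_nonneg (‖u‖ - ‖v‖)]
  refine (Finset.sum_le_sum fun a _ => h3 _ _).trans ?_
  rw [Finset.sum_add_distrib, ← Finset.mul_sum, ← Finset.mul_sum]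
  linarith

theorem RB.mul_left {α β : Type*} [Fintype α] [Fintype β] {x : α → β → A} {t : ℝ}
    (h : RB j t x) (c : A) : RB j (‖c‖ ^ 2 * t) fun a b => c * x a b := fun ξ => by
  simp only [map_mul, mul_apply_eq_comp, ← map_sum]
  have h3 : ∀ u : L, ‖j c u‖ ^ 2 ≤ ‖c‖ ^ 2 * ‖u‖ ^ 2 := fun u => by
    rw [← mul_pow]
    exact pow_le_pow_left₀ (norm_nonneg _)
      ((j c).le_of_opNorm_le (NonUnitalStarAlgHom.norm_apply_le j c) u) 2
  refine (Finset.sum_le_sum fun a _ => h3 _).trans ?_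
  rw [← Finset.mul_sum, mul_assoc]
  exact mul_le_mul_of_nonneg_left (h ξ) (sq_nonneg _)

theorem RB.mono {α β : Type*} [Fintype α] [Fintype β] {x : α → β → A} {t s : ℝ}
    (h : RB j t x) (hs : t ≤ s) : RB j s x := fun ξ =>
  (h ξ).trans (mul_le_mul_of_nonneg_right hs (Finset.sum_nonneg fun _ _ => sq_nonneg _))

theorem NB.mul_left {T : A → A} {p : A} {t : ℝ} (h : NB j T p t) (c : A) :
    NB j (fun x => c * T x) p (‖c‖ ^ 2 * t) :=
  ⟨mul_nonneg (sq_nonneg _) h.1, fun α β _ _ X hX => by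
    simpa only [mul_assoc] using (h.2 α β X hX).mul_left c⟩

theorem NB.smul {T : A → A} {p : A} {t : ℝ} (h : NB j T p t) (c : ℂ) :
    ∃ s, NB j (fun x => c • T x) p s :=
  ⟨_, (h.mul_left (c • 1)).congr fun x => by simp⟩

theorem NB.transl {T : A →L[ℂ] A} {p : A} {t : ℝ} (h : NB j T p t) (c : A) :
    ∃ s, NB j (fun x => T (c * x)) p s := by
  have hK : 0 < ‖c‖ + 1 := by positivity
  have h1 : ‖((‖c‖ + 1 : ℝ) : ℂ)⁻¹ • c‖ ≤ 1 := by
    rw [norm_smul, norm_inv, Complex.norm_real, Real.norm_of_nonneg hK.le, inv_mul_le_iff₀ hK]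
    linarith
  have h2 : NB j (fun x => T ((((‖c‖ + 1 : ℝ) : ℂ)⁻¹ • c) * x)) p t :=
    ⟨h.1, fun α β _ _ X hX => h.2 α β _ ((hX.mul_left _).mono (by
      rw [mul_one]; exact pow_le_one₀ (norm_nonneg _) h1))⟩
  obtain ⟨s, hs⟩ := h2.smul ((‖c‖ + 1 : ℝ) : ℂ)
  refine ⟨s, hs.congr fun x => ?_⟩
  rw [smul_mul_assoc, map_smul, smul_smul, mul_inv_cancel₀ (by exact_mod_cast hK.ne'), one_smul]

/-- A nonzero element is bounded below on a nonzero projection. -/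
theorem Corner.exists_lower (h : Corner M 1 j) {d : A} (hd : d ≠ 0) :
    ∃ (p : A) (c : ℝ), IsStarProjection p ∧ p ≠ 0 ∧ 0 < c ∧
      ∀ ξ, c * ‖j p ξ‖ ^ 2 ≤ ‖j d (j p ξ)‖ ^ 2 := by
  set D := j d with hD
  have hD0 : 0 < ‖D‖ := norm_pos_iff.2 fun h0 => hd (h.inj (h0.trans (map_zero j).symm))
  have hε : 0 < ‖D‖ ^ 2 / 4 := by positivity
  set ε := ‖D‖ ^ 2 / 4 with hε0
  obtain ⟨m, f, c, hf, ho, hs, hc, he⟩ :=
    exists_partition (IsSelfAdjoint.star_mul_self D) hε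
  have hb : ∀ a ξ, |‖D (f a ξ)‖ ^ 2 - c a * ‖f a ξ‖ ^ 2| ≤ ε * ‖f a ξ‖ ^ 2 := fun a ξ => by
    rw [norm_sq_apply D]
    exact abs_inner_sub_le (he a) (by rw [← mul_apply_eq_comp, (hf a).isIdempotentElem])
  have hh : star D * D ∈ M := mul_mem (star_mem (h.mem d)) (h.mem d)
  obtain ⟨a, ha0, ha⟩ : ∃ a, f a ≠ 0 ∧ 2 * ε ≤ c a := by
    by_contra hcon
    push Not at hcon
    have h1 : ∀ ξ, ‖D ξ‖ ^ 2 ≤ 3 * ε * ‖ξ‖ ^ 2 := fun ξ => by
      rw [← pyth_family D f hf ho hs (fun a => hc a _ (Commute.refl _) (by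
        rw [(IsSelfAdjoint.star_mul_self D).star_eq])) ξ]
      have h2 := pyth_family 1 f hf ho hs (fun a => by simp) ξ
      simp only [one_apply_eq_self] at h2
      rw [← h2, Finset.mul_sum]
      refine Finset.sum_le_sum fun a _ => ?_
      by_cases h0 : f a = 0
      · simp [h0]
      · have := (abs_le.1 (hb a ξ)).2
        nlinarith [hcon a h0, sq_nonneg ‖f a ξ‖]
    have h2 : ‖D‖ ≤ 7 / 8 * ‖D‖ := ContinuousLinearMap.opNorm_le_bound _ (by positivity) fun ξ =>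
      (abs_le_of_sq_le_sq' ((h1 ξ).trans (by
        rw [hε0, mul_pow, mul_pow]
        nlinarith [sq_nonneg (‖D‖ * ‖ξ‖)])) (by positivity)).2
    linarith
  obtain ⟨p, hp⟩ := h.surj_one (mem_of_commute M fun y hy => hc a y (commute_of_mem M hy hh)
    (commute_of_mem M (star_mem hy) hh))
  refine ⟨p, ε, cv_proj_of_map h.inj (hp ▸ hf a), fun h0 => ha0 (by rw [← hp, h0, map_zero]), hε,
    fun ξ => ?_⟩
  rw [hp]
  have := (abs_le.1 (hb a ξ)).1
  nlinarith [sq_nonneg ‖f a ξ‖]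

end Vale.Agent.P082
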