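import Mathlib

/-! The Hochschild coboundary (P082). -/

namespace Vale.Agent.P082

/-- The Hochschild coboundary of a `k`-cochain `f` on a ring `A` with values in `A`:
`(d f)(a₀,…,a_k) = a₀ f(a₁,…,a_k) + ∑_{j=1}^{k} (-1)^j f(a₀,…,a_{j-1} a_j,…,a_k)
  + (-1)^{k+1} f(a₀,…,a_{k-1}) a_k`.
`Fin.contractNth j (· * ·) a` replaces the entries `a_j, a_{j+1}` by their product. -/
def hochschildD {A : Type*} [Ring A] {k : ℕ} (f : (Fin k → A) → A) (a : Fin (k + 1) → A) : A :=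
  a 0 * f (Fin.tail a)
    + ∑ j : Fin k, (-1) ^ ((j : ℕ) + 1) * f (Fin.contractNth j.castSucc (· * ·) a)
    + (-1) ^ (k + 1) * (f (Fin.init a) * a (Fin.last k))

end Vale.Agent.P082
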