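import Vale.Agent.P082.Base
import Vale.Agent.P082.Defs

/-! Algebra of list cochains (helper92). -/

namespace Vale.Agent.P082

section Bar

variable {A X Y : Type*} [Ring A] [AddCommGroup X] [AddCommGroup Y]

theorem bD_nil (r : X → A → X) (f : List A → X) (a : A) : bD r f a [] = r (f []) a := rfl

theorem bD_cons (r : X → A → X) (f : List A → X) (a b : A) (l : List A) :
    bD r f a (b :: l) = f (a * b :: l) - bD r (fun m => f (a :: m)) b l := rfl

theorem bD_congr (r : X → A → X) {f g : List A → X} (a : A) (l : List A)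
    (h : ∀ m : List A, m.length = l.length → f m = g m) : bD r f a l = bD r g a l := by
  induction l generalizing f g a with
  | nil => rw [bD_nil, bD_nil, h [] rfl]
  | cons b l ih =>
    rw [bD_cons, bD_cons, h _ (by simp), ih b fun m hm => h _ (by simp [hm])]

/-- `bD` respects any relation closed under subtraction and the actions. -/
theorem bD_rel {ι : Type*} (r : X → A → X) (R : (ι → X) → X → Prop)
    (hs : ∀ x y x' y', R x y → R x' y' → R (fun i => x i - x' i) (y - y'))
    (hr : ∀ x y a, R x y → R (fun i => r (x i) a) (r y a))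
    (f : ι → List A → X) (g : List A → X) (a : A) (l : List A)
    (h : ∀ m : List A, m.length = l.length → R (fun i => f i m) (g m)) :
    R (fun i => bD r (f i) a l) (bD r g a l) := by
  induction l generalizing f g a with
  | nil => exact hr _ _ a (h [] rfl)
  | cons b l ih =>
    exact hs _ _ _ _ (h (a * b :: l) (by simp))
      (ih (fun i m => f i (a :: m)) (fun m => g (a :: m)) b fun m hm => h _ (by simp [hm]))

theorem bD_map (r : X → A → X) (r' : Y → A → Y) (φ : X →+ Y) (f : List A → X) (a : A)
    (l : List A) (h : ∀ m : List A, m.length = l.length → ∀ b, φ (r (f m) b) = r' (φ (f m)) b) :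
    φ (bD r f a l) = bD r' (fun m => φ (f m)) a l := by
  induction l generalizing f a with
  | nil => exact h [] rfl a
  | cons b l ih =>
    rw [bD_cons, bD_cons, map_sub, ih _ b fun m hm => h _ (by simp [hm])]

theorem bD_sub (r : X → A → X) (hr : ∀ x y a, r (x - y) a = r x a - r y a) (f g : List A → X)
    (a : A) (l : List A) : bD r (fun m => f m - g m) a l = bD r f a l - bD r g a l := by
  induction l generalizing f g a with
  | nil => exact hr _ _ a
  | cons b l ih =>
    rw [bD_cons, bD_cons, bD_cons, ih]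
    abel

theorem bD_mul_left (c : A) (f : List A → A) (a : A) (l : List A) :
    bD (· * ·) (fun m => c * f m) a l = c * bD (· * ·) f a l :=
  (bD_map (· * ·) (· * ·) (AddMonoidHom.mulLeft c) f a l fun _ _ _ => (mul_assoc _ _ _).symm).symm

theorem dL_sub (f g : List A → A) (a : A) (l : List A) :
    dL (fun m => f m - g m) a l = dL f a l - dL g a l := by
  rw [dL, dL, dL, bD_sub _ (fun x y a => sub_mul x y a), mul_sub]
  abel

theorem dL_zero (a : A) (l : List A) : dL (fun _ => 0) a l = 0 := by
  simpa using dL_sub (fun _ => 0) (fun _ => 0) a l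

theorem dL_neg (f : List A → A) (a : A) (l : List A) : dL (fun m => -f m) a l = -dL f a l := by
  simpa [dL_zero] using dL_sub (fun _ => 0) f a l

theorem dL_add (f g : List A → A) (a : A) (l : List A) :
    dL (fun m => f m + g m) a l = dL f a l + dL g a l := by
  simpa [dL_neg] using dL_sub f (fun m => -g m) a l

theorem dL_sum {κ : Type*} (s : Finset κ) (f : κ → List A → A) (a : A) (l : List A) :
    dL (fun m => ∑ k ∈ s, f k m) a l = ∑ k ∈ s, dL (f k) a l := by
  classical
  induction s using Finset.induction_on with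
  | empty => simpa using dL_zero a l
  | insert k s hk ih => simp only [Finset.sum_insert hk, dL_add, ih]

theorem dL_central {c : A} (hc : ∀ x, c * x = x * c) (f : List A → A) (a : A) (l : List A) :
    dL (fun m => c * f m) a l = c * dL f a l := by
  rw [dL, dL, bD_mul_left, mul_sub, ← mul_assoc, ← hc, mul_assoc]

theorem dL_congr {f g : List A → A} (a : A) (l : List A)
    (h : ∀ m : List A, m.length = l.length → f m = g m) : dL f a l = dL g a l := by
  rw [dL, dL, h l rfl, bD_congr _ a l h]

/-- The last variable. -/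
theorem bD_append (f : List A → A) (a : A) (l : List A) (x : A) :
    bD (· * ·) f a (l ++ [x]) =
      bD (fun (T : A → A) b y => T (b * y)) (fun m y => f (m ++ [y])) a l x
        - (-1) ^ l.length * (f (a :: l) * x) := by
  induction l generalizing f a with
  | nil => simp [bD_cons, bD_nil]
  | cons b l ih =>
    rw [List.cons_append, bD_cons, ih, bD_cons, List.length_cons, pow_succ]
    simp only [Pi.sub_apply, List.cons_append]
    noncomm_ring

/-- The prism operator. -/
def pr (α : A → A) (t : A) : (List A → A) → List A → A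
  | f, [] => f [t]
  | f, a :: l => f (t :: a :: l) - pr α t (fun m => f (α a :: m)) l

theorem pr_nil (α : A → A) (t : A) (f : List A → A) : pr α t f [] = f [t] := rfl

theorem pr_cons (α : A → A) (t : A) (f : List A → A) (a : A) (l : List A) :
    pr α t f (a :: l) = f (t :: a :: l) - pr α t (fun m => f (α a :: m)) l := rfl

theorem pr_congr (α : A → A) (t : A) {f g : List A → A} (l : List A)
    (h : ∀ m : List A, m.length = l.length + 1 → f m = g m) : pr α t f l = pr α t g l := by
  induction l generalizing f g with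
  | nil => exact h _ rfl
  | cons b l ih => rw [pr_cons, pr_cons, h _ (by simp), ih fun m hm => h _ (by simp [hm])]

theorem pr_sub (α : A → A) (t : A) (f g : List A → A) (l : List A) :
    pr α t (fun m => f m - g m) l = pr α t f l - pr α t g l := by
  induction l generalizing f g with
  | nil => rfl
  | cons b l ih =>
    rw [pr_cons, pr_cons, pr_cons, ih]
    abel

theorem pr_mul_left (α : A → A) (t c : A) (f : List A → A) (l : List A) :
    pr α t (fun m => c * f m) l = c * pr α t f l := by
  induction l generalizing f with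
  | nil => rfl
  | cons b l ih => rw [pr_cons, pr_cons, ih, mul_sub]

/-- `bD` as a function of the whole list. -/
def bE (f : List A → A) : List A → A
  | [] => 0
  | a :: l => bD (· * ·) f a l

theorem prism_aux {α : A → A} (hα : ∀ a b, α (a * b) = α a * α b) {t : A}
    (ht : ∀ a, α a * t = t * a) (f : List A → A) (a : A) (l : List A) :
    bD (· * ·) (pr α t f) a l + pr α t (bE f) (a :: l) = f ((a :: l).map α) * t := by
  induction l generalizing f a with
  | nil =>
    simp only [bD_nil, pr_nil, pr_cons, bE, bD_cons, ht, List.map_cons, List.map_nil]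
    abel
  | cons b l ih =>
    have e1 : pr α t (fun m => bE f (α a :: m)) (b :: l) =
        f (t * a :: b :: l) - pr α t (fun m => f (α a * α b :: m)) l -
          pr α t (bE fun m => f (α a :: m)) (b :: l) := by
      rw [pr_congr α t (g := fun m => f (α a * m.headD 0 :: m.tail) - bE (fun m => f (α a :: m)) m)
        (b :: l) (fun m hm => by
          cases m with
          | nil => simp at hm
          | cons c m => rfl), pr_sub, pr_cons]
      simp only [List.headD_cons, List.tail_cons, ht]
    have e2 : bD (· * ·) (fun m => pr α t f (a :: m)) b l =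
        bD (· * ·) (fun m => f (t :: a :: m)) b l -
          bD (· * ·) (pr α t fun m => f (α a :: m)) b l :=
      bD_sub _ (fun x y a => sub_mul x y a) _ _ b l
    have e3 := ih (fun m => f (α a :: m)) b
    rw [bD_cons, pr_cons α t (bE f), e1, e2, pr_cons, hα]
    simp only [bE, bD_cons, List.map_cons] at e3 ⊢
    rw [← e3]
    abel

theorem prism {α : A → A} (hα : ∀ a b, α (a * b) = α a * α b) {s t : A}
    (ht : ∀ a, α a * t = t * a) (hs : ∀ a, s * α a = a * s) {k : ℕ} {f : List A → A}
    (hf : ∀ a l, l.length = k + 1 → dL f a l = 0) (a : A) (l : List A) (hl : l.length = k) :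
    dL (fun m => s * pr α t f m) a l = s * t * f (a :: l) - s * f ((a :: l).map α) * t := by
  have e1 : pr α t (bE f) (a :: l) = t * f (a :: l) - α a * pr α t f l := by
    rw [pr_congr α t (g := fun m => m.headD 0 * f m.tail) (a :: l) (fun m hm => by
      cases m with
      | nil => simp at hm
      | cons c m =>
        have := hf c m (by simpa [hl] using hm)
        rw [dL, sub_eq_zero] at this
        exact this.symm), pr_cons]
    simp only [List.headD_cons, List.tail_cons, pr_mul_left]
  have e2 := prism_aux hα ht f a l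
  rw [dL, bD_mul_left, mul_assoc s _ t, ← e2, e1, ← mul_assoc, ← hs]
  noncomm_ring

end Bar

variable {A : Type*} [NormedRing A] [NormedAlgebra ℂ A]

omit [NormedAlgebra ℂ A] in
@[simp] theorem np_nil : np ([] : List A) = 1 := rfl

omit [NormedAlgebra ℂ A] in
@[simp] theorem np_cons (a : A) (l : List A) : np (a :: l) = ‖a‖ * np l := by simp [np]

omit [NormedAlgebra ℂ A] in
theorem np_append (l m : List A) : np (l ++ m) = np l * np m := by simp [np]

omit [NormedAlgebra ℂ A] in
theorem np_nonneg (l : List A) : 0 ≤ np l := by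
  induction l with
  | nil => simp
  | cons a l ih => rw [np_cons]; positivity

omit [NormedAlgebra ℂ A] in
theorem np_map_le {α : A → A} (hα : ∀ a, ‖α a‖ ≤ ‖a‖) (l : List A) : np (l.map α) ≤ np l := by
  induction l with
  | nil => simp
  | cons a l ih =>
    rw [List.map_cons, np_cons, np_cons]
    exact mul_le_mul (hα a) ih (np_nonneg _) (norm_nonneg _)

section Lin

variable {X Y : Type*} [AddCommGroup X] [Module ℂ X] [AddCommGroup Y] [Module ℂ Y]

theorem Lin.map {k : ℕ} {f : List A → X} (h : Lin k f) (φ : X →ₗ[ℂ] Y) :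
    Lin k fun l => φ (f l) := fun l hl i hi =>
  ⟨fun a b => by simp only [(h l hl i hi).map_add, map_add],
    fun c a => by simp only [(h l hl i hi).map_smul, map_smul]⟩

theorem Lin.sub {k : ℕ} {f g : List A → X} (h : Lin k f) (h' : Lin k g) :
    Lin k fun l => f l - g l := fun l hl i hi =>
  ⟨fun a b => by simp only [(h l hl i hi).map_add, (h' l hl i hi).map_add]; abel,
    fun c a => by simp only [(h l hl i hi).map_smul, (h' l hl i hi).map_smul, smul_sub]⟩

theorem Lin.add {k : ℕ} {f g : List A → X} (h : Lin k f) (h' : Lin k g) :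
    Lin k fun l => f l + g l := fun l hl i hi =>
  ⟨fun a b => by simp only [(h l hl i hi).map_add, (h' l hl i hi).map_add]; abel,
    fun c a => by simp only [(h l hl i hi).map_smul, (h' l hl i hi).map_smul, smul_add]⟩

theorem Lin.sum {κ : Type*} (s : Finset κ) {k : ℕ} {f : κ → List A → X}
    (h : ∀ a ∈ s, Lin k (f a)) : Lin k fun l => ∑ a ∈ s, f a l := fun l hl i hi =>
  ⟨fun a b => by
    rw [← Finset.sum_add_distrib]
    exact Finset.sum_congr rfl fun c hc => (h c hc l hl i hi).map_add a b,
   fun c a => by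
    rw [Finset.smul_sum]
    exact Finset.sum_congr rfl fun d hd => (h d hd l hl i hi).map_smul c a⟩

theorem Lin.cons {k : ℕ} {f : List A → X} (h : Lin (k + 1) f) (a : A) :
    Lin k fun l => f (a :: l) := fun l hl i hi =>
  h (a :: l) (by simp [hl]) (i + 1) (by omega)

theorem Lin.head {k : ℕ} {f : List A → X} (h : Lin (k + 1) f) (l : List A) (hl : l.length = k) :
    IsLinearMap ℂ fun a => f (a :: l) :=
  h (0 :: l) (by simp [hl]) 0 (by omega)

theorem Lin.last {k : ℕ} {f : List A → X} (h : Lin (k + 1) f) (l : List A) (hl : l.length = k) :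
    IsLinearMap ℂ fun a => f (l ++ [a]) := by
  have := h (l ++ [0]) (by simp [hl]) k (by omega)
  simpa [List.set_append_right, hl] using this

theorem Lin.init {k : ℕ} {f : List A → X} (h : Lin (k + 1) f) (x : A) :
    Lin k fun l => f (l ++ [x]) := fun l hl i hi => by
  have := h (l ++ [x]) (by simp [hl]) i (by omega)
  simpa only [List.set_append_left _ _ (hl ▸ hi)] using this

theorem Lin.comp_map {k : ℕ} {f : List A → X} (h : Lin k f) (α : A →ₗ[ℂ] A) :
    Lin k fun l => f (l.map α) := fun l hl i hi => by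
  have := h (l.map α) (by simp [hl]) i hi
  simp only [List.map_set]
  exact ⟨fun a b => by rw [map_add, this.map_add], fun c a => by rw [map_smul, this.map_smul]⟩

theorem lin_succ {k : ℕ} {f : List A → X}
    (h0 : ∀ l : List A, l.length = k → IsLinearMap ℂ fun a => f (a :: l))
    (h1 : ∀ a, Lin k fun l => f (a :: l)) : Lin (k + 1) f := by
  intro l hl i hi
  cases l with
  | nil => simp at hl
  | cons a l =>
    cases i with
    | zero => exact h0 l (by simpa using hl)
    | succ i => exact h1 a l (by simpa using hl) i (by omega)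

end Lin

theorem pr_smul (α : A → A) (t : A) (c : ℂ) (f : List A → A) (l : List A) :
    pr α t (fun m => c • f m) l = c • pr α t f l := by
  simpa only [Algebra.smul_def] using pr_mul_left α t (algebraMap ℂ A c) f l

omit [NormedAlgebra ℂ A] in
theorem pr_add (α : A → A) (t : A) (f g : List A → A) (l : List A) :
    pr α t (fun m => f m + g m) l = pr α t f l + pr α t g l := by
  have h1 := pr_sub α t (fun m => f m + g m) g l
  simp only [add_sub_cancel_right] at h1
  rw [h1, sub_add_cancel]

theorem Lin.pr {k : ℕ} {f : List A → A} (hf : Lin (k + 1) f) (α : A →ₗ[ℂ] A) (t : A) :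
    Lin k (pr α t f) := by
  induction k generalizing f with
  | zero => exact fun _ _ _ hi => absurd hi (by omega)
  | succ k ih =>
    refine lin_succ (fun l hl => ?_) fun a => ((hf.cons t).cons a).sub (ih (hf.cons (α a)))
    have h1 := (hf.cons t).head l hl
    refine ⟨fun a b => ?_, fun c a => ?_⟩
    · simp only [pr_cons]
      rw [h1.map_add, pr_congr α t (g := fun m => f (α a :: m) + f (α b :: m)) l fun m hm => by
        rw [map_add, (hf.head m (by rw [hm, hl])).map_add], pr_add]
      abel
    · simp only [pr_cons]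
      rw [h1.map_smul, pr_congr α t (g := fun m => c • f (α a :: m)) l fun m hm => by
        rw [map_smul, (hf.head m (by rw [hm, hl])).map_smul], pr_smul, smul_sub]

omit [NormedAlgebra ℂ A] in
theorem norm_pr_le {α : A → A} (hα : ∀ a, ‖α a‖ ≤ ‖a‖) {t : A} (ht : ‖t‖ ≤ 1) (l : List A)
    {f : List A → A} {C : ℝ} (hC : 0 ≤ C)
    (hf : ∀ m : List A, m.length = l.length + 1 → ‖f m‖ ≤ C * np m) :
    ‖pr α t f l‖ ≤ (l.length + 1) * C * np l := by
  induction l generalizing f C with
  | nil =>
    have := hf [t] rfl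
    simp only [np_cons, np_nil, mul_one] at this
    simp only [pr_nil, List.length_nil, np_nil]
    nlinarith
  | cons a l ih =>
    have h1 := hf (t :: a :: l) rfl
    have h2 := ih (f := fun m => f (α a :: m)) (C := C * ‖a‖) (by positivity) fun m hm => by
      refine (hf _ (by simp [hm])).trans ?_
      rw [np_cons, mul_assoc]
      exact mul_le_mul_of_nonneg_left (mul_le_mul_of_nonneg_right (hα a) (np_nonneg _)) hC
    have h3 : 0 ≤ C * np (a :: l) := mul_nonneg hC (np_nonneg _)
    rw [pr_cons]
    refine (norm_sub_le _ _).trans ?_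
    rw [np_cons t] at h1
    simp only [List.length_cons, Nat.cast_succ, np_cons] at h1 h2 h3 ⊢
    nlinarith

theorem ML.pr {k : ℕ} {C : ℝ} (hC : 0 ≤ C) {f : List A → A} (hf : ML (k + 1) C f)
    (α : A →ₗ[ℂ] A) (hα : ∀ a, ‖α a‖ ≤ ‖a‖) {s t : A} (hs : ‖s‖ ≤ 1) (ht : ‖t‖ ≤ 1) :
    ML k ((k + 1) * C) fun m => s * pr α t f m := by
  refine ⟨(hf.lin.pr α t).map (LinearMap.mulLeft ℂ s), fun l hl => ?_⟩
  have := norm_pr_le hα ht l hC fun m hm => hf.bd m (by rw [hm, hl])
  rw [hl] at this
  exact (norm_mul_le _ _).trans ((mul_le_of_le_one_left (norm_nonneg _) hs).trans this)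

theorem ML.mono {k : ℕ} {K K' : ℝ} {f : List A → A} (h : ML k K f) (hK : K ≤ K') : ML k K' f :=
  ⟨h.lin, fun l hl => (h.bd l hl).trans (mul_le_mul_of_nonneg_right hK (np_nonneg l))⟩

theorem ML.add {k : ℕ} {K K' : ℝ} {f g : List A → A} (h : ML k K f) (h' : ML k K' g) :
    ML k (K + K') fun l => f l + g l :=
  ⟨h.lin.add h'.lin, fun l hl => (norm_add_le _ _).trans (by
    rw [add_mul]; exact add_le_add (h.bd l hl) (h'.bd l hl))⟩

theorem ML.sub {k : ℕ} {K K' : ℝ} {f g : List A → A} (h : ML k K f) (h' : ML k K' g) :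
    ML k (K + K') fun l => f l - g l :=
  ⟨h.lin.sub h'.lin, fun l hl => (norm_sub_le _ _).trans (by
    rw [add_mul]; exact add_le_add (h.bd l hl) (h'.bd l hl))⟩

theorem ML.sign {k : ℕ} {K : ℝ} {f : List A → A} (h : ML k K f) (n : ℕ) :
    ML k K fun l => (-1) ^ n * f l :=
  ⟨h.lin.map (LinearMap.mulLeft ℂ _), fun l hl => by
    rcases neg_one_pow_eq_or A n with h1 | h1 <;> simpa [h1] using h.bd l hl⟩

omit [NormedAlgebra ℂ A] in
theorem dL_sign (n : ℕ) (f : List A → A) (a : A) (l : List A) :
    dL (fun m => (-1) ^ n * f m) a l = (-1) ^ n * dL f a l :=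
  dL_central (fun x => ((Commute.neg_one_left x).pow_left n).eq) f a l

/-- A retraction turns a family of last-variable maps into a primitive. -/
theorem ret_apply {P : (A →L[ℂ] A) → ℝ → Prop} {z : A} {Ψ : (A →L[ℂ] A) →ₗ[ℂ] A}
    (hΨ : IsRet P z Ψ) {k : ℕ} {C : ℝ} (hC : 0 ≤ C) (G : List A → (A →L[ℂ] A)) (hG : Lin k G)
    (hP : ∀ l : List A, l.length = k → P (G l) (C * np l)) (φ : A → List A → A)
    (hd : ∀ a l, l.length = k → ∀ x,
      a * G l x - bD (fun (T : A → A) b y => T (b * y)) (fun m y => G m y) a l x = φ a l * x) :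
    ML k C (fun l => Ψ (G l)) ∧ ∀ a l, l.length = k → dL (fun l => Ψ (G l)) a l = z * φ a l := by
  have h0 : ∀ l : List A, 0 ≤ C * np l := fun l => mul_nonneg hC (np_nonneg l)
  refine ⟨⟨hG.map Ψ, fun l hl => hΨ.norm_le _ _ (h0 l) (hP l hl)⟩, fun a l hl => ?_⟩
  have e1 := bD_map (fun (T : A →L[ℂ] A) b => T.comp (lm b)) (· * ·) Ψ.toAddMonoidHom G a l
    fun m hm b => hΨ.right _ _ (h0 m) (hP m (hm.trans hl)) b
  have e2 := bD_map (fun (T : A →L[ℂ] A) b => T.comp (lm b)) (fun (T : A → A) b y => T (b * y))
    (AddMonoidHom.mk' (fun T : A →L[ℂ] A => (T : A → A)) fun _ _ => rfl) G a l fun _ _ _ => rfl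
  have e3 : (lm a).comp (G l) - bD (fun (T : A →L[ℂ] A) b => T.comp (lm b)) G a l =
      lm (φ a l) := ContinuousLinearMap.ext fun x => by
    have := hd a l hl x
    rw [← show _ = bD (fun (T : A → A) b y => T (b * y)) (fun m y => G m y) a l from e2] at this
    exact this
  rw [← hΨ.mul, ← e3, map_sub, hΨ.left _ _ (h0 l) (hP l hl), dL]
  congr 1
  exact e1.symm

theorem loc_of_ret {z : A} {Ψ : (A →L[ℂ] A) →ₗ[ℂ] A} (hΨ : IsRet Bd z Ψ) {k : ℕ} {C : ℝ}
    (hC : 0 ≤ C) {f : List A → A} (hf : ML (k + 1) C f)
    (hd : ∀ a l, l.length = k + 1 → dL f a l = 0) : Loc k C f z := by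
  have hb : ∀ l : List A, l.length = k → ∀ x, ‖f (l ++ [x])‖ ≤ C * np l * ‖x‖ := fun l hl x => by
    simpa [np_append, mul_assoc] using hf.bd (l ++ [x]) (by simp [hl])
  have : ∀ l : List A, ∃ T : A →L[ℂ] A, l.length = k → (∀ x, T x = f (l ++ [x])) ∧
      ‖T‖ ≤ C * np l := fun l => by
    by_cases hl : l.length = k
    · exact ⟨(IsLinearMap.mk' _ (hf.lin.last l hl)).mkContinuous _ (hb l hl), fun _ =>
        ⟨fun _ => rfl, LinearMap.mkContinuous_norm_le _ (mul_nonneg hC (np_nonneg l)) _⟩⟩
    · exact ⟨0, fun h => absurd h hl⟩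
  choose G hG using this
  have hlin : Lin k G := fun l hl i hi => by
    have hl' : ∀ a, (l.set i a).length = k := fun a => by simp [hl]
    refine ⟨fun a b => ContinuousLinearMap.ext fun x => ?_,
      fun c a => ContinuousLinearMap.ext fun x => ?_⟩
    · rw [add_apply, (hG _ (hl' _)).1, (hG _ (hl' _)).1, (hG _ (hl' _)).1]
      exact (hf.lin.init x l hl i hi).map_add a b
    · rw [smul_apply, (hG _ (hl' _)).1, (hG _ (hl' _)).1]
      exact (hf.lin.init x l hl i hi).map_smul c a
  obtain ⟨h1, h2⟩ := ret_apply hΨ hC G hlin (fun l hl => (hG l hl).2)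
    (fun a l => (-1) ^ (k + 1) * f (a :: l)) fun a l hl x => by
      have e := hd a (l ++ [x]) (by simp [hl])
      rw [dL, bD_append, hl] at e
      rw [(hG l hl).1, bD_congr _ (g := fun m y => f (m ++ [y])) a l fun m hm =>
        funext fun y => (hG m (hm.trans hl)).1 y, pow_succ]
      rw [← sub_eq_zero, ← e]
      noncomm_ring
  refine ⟨_, h1.sign (k + 1), fun a l hl => ?_⟩
  rw [dL_sign, h2 a l hl]
  rcases neg_one_pow_eq_or A (k + 1) with h | h <;> simp [h]

theorem Loc.mono {k : ℕ} {K K' : ℝ} {f : List A → A} {z : A} (h : Loc k K f z) (hK : K ≤ K') :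
    Loc k K' f z := by
  obtain ⟨g, h1, h2⟩ := h
  exact ⟨g, h1.mono hK, h2⟩

omit [NormedAlgebra ℂ A] in
theorem bD_ofFn (g : List A → A) {k : ℕ} (a : Fin (k + 1) → A) :
    bD (· * ·) g (a 0) (List.ofFn (Fin.tail a)) =
      ∑ j : Fin k, (-1) ^ (j : ℕ) * g (List.ofFn (Fin.contractNth j.castSucc (· * ·) a))
        + (-1) ^ k * (g (List.ofFn (Fin.init a)) * a (Fin.last k)) := by
  induction k generalizing g with
  | zero => simp [bD_nil]
  | succ k ih =>
    have e0 : List.ofFn (Fin.contractNth (Fin.castSucc 0) (· * ·) a) =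
        a 0 * Fin.tail a 0 :: List.ofFn (Fin.tail (Fin.tail a)) := by
      rw [List.ofFn_succ]
      congr 1
    have e1 : ∀ j : Fin k, List.ofFn (Fin.contractNth (Fin.castSucc j.succ) (· * ·) a) =
        a 0 :: List.ofFn (Fin.contractNth j.castSucc (· * ·) (Fin.tail a)) := fun j => by
      rw [List.ofFn_succ]
      congr 2
      funext i
      simp only [Fin.contractNth, Fin.val_succ, Fin.val_castSucc, Nat.add_lt_add_iff_right,
        Nat.add_right_cancel_iff, Fin.tail, Fin.succ_castSucc]
    have e2 : List.ofFn (Fin.init a) = a 0 :: List.ofFn (Fin.init (Fin.tail a)) := by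
      rw [List.ofFn_succ]
      rfl
    rw [List.ofFn_succ, bD_cons, Fin.sum_univ_succ, e0, e2]
    simp only [e1]
    rw [show (List.ofFn fun i => Fin.tail a i.succ) = List.ofFn (Fin.tail (Fin.tail a)) from rfl,
      ih (fun m => g (a 0 :: m)) (Fin.tail a)]
    simp only [Fin.val_zero, pow_zero, one_mul, Fin.val_succ, pow_succ, mul_neg, mul_one, neg_mul,
      Finset.sum_neg_distrib]
    rw [show Fin.tail a (Fin.last k) = a (Fin.last (k + 1)) from rfl]
    abel

omit [NormedAlgebra ℂ A] in
theorem dL_ofFn (g : List A → A) {k : ℕ} (a : Fin (k + 1) → A) :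
    dL g (a 0) (List.ofFn (Fin.tail a)) = hochschildD (fun v => g (List.ofFn v)) a := by
  rw [dL, bD_ofFn, hochschildD]
  simp only [pow_succ, mul_neg, mul_one, neg_mul, Finset.sum_neg_distrib]
  abel

omit [NormedAlgebra ℂ A] in
theorem np_ofFn {k : ℕ} (v : Fin k → A) : np (List.ofFn v) = ∏ i, ‖v i‖ := by
  rw [np, List.map_ofFn, List.prod_ofFn]
  rfl

omit [NormedRing A] [NormedAlgebra ℂ A] in
theorem ofFn_update {k : ℕ} [DecidableEq (Fin k)] (v : Fin k → A) (i : Fin k) (a : A) :
    List.ofFn (Function.update v i a) = (List.ofFn v).set i a := by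
  refine List.ext_getElem (by simp) fun n h1 h2 => ?_
  simp only [List.getElem_ofFn, List.getElem_set, Function.update_apply, Fin.ext_iff, eq_comm]

/-- Translation between lists and `Fin`-indexed continuous multilinear maps. -/
theorem vanish_of_loc {k : ℕ}
    (h : ∀ (C : ℝ) (f : List A → A), 0 ≤ C → ML (k + 1) C f →
      (∀ a l, l.length = k + 1 → dL f a l = 0) → ∃ K, Loc k K f 1)
    (f : ContinuousMultilinearMap ℂ (fun _ : Fin (k + 1) => A) A)
    (hf : ∀ a, hochschildD f a = 0) :
    ∃ g : ContinuousMultilinearMap ℂ (fun _ : Fin k => A) A, ∀ a, f a = hochschildD g a := by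
  let F : List A → A := fun l => f fun i => l.getD i 0
  have hF : ∀ v, F (List.ofFn v) = f v := fun v => by
    simp only [F]
    congr 1
    funext i
    rw [List.getD_eq_getElem?_getD, List.getElem?_ofFn]
    simp [i.2]
  have hl : ∀ {n : ℕ} (l : List A), l.length = n → ∃ v : Fin n → A, l = List.ofFn v := by
    rintro _ l rfl
    exact ⟨l.get, (List.ofFn_get l).symm⟩
  obtain ⟨K, g, hg, hd⟩ := h ‖f‖ F (norm_nonneg _) ⟨fun l hl' i hi => by
      obtain ⟨v, rfl⟩ := hl l hl'
      have e : ∀ a, F ((List.ofFn v).set i a) = f (Function.update v ⟨i, hi⟩ a) := fun a => by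
        rw [← hF, ofFn_update]
      simp only [e]
      exact ⟨f.map_update_add v _, f.map_update_smul v _⟩, fun l hl' => by
      obtain ⟨v, rfl⟩ := hl l hl'
      rw [hF, np_ofFn]
      exact f.le_opNorm v⟩ fun a l hl' => by
    obtain ⟨v, rfl⟩ := hl l hl'
    have := dL_ofFn F (Fin.cons a v : Fin (k + 2) → A)
    simp only [Fin.cons_zero, Fin.tail_cons, hF] at this
    rw [this]
    exact hf _
  let G : MultilinearMap ℂ (fun _ : Fin k => A) A :=
    { toFun := fun v => g (List.ofFn v)
      map_update_add' := fun v i a b => by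
        simp only [ofFn_update]
        exact (hg.lin _ (by simp) i i.2).map_add a b
      map_update_smul' := fun v i c a => by
        simp only [ofFn_update]
        exact (hg.lin _ (by simp) i i.2).map_smul c a }
  refine ⟨G.mkContinuous K fun v => by
    rw [← np_ofFn]; exact hg.bd _ (by simp), fun a => ?_⟩
  have := hd (a 0) (List.ofFn (Fin.tail a)) (by simp)
  rw [dL_ofFn, one_mul, show a 0 :: List.ofFn (Fin.tail a) = List.ofFn a from
    (List.ofFn_succ).symm, hF] at this
  exact this.symm

end Vale.Agent.P082
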