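import Vale.Agent.P082.CoverAux2

/-! Central covers, and transfer of a retraction from a corner to its central cover. -/

open scoped InnerProductSpace ComplexOrder Topology
open Filter

namespace Vale.Agent.P082

open Vale.Agent.P104

variable {L : Type*} [NormedAddCommGroup L] [InnerProductSpace ℂ L] [CompleteSpace L]
  {A : Type*} [CStarAlgebra A] {M : VonNeumannAlgebra L} {j : A →⋆ₙₐ[ℂ] (L →L[ℂ] L)}

theorem exists_emb (h : Corner M 1 j) {p : A}
    {B : Type*} [CStarAlgebra B] {i : B →⋆ₙₐ[ℂ] (L →L[ℂ] L)} (hi : Corner M (j p) i) :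
    ∃ (io : B →L[ℂ] A) (c : A →L[ℂ] B), (∀ b, j (io b) = i b) ∧ (∀ x, io (c x) = p * x * p) ∧
      ‖io‖ ≤ 1 ∧ ‖c‖ ≤ 1 := by
  have hp := hi.proj
  have hpp : j p * j p = j p := hp.isIdempotentElem
  choose io hio using fun b => h.surj_one (hi.mem b)
  choose c hc using fun x : A => hi.surj (j (p * x * p)) (h.mem _) (by
    rw [map_mul, map_mul, ← mul_assoc, ← mul_assoc, hpp, mul_assoc, hpp])
  let io' : B →ₗ[ℂ] A :=
    { toFun := io
      map_add' := fun a b => h.inj (by rw [map_add j, hio, hio, hio, map_add])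
      map_smul' := fun a b => h.inj (by rw [map_smul j, hio, hio, map_smul]; rfl) }
  let c' : A →ₗ[ℂ] B :=
    { toFun := c
      map_add' := fun a b => hi.inj (by rw [map_add i, hc, hc, hc, mul_add, add_mul, map_add])
      map_smul' := fun a b => hi.inj (by
        rw [map_smul i, hc, hc, mul_smul_comm, smul_mul_assoc, map_smul]; rfl) }
  have n1 : ∀ b, ‖io' b‖ ≤ 1 * ‖b‖ := fun b => by
    change ‖io b‖ ≤ _
    rw [← h.norm_eq, hio, hi.norm_eq, one_mul]
  have n2 : ∀ x, ‖c' x‖ ≤ 1 * ‖x‖ := fun x => by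
    change ‖c x‖ ≤ _
    rw [← hi.norm_eq, hc, map_mul, map_mul, ← h.norm_eq x]
    refine (norm_mul_le _ _).trans ((mul_le_of_le_one_right (norm_nonneg _) hp.norm_le).trans ?_)
    exact (norm_mul_le _ _).trans (mul_le_mul_of_nonneg_right hp.norm_le (norm_nonneg _))
  exact ⟨io'.mkContinuous 1 n1, c'.mkContinuous 1 n2, hio, fun x => h.inj ((hio _).trans (hc x)),
    io'.mkContinuous_norm_le zero_le_one n1, c'.mkContinuous_norm_le zero_le_one n2⟩

theorem exists_form (h : Corner M 1 j) {p : A} (hp : IsStarProjection p)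
    {B : Type*} [CStarAlgebra B] {i : B →⋆ₙₐ[ℂ] (L →L[ℂ] L)} (hi : Corner M (j p) i)
    {Φ : (B →L[ℂ] B) →ₗ[ℂ] B} (hΦ : IsRet Bd 1 Φ) :
    ∃ D : A → A → (A →L[ℂ] A) →ₗ[ℂ] A, Form p D := by
  obtain ⟨io, c, e1, e2, n1, n2⟩ := exists_emb h hi
  have hpp : p * p = p := hp.isIdempotentElem
  have im : ∀ a b, io (a * b) = io a * io b := fun a b =>
    h.inj (by rw [map_mul j, e1, e1, e1, map_mul])
  have ii : Function.Injective io := fun a b hab => hi.inj (by rw [← e1, ← e1, hab])
  have il : ∀ b, p * io b = io b := fun b => h.inj (by rw [map_mul, e1, hi.el])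
  have ir : ∀ b, io b * p = io b := fun b => h.inj (by rw [map_mul, e1, hi.er])
  let S : A → A → (A →L[ℂ] A) → (B →L[ℂ] B) := fun n m T =>
    c.comp ((lm (star n)).comp (T.comp ((lm m).comp io)))
  have hS : ∀ n m T b, S n m T b = c (star n * T (m * io b)) := fun _ _ _ _ => rfl
  let D : A → A → (A →L[ℂ] A) →ₗ[ℂ] A := fun n m =>
    { toFun := fun T => io (Φ (S n m T))
      map_add' := fun T T' => by
        rw [← map_add, ← map_add]
        exact congrArg (fun X => io (Φ X)) (ContinuousLinearMap.ext fun b => by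
          simp only [hS, add_apply, mul_add, map_add])
      map_smul' := fun a T => by
        rw [RingHom.id_apply, ← map_smul, ← map_smul]
        exact congrArg (fun X => io (Φ X)) (ContinuousLinearMap.ext fun b => by
          simp only [hS, smul_apply, mul_smul_comm, map_smul]) }
  have hD : ∀ n m T, D n m T = io (Φ (S n m T)) := fun _ _ _ => rfl
  refine ⟨D, fun n n' m T => ?_, fun n m m' T => ?_, fun n m T => ?_, fun n m T => ir _,
    fun n m T a ha => ?_, fun n m T a ha => ?_, fun n m T a => ?_, fun n m T a => ?_,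
    fun n m a => ?_⟩
  · rw [hD, hD, hD, ← map_add, ← map_add]
    exact congrArg (fun X => io (Φ X)) (ContinuousLinearMap.ext fun b => by
      simp only [hS, add_apply, star_add, add_mul, map_add])
  · rw [hD, hD, hD, ← map_add, ← map_add]
    exact congrArg (fun X => io (Φ X)) (ContinuousLinearMap.ext fun b => by
      simp only [hS, add_apply, mul_add, add_mul, map_add])
  · rw [hD]
    refine (io.le_of_opNorm_le n1 _).trans ?_
    rw [one_mul]
    refine hΦ.norm_le _ _ (by positivity)
      (ContinuousLinearMap.opNorm_le_bound _ (by positivity) fun b => ?_)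
    rw [hS]
    refine (c.le_of_opNorm_le n2 _).trans ?_
    rw [one_mul]
    refine (norm_mul_le _ _).trans ?_
    have a1 : ‖m * io b‖ ≤ ‖m‖ * ‖b‖ := (norm_mul_le _ _).trans (mul_le_mul_of_nonneg_left
      ((io.le_of_opNorm_le n1 _).trans_eq (one_mul _)) (norm_nonneg _))
    have a2 := (T.le_opNorm _).trans (mul_le_mul_of_nonneg_left a1 (norm_nonneg T))
    rw [norm_star]
    calc _ ≤ ‖n‖ * (‖T‖ * (‖m‖ * ‖b‖)) := mul_le_mul_of_nonneg_left a2 (norm_nonneg _)
      _ = _ := by ring
  · have a1 : p * star a * p = star a := by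
      have := congrArg star ha
      rwa [star_mul, star_mul, hp.isSelfAdjoint.star_eq, ← mul_assoc] at this
    have a2 : star a * p = star a := by rw [← a1, mul_assoc, hpp]
    have a3 : p * star a = star a := by rw [← a1, ← mul_assoc, ← mul_assoc, hpp]
    have : S (n * a) m T = (lm (c (star a))).comp (S n m T) := ContinuousLinearMap.ext fun b =>
      ii (by
        change io (S (n * a) m T b) = io (c (star a) * S n m T b)
        rw [im, hS, hS, e2, e2, e2, a1, star_mul, mul_assoc (star a), ← mul_assoc p, a3,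
          ← mul_assoc (star a) (p * _), ← mul_assoc (star a) p, a2])
    rw [hD, hD, this, hΦ.left _ _ (norm_nonneg _) le_rfl, im, e2, a1]
  · have : S n (m * a) T = (S n m T).comp (lm (c a)) := ContinuousLinearMap.ext fun b => by
      change S n (m * a) T b = S n m T (c a * b)
      rw [hS, hS, im, e2, ha, mul_assoc m]
    rw [hD, hD, this, hΦ.right _ _ (norm_nonneg _) le_rfl, im, e2, ha]
  · rw [hD, hD]
    exact congrArg (fun X => io (Φ X)) (ContinuousLinearMap.ext fun b => by
      rw [hS, hS, star_mul, star_star, mul_assoc]; rfl)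
  · rw [hD, hD]
    exact congrArg (fun X => io (Φ X)) (ContinuousLinearMap.ext fun b => by
      rw [hS, hS, mul_assoc]; rfl)
  · have : S n m (lm a) = lm (c (star n * a * m)) := ContinuousLinearMap.ext fun b => ii (by
      change io (c (star n * (a * (m * io b)))) = io (c (star n * a * m) * b)
      rw [im, e2, e2, mul_assoc _ p, il]
      simp only [mul_assoc, ir])
    rw [hD, this, hΦ.mul, one_mul, e2]

theorem ret_of_form (h : Corner M 1 j) {p : A} (hp : IsStarProjection p)
    {D : A → A → (A →L[ℂ] A) →ₗ[ℂ] A} (hD : Form p D) :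
    ∃ z : A, CP z ∧ z * p = p ∧ (∀ q, (∀ x, q * x * p = 0) → q * z = 0) ∧
      ∃ Ψ : (A →L[ℂ] A) →ₗ[ℂ] A, IsRet Bd z Ψ := by
  obtain ⟨z, F, hz, hzp, hq, h1, h2, hs⟩ := exists_cover h hp
  have hpp : p * p = p := hp.isIdempotentElem
  have hzz : z * z = z := hz.1.isIdempotentElem
  have st := hD.stage hp (fun v : F => v.1) (fun v => (h1 _ v.2).1) (fun v => (h1 _ v.2).2)
    fun v w hvw => h2 v.2 w.2 fun e => hvw (Subtype.ext e)
  choose hQ c hc1 hc2 hc3 using st
  set q : Finset F → A := fun s => ∑ v ∈ s, v.1 * star v.1 with hqd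
  have hzm : ∀ m, m * p = m → z * m = m := fun m hm => by
    rw [← hm, ← mul_assoc, hz.2, mul_assoc, hzp]
  have hzq : ∀ s, z * q s = q s := fun s => by
    rw [hqd, Finset.mul_sum]
    exact Finset.sum_congr rfl fun v _ => by rw [← mul_assoc, hzm _ (h1 _ v.2).2]
  let U : Ultrafilter (Finset F) := Ultrafilter.of atTop
  have hU : (U : Filter (Finset F)) ≤ atTop := Ultrafilter.of_le _
  obtain ⟨Ψ, hΨ1, hΨ2⟩ := h.exists_wl_clm U c (Eventually.of_forall hc1)
  have hzΨ : ∀ T, z * Ψ T = Ψ T := fun T =>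
    ((hΨ2 T).mul_left z).unique h.inj ((hΨ2 T).congr fun s => by
      rw [← hc2 s T, ← mul_assoc]
      exact congrArg (· * c s T) (hzq s).symm)
  have small : ∀ m, m * p = m → ∀ ξ,
      Tendsto (fun s => ‖j (m - q s * m) ξ‖) atTop (𝓝 0) := fun m hm ξ => by
    have a1 := SSum.tendsto (j := j) (T := fun v : F => v.1 * star v.1) hs (j m ξ)
    rw [← mul_apply_eq_comp, ← map_mul, hzm m hm] at a1
    have a2 := (tendsto_const_nhds (x := j m ξ)).sub a1
    rw [sub_self] at a2
    refine (tendsto_zero_iff_norm_tendsto_zero.1 a2).congr fun s => ?_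
    rw [map_sub, map_mul, sub_apply, mul_apply_eq_comp]
  have key : ∀ T n m, n * p = n → m * p = m → star n * Ψ T * m = D n m T := by
    intro T n m hn hm
    refine (((hΨ2 T).mul_left (star n)).mul_right m).unique h.inj
      (WL.mono (fun η ξ => ?_) hU)
    have hp1 : ∀ (s : Finset F) x, x * p = x → (x - q s * x) * p = x - q s * x := fun s x hx => by
      rw [sub_mul, mul_assoc, hx]
    rw [← tendsto_sub_nhds_zero_iff]
    have lim := ((small m hm ξ).const_mul (‖η‖ * (‖n‖ * ‖T‖))).add
      ((small n hn η).const_mul (‖m‖ * ‖T‖ * ‖ξ‖))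
    rw [mul_zero, mul_zero, add_zero] at lim
    refine squeeze_zero_norm (fun s => ?_) lim
    have e : D n m T = star n * c s T * m + (D n (m - q s * m) T + D (n - q s * n) (q s * m) T) := by
      rw [hc3 s T n m hn hm, add_left_comm, ← hD.add_l, add_sub_cancel, ← hD.add_r,
        sub_add_cancel]
    rw [norm_sub_rev, e, map_add, add_apply, inner_add_right, add_sub_cancel_left, map_add,
      add_apply, inner_add_right]
    refine (norm_add_le _ _).trans (add_le_add ?_ ?_)
    · refine (norm_inner_le_norm _ _).trans ?_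
      rw [mul_assoc]
      refine mul_le_mul_of_nonneg_left ?_ (norm_nonneg _)
      exact cv_paschke j hp (E := fun x => D n x T) (by positivity)
        (fun x b hb => hD.modr _ _ _ _ hb) (fun x => (hD.bd _ _ _).trans_eq (by ring))
        (hp1 s m hm) ξ
    · rw [← inner_star_left, ← map_star]
      refine (norm_inner_le_norm _ _).trans ?_
      rw [mul_right_comm]
      refine mul_le_mul_of_nonneg_right ?_ (norm_nonneg _)
      refine cv_paschke j hp (E := fun x => star (D x (q s * m) T)) (by positivity)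
        (fun x b hb => by rw [hD.modl _ _ _ _ hb, star_mul, star_star]) (fun x => ?_)
        (hp1 s n hn) η
      rw [norm_star]
      refine (hD.bd _ _ _).trans ?_
      have a1 : ‖q s * m‖ ≤ ‖m‖ :=
        (norm_mul_le _ _).trans (mul_le_of_le_one_left (norm_nonneg _) (hQ s).norm_le)
      calc _ ≤ ‖x‖ * ‖m‖ * ‖T‖ := by gcongr
        _ = _ := by ring
  have det : ∀ y y', z * y = y → z * y' = y' →
      (∀ n m, n * p = n → m * p = m → star n * y * m = star n * y' * m) → y = y' := by
    intro y y' hy hy' hnm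
    have hx : ∀ x, x * p * p = x * p := fun x => by rw [mul_assoc, hpp]
    have b0 : z * (y - y') = y - y' := by rw [mul_sub, hy, hy']
    have b1 : ∀ n, n * p = n → star n * (y - y') = 0 := fun n hn => by
      have := hq (star n * (y - y')) fun x => by
        rw [mul_assoc, mul_sub, sub_mul, hnm n _ hn (hx x), sub_self]
      rwa [mul_assoc, ← hz.2, b0] at this
    have b2 := hq (star (y - y')) fun x => by
      have := congrArg star (b1 _ (hx x))
      rwa [star_mul, star_star, star_zero, ← mul_assoc] at this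
    rw [cv_st_left hz.1 b0, star_eq_zero, sub_eq_zero] at b2
    exact b2
  refine ⟨z, hz, hzp, hq, Ψ.toLinearMap, fun T C _ hT => ?_, fun T _ _ _ a => ?_,
    fun T _ _ _ a => ?_, fun a => ?_⟩
  · exact (Ψ.le_of_opNorm_le hΨ1 T).trans ((one_mul _).trans_le hT)
  · change Ψ _ = a * Ψ T
    refine det _ _ (hzΨ _) (by rw [← mul_assoc, hz.2, mul_assoc, hzΨ]) fun n m hn hm => ?_
    rw [key _ _ _ hn hm, hD.left, ← key _ _ _ (by rw [mul_assoc, hn]) hm, star_mul, star_star,
      mul_assoc (star n)]
  · change Ψ _ = Ψ T * a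
    refine det _ _ (hzΨ _) (by rw [← mul_assoc, hzΨ]) fun n m hn hm => ?_
    rw [key _ _ _ hn hm, hD.right, ← key _ _ _ hn (by rw [mul_assoc, hm])]
    simp only [mul_assoc]
  · change Ψ _ = z * a
    refine det _ _ (hzΨ _) (by rw [← mul_assoc, hzz]) fun n m hn hm => ?_
    rw [key _ _ _ hn hm, hD.mul, ← mul_assoc (star n), cv_st_left hz.1 (hzm n hn), mul_assoc p,
      mul_assoc _ m, hm, ← mul_assoc, ← mul_assoc, cv_st_right hp hn]

theorem ret_of_corner (h : Corner M 1 j) {p : A} (hp : IsStarProjection p)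
    {B : Type*} [CStarAlgebra B] {i : B →⋆ₙₐ[ℂ] (L →L[ℂ] L)} (hi : Corner M (j p) i)
    {Φ : (B →L[ℂ] B) →ₗ[ℂ] B} (hΦ : IsRet Bd 1 Φ) :
    ∃ z : A, CP z ∧ z * p = p ∧ (∀ q, (∀ x, q * x * p = 0) → q * z = 0) ∧
      ∃ Ψ : (A →L[ℂ] A) →ₗ[ℂ] A, IsRet Bd z Ψ := by
  obtain ⟨D, hD⟩ := exists_form h hp hi hΦ
  exact ret_of_form h hp hD

end Vale.Agent.P082
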