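import Vale.Agent.P082.Lim
import Vale.Agent.P104.Trich

/-! Strong sums and central covers. -/

open scoped InnerProductSpace ComplexOrder Topology
open Filter

namespace Vale.Agent.P082

open Vale.Agent.P104

variable {L : Type*} [NormedAddCommGroup L] [InnerProductSpace ℂ L] [CompleteSpace L]
  {A : Type*} [CStarAlgebra A] {M : VonNeumannAlgebra L} {j : A →⋆ₙₐ[ℂ] (L →L[ℂ] L)}

theorem Corner.surj_one (h : Corner M 1 j) {x : L →L[ℂ] L} (hx : x ∈ M) : ∃ b, j b = x :=
  h.surj x hx (by rw [one_mul, mul_one])

theorem cv_proj_of_map (hj : Function.Injective j) {p : A} (hp : IsStarProjection (j p)) :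
    IsStarProjection p :=
  ⟨hj (by rw [map_mul]; exact hp.isIdempotentElem), hj (by
    rw [map_star]; exact hp.isSelfAdjoint)⟩

theorem cv_isPI_map {v : A} (hv : v * star v * v = v) : IsPI (j v) := by
  rw [IsPI, ← map_star, ← map_mul, ← map_mul, hv]

theorem cv_pi_of_map (hj : Function.Injective j) {v : A} (hv : IsPI (j v)) : v * star v * v = v :=
  hj (by rw [map_mul, map_mul, map_star]; exact hv)

theorem cv_pi_fin {v : A} (hv : v * star v * v = v) : IsStarProjection (v * star v) :=
  ⟨by rw [IsIdempotentElem, ← mul_assoc, hv], IsSelfAdjoint.mul_star_self v⟩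

theorem cv_pi_init {v : A} (hv : v * star v * v = v) : IsStarProjection (star v * v) :=
  ⟨by rw [IsIdempotentElem, mul_assoc, ← mul_assoc v, hv], IsSelfAdjoint.star_mul_self v⟩

theorem cv_pi_of_init {v : A} (h : IsStarProjection (star v * v)) : v * star v * v = v := by
  have h1 : star (v * (star v * v) - v) * (v * (star v * v) - v) = 0 := by
    have e := h.isIdempotentElem.eq
    have : star (v * (star v * v) - v) * (v * (star v * v) - v) =
        (star v * v) * (star v * v) * (star v * v) - (star v * v) * (star v * v) -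
          (star v * v) * (star v * v) + star v * v := by
      simp only [star_sub, star_mul, star_star]
      noncomm_ring
    rw [this, e, e]
    abel
  have h2 := (CStarRing.star_mul_self_eq_zero_iff _).1 h1
  rw [mul_assoc]
  exact sub_eq_zero.1 h2

theorem cv_pi_star {v : A} (hv : v * star v * v = v) : star v * v * star v = star v := by
  simpa [mul_assoc] using congrArg star hv

theorem cv_st_right {v b : A} (hb : IsStarProjection b) (h : v * b = v) : b * star v = star v := by
  simpa [hb.isSelfAdjoint.star_eq] using congrArg star h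

theorem cv_st_left {v a : A} (ha : IsStarProjection a) (h : a * v = v) : star v * a = star v := by
  simpa [ha.isSelfAdjoint.star_eq] using congrArg star h

theorem cv_pr_flip {p q : A} (hp : IsStarProjection p) (hq : IsStarProjection q)
    (h : p * q = q) : q * p = q := by
  simpa [hp.isSelfAdjoint.star_eq, hq.isSelfAdjoint.star_eq] using congrArg star h

/-- Strong sum. -/
def SSum (j : A →⋆ₙₐ[ℂ] (L →L[ℂ] L)) {ι : Type*} (T : ι → A) (V : A) : Prop :=
  ∀ ξ, HasSum (fun i => j (T i) ξ) (j V ξ)

section SSum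

variable {ι : Type*} {T T' : ι → A} {V V' : A}

theorem SSum.mul_left (h : SSum j T V) (a : A) : SSum j (fun i => a * T i) (a * V) := fun ξ => by
  simpa only [map_mul, mul_apply_eq_comp] using (h ξ).mapL (j a)

theorem SSum.mul_right (h : SSum j T V) (a : A) : SSum j (fun i => T i * a) (V * a) := fun ξ => by
  simpa only [map_mul, mul_apply_eq_comp] using h (j a ξ)

theorem SSum.unique (hj : Function.Injective j) (h : SSum j T V) (h' : SSum j T V') : V = V' :=
  hj (ContinuousLinearMap.ext fun ξ => (h ξ).unique (h' ξ))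

theorem SSum.congr (h : SSum j T V) (e : ∀ i, T i = T' i) : SSum j T' V := by
  rwa [← funext e]

theorem SSum.ext (hj : Function.Injective j) (h : SSum j T V) (h' : SSum j T' V') (e : ∀ i, T i = T' i) :
    V = V' :=
  (h.congr e).unique hj h'

theorem ssum_zero : SSum j (fun _ : ι => (0 : A)) 0 := fun ξ => by
  simp

theorem SSum.eq_zero (hj : Function.Injective j) (h : SSum j T V) (e : ∀ i, T i = 0) : V = 0 :=
  h.ext hj ssum_zero e

theorem SSum.eq_single (hj : Function.Injective j) (h : SSum j T V) (k : ι)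
    (e : ∀ i, i ≠ k → T i = 0) : V = T k :=
  h.unique hj fun ξ => hasSum_single k fun i hi => by rw [e i hi, map_zero]; rfl

theorem SSum.fix_left (hj : Function.Injective j) (h : SSum j T V) {a : A} (e : ∀ i, a * T i = T i) :
    a * V = V :=
  (h.mul_left a).ext hj h e

theorem SSum.fix_right (hj : Function.Injective j) (h : SSum j T V) {a : A} (e : ∀ i, T i * a = T i) :
    V * a = V :=
  (h.mul_right a).ext hj h e

theorem SSum.tendsto (h : SSum j T V) (ξ : L) :
    Tendsto (fun s : Finset ι => j (∑ i ∈ s, T i) ξ) atTop (𝓝 (j V ξ)) := by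
  have := h ξ
  simpa only [map_sum, sum_apply, HasSum, SummationFilter.unconditional_filter] using this

end SSum

/-- Strong sums of partial isometries. -/
theorem Corner.exists_vsum (h : Corner M 1 j) {ι : Type*} (v : ι → A)
    (hpi : ∀ i, v i * star (v i) * v i = v i) (h1 : Pairwise fun i k => star (v i) * v k = 0)
    (h2 : Pairwise fun i k => v i * star (v k) = 0) :
    ∃ V : A, V * star V * V = V ∧ SSum j v V ∧ SSum j (fun i => star (v i)) (star V) := by
  obtain ⟨W, hW, hp, s1, s2, -⟩ := exists_sum M (fun i => j (v i)) (fun i => h.mem _)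
    (fun i => cv_isPI_map (hpi i))
    (fun i k hik => by beta_reduce; rw [← map_star, ← map_mul, h1 hik, map_zero])
    (fun i k hik => by beta_reduce; rw [← map_star, ← map_mul, h2 hik, map_zero])
  obtain ⟨V, rfl⟩ := h.surj_one hW
  exact ⟨V, cv_pi_of_map h.inj hp, s1, fun ξ => by simpa only [map_star] using s2 ξ⟩

/-- Strong sums of orthogonal projections. -/
theorem Corner.exists_psum (h : Corner M 1 j) {ι : Type*} (q : ι → A)
    (hq : ∀ i, IsStarProjection (q i)) (ho : Pairwise fun i k => q i * q k = 0) :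
    ∃ z : A, IsStarProjection z ∧ SSum j q z ∧ ∀ i, q i * z = q i := by
  have hs : ∀ i, star (q i) = q i := fun i => (hq i).isSelfAdjoint.star_eq
  have hi : ∀ i, q i * q i = q i := fun i => (hq i).isIdempotentElem
  obtain ⟨z, -, s1, s2⟩ := h.exists_vsum q (fun i => by rw [hs, hi, hi])
    (fun i k hik => by beta_reduce; rw [hs, ho hik]) (fun i k hik => by beta_reduce; rw [hs, ho hik])
  have h1 : ∀ i, q i * z = q i := fun i =>
    ((s1.mul_left (q i)).eq_single h.inj i fun k hk => ho hk.symm).trans (hi i)
  exact ⟨z, ⟨(s1.mul_right z).ext h.inj s1 h1, s2.ext h.inj s1 hs⟩, s1, h1⟩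

theorem Corner.exists_pi (h : Corner M 1 j) {x : A} (hx : x ≠ 0) :
    ∃ v : A, v * star v * v = v ∧ v ≠ 0 ∧ (∀ a, a * x = x → a * v = v) ∧
      ∀ b, IsStarProjection b → x * b = x → v * b = v := by
  obtain ⟨W, hW, h1, h2, h3, h4⟩ := exists_pi_of_ne_zero M (h.mem x)
    fun h0 => hx (h.inj (h0.trans (map_zero j).symm))
  obtain ⟨v, rfl⟩ := h.surj_one hW
  refine ⟨v, cv_pi_of_map h.inj h1, fun h0 => h2 (by rw [h0, map_zero]), fun a ha => h.inj ?_,
    fun b hb hxb => h.inj ?_⟩
  · rw [map_mul]
    exact h3 _ (by rw [← map_mul, ha])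
  · rw [map_mul]
    exact h4 _ (hb.map j) (by rw [← map_mul, hxb])

theorem cp_of_corner {z : A} (hz : IsStarProjection z) (h : ∀ x, (1 - z) * x * z = 0) : CP z := by
  refine ⟨hz, fun x => ?_⟩
  have a1 := h x
  have a2 := congrArg star (h (star x))
  simp only [star_mul, star_sub, star_one, star_star, hz.isSelfAdjoint.star_eq, star_zero] at a2
  have : x * z - z * x = (1 - z) * x * z - z * (x * (1 - z)) := by noncomm_ring
  rw [a1, a2, sub_zero] at this
  exact (sub_eq_zero.1 this).symm

/-- The central cover `z` of a projection `p`, written as a sum of range projections of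
partial isometries with initial projection below `p`. -/
theorem exists_cover (h : Corner M 1 j) {p : A} (hp : IsStarProjection p) :
    ∃ (z : A) (F : Set A), CP z ∧ z * p = p ∧ (∀ q, (∀ x, q * x * p = 0) → q * z = 0) ∧
      (∀ v ∈ F, v * star v * v = v ∧ v * p = v) ∧ (F.Pairwise fun v w => star v * w = 0) ∧
      ∀ ξ, HasSum (fun v : F => j (v.1 * star v.1) ξ) (j z ξ) := by
  obtain ⟨F, h1, h2, h3⟩ := exists_maximal_family (fun v : A => v * star v * v = v ∧ v * p = v)
    (fun v w => star v * w = 0) fun v w hvw => by simpa using congrArg star hvw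
  obtain ⟨z, hz, s1, s2⟩ := h.exists_psum (fun v : F => v.1 * star v.1)
    (fun v => cv_pi_fin (h1 _ v.2).1) fun v w hvw => by
      beta_reduce
      rw [mul_assoc, ← mul_assoc (star v.1), h2 v.2 w.2 fun e => hvw (Subtype.ext e), zero_mul,
        mul_zero]
  have hzw : ∀ w ∈ F, z * w = w := fun w hw => by
    have e : z * (w * star w) = w * star w := by
      simpa [hz.isSelfAdjoint.star_eq] using congrArg star (s2 ⟨w, hw⟩)
    rw [← (h1 w hw).1, ← mul_assoc, e]
  have key : ∀ x, (1 - z) * x * p = 0 := fun x => by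
    by_contra hx
    obtain ⟨v, a1, a2, a3, a4⟩ := h.exists_pi hx
    have b1 : (1 - z) * v = v :=
      a3 _ (by rw [← mul_assoc, ← mul_assoc, hz.one_sub.isIdempotentElem])
    have b2 : v * p = v := a4 p hp (by rw [mul_assoc, hp.isIdempotentElem])
    have b3 : ∀ w ∈ F, star v * w = 0 := fun w hw => by
      rw [← cv_st_left hz.one_sub b1, mul_assoc, sub_mul, one_mul, hzw w hw, sub_self, mul_zero]
    exact a2 ((CStarRing.star_mul_self_eq_zero_iff _).1 (b3 v (h3 v ⟨a1, b2⟩ b3)))
  have hq : ∀ q, (∀ x, q * x * p = 0) → q * z = 0 := fun q hq =>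
    (s1.mul_left q).eq_zero h.inj fun v => by
      nth_rewrite 1 [← (h1 _ v.2).2]
      rw [← mul_assoc, ← mul_assoc, hq, zero_mul]
  refine ⟨z, F, cp_of_corner hz fun x => hq _ fun y => ?_, ?_, hq, h1, h2, s1⟩
  · rw [mul_assoc (1 - z), key]
  · have := key 1
    rw [mul_one, sub_mul, one_mul, sub_eq_zero] at this
    exact this.symm

end Vale.Agent.P082
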