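import Vale.Agent.P082.CoverAux

/-! Module maps on `A p` and finite stages of the transfer to the central cover. -/

open scoped InnerProductSpace ComplexOrder Topology
open Filter

namespace Vale.Agent.P082

open Vale.Agent.P104

variable {A : Type*} [CStarAlgebra A] {p : A}

theorem cv_factor (hp : IsStarProjection p) {m : A} (hm : m * p = m) {ε : ℝ} (hε : 0 < ε) :
    ∃ w k : A, p * w * p = w ∧ p * k * p = k ∧ m * w * k = m ∧ ‖m * w‖ ≤ 1 ∧
      star k * k = star m * m + (ε : ℂ) • p := by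
  have hpp : p * p = p := hp.isIdempotentElem
  set h := star m * m with hh0
  have hh : IsSelfAdjoint h := IsSelfAdjoint.star_mul_self m
  have e1 : h * p = h := by rw [hh0, mul_assoc, hm]
  have e2 : p * h = h := by rw [hh0, ← mul_assoc, cv_st_right hp hm]
  have hc : Commute h p := e1.trans e2.symm
  have hpos : ∀ s : ℝ, 0 < max s 0 + ε := fun s => by positivity
  have c1 : Continuous fun s : ℝ => Real.sqrt (max s 0 + ε) := by fun_prop
  have c2 : Continuous fun s : ℝ => (Real.sqrt (max s 0 + ε))⁻¹ :=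
    c1.inv₀ fun s => (Real.sqrt_pos.2 (hpos s)).ne'
  set k := cfc (fun s : ℝ => Real.sqrt (max s 0 + ε)) h with hk
  set w := cfc (fun s : ℝ => (Real.sqrt (max s 0 + ε))⁻¹) h with hw
  have hks : IsSelfAdjoint k := cfc_predicate (R := ℝ) _ h
  have hws : IsSelfAdjoint w := cfc_predicate (R := ℝ) _ h
  have hwk : w * k = 1 := by
    rw [hk, hw, ← cfc_mul _ _ h c2.continuousOn c1.continuousOn, ← cfc_const_one ℝ h]
    exact cfc_congr fun s _ => inv_mul_cancel₀ (Real.sqrt_pos.2 (hpos s)).ne'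
  have hkp : k * p = p * k := (hc.cfc_real _).eq
  have hwp : w * p = p * w := (hc.cfc_real _).eq
  have hkk : k * k = h + (ε : ℂ) • (1 : A) := by
    rw [hk, ← cfc_mul _ _ h c1.continuousOn c1.continuousOn, Complex.coe_smul,
      ← Algebra.algebraMap_eq_smul_one, ← cfc_const ε h]
    nth_rewrite 2 [← cfc_id' ℝ h]
    rw [← cfc_add h (fun s : ℝ => s) _ continuousOn_id continuousOn_const]
    refine cfc_congr fun s hs => ?_
    have h0 : 0 ≤ s := spectrum_star_mul_self_nonneg s hs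
    rw [Real.mul_self_sqrt (hpos s).le, max_eq_left h0]
  have hn : ‖w * h * w‖ ≤ 1 := by
    have : w * h * w = cfc (fun s : ℝ => (Real.sqrt (max s 0 + ε))⁻¹ * s *
        (Real.sqrt (max s 0 + ε))⁻¹) h := by
      have c3 : Continuous fun s : ℝ => (Real.sqrt (max s 0 + ε))⁻¹ * s := c2.mul continuous_id
      rw [cfc_mul _ _ h c3.continuousOn c2.continuousOn,
        cfc_mul _ (fun s : ℝ => s) h c2.continuousOn continuousOn_id, cfc_id' ℝ h]
    rw [this]
    refine norm_cfc_le zero_le_one fun s hs => ?_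
    have h0 : 0 ≤ s := spectrum_star_mul_self_nonneg s hs
    have h1 : (Real.sqrt (max s 0 + ε))⁻¹ * s * (Real.sqrt (max s 0 + ε))⁻¹ = s / (s + ε) := by
      rw [mul_right_comm, ← mul_inv, Real.mul_self_sqrt (hpos s).le, max_eq_left h0,
        inv_mul_eq_div]
    rw [h1, Real.norm_of_nonneg (by positivity), div_le_one (by positivity)]
    linarith
  refine ⟨w * p, k * p, ?_, ?_, ?_, ?_, ?_⟩
  · rw [← mul_assoc, ← hwp, mul_assoc w, hpp, mul_assoc, hpp]
  · rw [← mul_assoc, ← hkp, mul_assoc k, hpp, mul_assoc, hpp]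
  · rw [hwp, ← mul_assoc m, hm, mul_assoc, ← mul_assoc w, hwk, one_mul, hm]
  · rw [hwp, ← mul_assoc, hm]
    have : ‖m * w‖ * ‖m * w‖ ≤ 1 := by
      rw [← CStarRing.norm_star_mul_self, star_mul, hws.star_eq, mul_assoc, ← mul_assoc (star m),
        ← mul_assoc]
      exact hn
    nlinarith [norm_nonneg (m * w)]
  · rw [star_mul, hks.star_eq, hp.isSelfAdjoint.star_eq, mul_assoc, ← mul_assoc k, hkk, add_mul,
      mul_add, e1, e2, smul_mul_assoc, one_mul, mul_smul_comm, hpp]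

theorem cv_paschke {L : Type*} [NormedAddCommGroup L] [InnerProductSpace ℂ L] [CompleteSpace L]
    (j : A →⋆ₙₐ[ℂ] (L →L[ℂ] L)) (hp : IsStarProjection p) {E : A → A} {C : ℝ} (hC : 0 ≤ C)
    (h1 : ∀ m b, p * b * p = b → E (m * b) = E m * b)
    (h2 : ∀ m, ‖E m‖ ≤ C * ‖m‖) {m : A} (hm : m * p = m) (ξ : L) :
    ‖j (E m) ξ‖ ≤ C * ‖j m ξ‖ := by
  have key : ∀ ε : ℝ, 0 < ε → ‖j (E m) ξ‖ ^ 2 ≤ (C * ‖j m ξ‖) ^ 2 + ε * (C ^ 2 * ‖ξ‖ ^ 2) := by
    intro ε hε
    obtain ⟨w, k, -, a2, a3, a4, a5⟩ := cv_factor hp hm hε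
    have b1 : ‖j (E m) ξ‖ ≤ C * ‖j k ξ‖ := by
      rw [← a3, h1 _ _ a2, map_mul, mul_apply_eq_comp]
      refine (j _).le_of_opNorm_le ((NonUnitalStarAlgHom.norm_apply_le j _).trans ?_) _
      exact (h2 _).trans (mul_le_of_le_one_right hC a4)
    have b2 : ‖j k ξ‖ ^ 2 = ‖j m ξ‖ ^ 2 + ε * ‖j p ξ‖ ^ 2 := by
      have e : star p * p = p := by rw [hp.isSelfAdjoint.star_eq, hp.isIdempotentElem]
      simp only [norm_sq_apply, ← map_star, ← map_mul]
      rw [a5, e, map_add, map_smul, add_apply, smul_apply, inner_add_right, inner_smul_right,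
        Complex.add_re, Complex.re_ofReal_mul]
    have b3 : ‖j p ξ‖ ^ 2 ≤ ‖ξ‖ ^ 2 :=
      pow_le_pow_left₀ (norm_nonneg _) (proj_norm_apply_le (hp.map j) ξ) 2
    have b4 := pow_le_pow_left₀ (norm_nonneg _) b1 2
    rw [mul_pow, b2] at b4
    have b5 := mul_le_mul_of_nonneg_left b3 (mul_nonneg hε.le (sq_nonneg C))
    nlinarith
  refine (abs_le_of_sq_le_sq' (le_of_forall_pos_le_add fun δ hδ => ?_) (by positivity)).2
  have a1 := key (δ / (C ^ 2 * ‖ξ‖ ^ 2 + 1)) (by positivity)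
  have a2 : δ / (C ^ 2 * ‖ξ‖ ^ 2 + 1) * (C ^ 2 * ‖ξ‖ ^ 2) ≤ δ := by
    rw [div_mul_eq_mul_div, div_le_iff₀ (by positivity)]
    nlinarith
  linarith

/-- The norm of an element supported on finitely many `v v*` is attained on `A p`. -/
theorem cv_norm_le {ι : Type*} (s : Finset ι) (v : ι → A) (hv : ∀ i, v i * p = v i)
    (hv1 : ∀ i, ‖v i‖ ≤ 1) {c : A} (hc : c * ∑ i ∈ s, v i * star (v i) = c) {K : ℝ} (hK : 0 ≤ K)
    (h : ∀ m, m * p = m → ‖c * m‖ ≤ K * ‖m‖) : ‖c‖ ≤ K := by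
  have h' : ∀ m, m * p = m → ‖star c * m‖ ≤ K * ‖m‖ := fun m hm => by
    have a1 : ‖star c * m‖ * ‖star c * m‖ ≤ ‖m‖ * (K * ‖star c * m‖) := by
      rw [← CStarRing.norm_star_mul_self, star_mul, star_star, mul_assoc]
      refine (norm_mul_le _ _).trans ?_
      rw [norm_star]
      exact mul_le_mul_of_nonneg_left (h _ (by rw [mul_assoc, hm])) (norm_nonneg _)
    rcases (norm_nonneg (star c * m)).eq_or_lt with h0 | h0
    · rw [← h0]; positivity
    · nlinarith
  set y := star c * c with hy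
  have hys : IsSelfAdjoint y := IsSelfAdjoint.star_mul_self c
  have a1 : ∀ (n : ℕ) m, m * p = m → ‖y ^ n * m‖ ≤ (K ^ 2) ^ n * ‖m‖ := fun n => by
    induction n with
    | zero => intro m _; simp
    | succ n ih =>
      intro m hm
      have b0 : y ^ n * m * p = y ^ n * m := by rw [mul_assoc, hm]
      rw [pow_succ', mul_assoc, hy, mul_assoc, ← hy]
      refine (h' _ (by rw [mul_assoc, b0])).trans ?_
      have b1 := (h _ b0).trans (mul_le_mul_of_nonneg_left (ih m hm) hK)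
      calc _ ≤ K * (K * ((K ^ 2) ^ n * ‖m‖)) := mul_le_mul_of_nonneg_left b1 hK
        _ = _ := by ring
  have a2 : ∀ n : ℕ, ‖y‖ ^ 2 ^ n ≤ s.card * (K ^ 2) ^ 2 ^ n := fun n => by
    have b1 : ‖y‖ ^ 2 ^ n = ‖y ^ 2 ^ n‖ := by
      have := congrArg NNReal.toReal (hys.nnnorm_pow_two_pow n)
      simpa using this.symm
    have b2 : y ^ 2 ^ n = ∑ i ∈ s, y ^ 2 ^ n * v i * star (v i) := by
      obtain ⟨r, hr⟩ : ∃ r, 2 ^ n = r + 1 := ⟨2 ^ n - 1, by have := Nat.one_le_two_pow (n := n); omega⟩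
      simp only [mul_assoc, ← Finset.mul_sum]
      rw [hr, pow_succ, mul_assoc, hy, mul_assoc (star c), hc]
    rw [b1, b2, ← nsmul_eq_mul]
    refine (norm_sum_le _ _).trans (Finset.sum_le_card_nsmul _ _ _ fun i _ => ?_)
    refine (norm_mul_le _ _).trans ?_
    rw [norm_star]
    have b3 := (a1 (2 ^ n) _ (hv i)).trans (mul_le_of_le_one_right (by positivity) (hv1 i))
    exact (mul_le_of_le_one_right (norm_nonneg _) (hv1 i)).trans b3
  have a3 : ‖y‖ ≤ K ^ 2 := by
    by_contra hlt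
    rw [not_le] at hlt
    have hy0 : 0 < ‖y‖ := lt_of_le_of_lt (sq_nonneg K) hlt
    have hr1 : K ^ 2 / ‖y‖ < 1 := (div_lt_one hy0).2 hlt
    have hr0 : 0 ≤ K ^ 2 / ‖y‖ := by positivity
    obtain ⟨n, hn⟩ := exists_pow_lt_of_lt_one (x := 1 / ((s.card : ℝ) + 1)) (by positivity) hr1
    have b1 : (K ^ 2 / ‖y‖) ^ 2 ^ n ≤ (K ^ 2 / ‖y‖) ^ n :=
      pow_le_pow_of_le_one hr0 hr1.le (Nat.lt_two_pow_self).le
    have b2 := b1.trans_lt hn
    rw [div_pow, div_lt_div_iff₀ (by positivity) (by positivity)] at b2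
    have b3 := a2 n
    have b4 : 0 ≤ (K ^ 2) ^ 2 ^ n := by positivity
    nlinarith
  rw [hy, CStarRing.norm_star_mul_self, ← sq] at a3
  exact (abs_le_of_sq_le_sq' a3 hK).2

/-- A `p A p`-valued form on `A p` attached to every bounded map. -/
structure Form (p : A) (D : A → A → (A →L[ℂ] A) →ₗ[ℂ] A) : Prop where
  add_l : ∀ n n' m T, D (n + n') m T = D n m T + D n' m T
  add_r : ∀ n m m' T, D n (m + m') T = D n m T + D n m' T
  bd : ∀ n m T, ‖D n m T‖ ≤ ‖n‖ * ‖m‖ * ‖T‖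
  cor : ∀ n m T, D n m T * p = D n m T
  modl : ∀ n m T a, p * a * p = a → D (n * a) m T = star a * D n m T
  modr : ∀ n m T a, p * a * p = a → D n (m * a) T = D n m T * a
  left : ∀ n m T a, D n m ((lm a).comp T) = D (star a * n) m T
  right : ∀ n m T a, D n m (T.comp (lm a)) = D n (a * m) T
  mul : ∀ n m c, D n m (lm c) = p * (star n * c * m) * p

section Stage

variable {D : A → A → (A →L[ℂ] A) →ₗ[ℂ] A} {ι : Type*}

theorem Form.sum_l (hD : Form p D) (s : Finset ι) (n : ι → A) (m : A) (T : A →L[ℂ] A) :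
    D (∑ i ∈ s, n i) m T = ∑ i ∈ s, D (n i) m T :=
  map_sum (AddMonoidHom.mk' (fun n => D n m T) fun a b => hD.add_l a b m T) n s

theorem Form.sum_r (hD : Form p D) (s : Finset ι) (n : A) (m : ι → A) (T : A →L[ℂ] A) :
    D n (∑ i ∈ s, m i) T = ∑ i ∈ s, D n (m i) T :=
  map_sum (AddMonoidHom.mk' (fun m => D n m T) fun a b => hD.add_r n a b T) m s

theorem Form.stage (hD : Form p D) (hp : IsStarProjection p) (v : ι → A)
    (h1 : ∀ i, v i * star (v i) * v i = v i) (h2 : ∀ i, v i * p = v i)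
    (h3 : Pairwise fun i k => star (v i) * v k = 0) (s : Finset ι) :
    IsStarProjection (∑ i ∈ s, v i * star (v i)) ∧ ∃ c : (A →L[ℂ] A) →L[ℂ] A, ‖c‖ ≤ 1 ∧
      (∀ T, (∑ i ∈ s, v i * star (v i)) * c T = c T) ∧ ∀ T n m, n * p = n → m * p = m →
        star n * c T * m =
          D ((∑ i ∈ s, v i * star (v i)) * n) ((∑ i ∈ s, v i * star (v i)) * m) T := by
  set q := ∑ i ∈ s, v i * star (v i) with hq
  have hqv : ∀ i ∈ s, q * v i = v i := fun i hi => by
    rw [hq, Finset.sum_mul, Finset.sum_eq_single_of_mem i hi fun k _ hk => by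
      rw [mul_assoc, h3 hk, mul_zero], h1]
  have hqs : star q = q := by simp only [hq, star_sum, star_mul, star_star]
  have hqq : q * q = q := by
    nth_rewrite 2 [hq]
    rw [Finset.mul_sum]
    exact Finset.sum_congr rfl fun i hi => by rw [← mul_assoc, hqv i hi]
  have hQ : IsStarProjection q := ⟨hqq, hqs⟩
  have hin : ∀ i n, n * p = n → p * (star (v i) * n) * p = star (v i) * n := fun i n hn => by
    rw [← mul_assoc, cv_st_right hp (h2 i), mul_assoc, hn]
  have hv1 : ∀ i, ‖v i‖ ≤ 1 := fun i => by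
    have := (cv_pi_init (h1 i)).norm_le
    rw [CStarRing.norm_star_mul_self] at this
    nlinarith [norm_nonneg (v i)]
  let G : A → (A →L[ℂ] A) → A := fun m T => ∑ i ∈ s, v i * D (v i) m T
  have g1 : ∀ m T n, n * p = n → star n * G m T = D (q * n) m T := fun m T n hn => by
    rw [hq, Finset.sum_mul, hD.sum_l, Finset.mul_sum]
    refine Finset.sum_congr rfl fun i _ => ?_
    rw [mul_assoc (v i), hD.modl _ _ _ _ (hin i n hn), star_mul, star_star, mul_assoc]
  have g2 : ∀ m T, G m T * p = G m T := fun m T => by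
    rw [Finset.sum_mul]
    exact Finset.sum_congr rfl fun i _ => by rw [mul_assoc, hD.cor]
  have g3 : ∀ m T, q * G m T = G m T := fun m T => by
    rw [Finset.mul_sum]
    exact Finset.sum_congr rfl fun i hi => by rw [← mul_assoc, hqv i hi]
  have g4 : ∀ m T, ‖G m T‖ ≤ ‖T‖ * ‖m‖ := fun m T => by
    have a1 : ‖G m T‖ * ‖G m T‖ ≤ ‖G m T‖ * ‖m‖ * ‖T‖ := by
      rw [← CStarRing.norm_star_mul_self, g1 _ _ _ (g2 m T), g3]
      exact hD.bd _ _ _
    rcases (norm_nonneg (G m T)).eq_or_lt with h0 | h0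
    · rw [← h0]; positivity
    · nlinarith
  let c0 : (A →L[ℂ] A) →ₗ[ℂ] A :=
    { toFun := fun T => ∑ k ∈ s, G (v k) T * star (v k)
      map_add' := fun T T' => by
        simp only [G, map_add, mul_add, add_mul, Finset.sum_add_distrib]
      map_smul' := fun a T => by
        simp only [G, map_smul, mul_smul_comm, smul_mul_assoc, ← Finset.smul_sum,
          RingHom.id_apply] }
  have c1 : ∀ T m, m * p = m → c0 T * m = G (q * m) T := fun T m hm => by
    change (∑ k ∈ s, G (v k) T * star (v k)) * m = _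
    simp only [G, hq, Finset.sum_mul, hD.sum_r, Finset.mul_sum]
    rw [Finset.sum_comm]
    refine Finset.sum_congr rfl fun i _ => Finset.sum_congr rfl fun k _ => ?_
    rw [mul_assoc (v k), hD.modr _ _ _ _ (hin k m hm), mul_assoc, mul_assoc]
  have c2 : ∀ T, ‖c0 T‖ ≤ 1 * ‖T‖ := fun T => by
    rw [one_mul]
    refine cv_norm_le s v h2 hv1 ?_ (norm_nonneg _) fun m hm => ?_
    · change (∑ k ∈ s, G (v k) T * star (v k)) * q = ∑ k ∈ s, G (v k) T * star (v k)
      rw [Finset.sum_mul]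
      exact Finset.sum_congr rfl fun k hk => by rw [mul_assoc, cv_st_left hQ (hqv k hk)]
    · rw [c1 T m hm]
      refine (g4 _ _).trans (mul_le_mul_of_nonneg_left ((norm_mul_le _ _).trans ?_) (norm_nonneg _))
      exact mul_le_of_le_one_left (norm_nonneg _) hQ.norm_le
  refine ⟨hQ, c0.mkContinuous 1 c2, c0.mkContinuous_norm_le zero_le_one c2, fun T => ?_,
    fun T n m hn hm => ?_⟩
  · change q * ∑ k ∈ s, G (v k) T * star (v k) = ∑ k ∈ s, G (v k) T * star (v k)
    rw [Finset.mul_sum]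
    exact Finset.sum_congr rfl fun k _ => by rw [← mul_assoc, g3]
  · change star n * c0 T * m = _
    rw [mul_assoc, c1 T m hm, g1 _ _ _ hn]

end Stage

end Vale.Agent.P082
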