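import Vale.Agent.P082.Lim
import Vale.Agent.P082.Coch
import Vale.Agent.P104.Trich

/-! Limits of cochains and gluing over central projections. -/

open scoped InnerProductSpace ComplexOrder Topology
open Filter

namespace Vale.Agent.P082

open Vale.Agent.P104

variable {L : Type*} [NormedAddCommGroup L] [InnerProductSpace ℂ L] [CompleteSpace L]
  {A : Type*} [CStarAlgebra A] {M : VonNeumannAlgebra L} {j : A →⋆ₙₐ[ℂ] (L →L[ℂ] L)}

theorem exists_wl_ML (h : Corner M 1 j) {ι : Type*} (U : Ultrafilter ι) {k : ℕ} {K : ℝ}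
    (g : ι → List A → A) (hg : ∀ i, ML k K (g i)) :
    ∃ g' : List A → A, ML k K g' ∧ (∀ l, l.length = k → WL j U (fun i => g i l) (g' l)) ∧
      ∀ a l, l.length = k → WL j U (fun i => dL (g i) a l) (dL g' a l) := by
  have : ∀ l : List A, ∃ y, l.length = k → ‖y‖ ≤ K * np l ∧ WL j U (fun i => g i l) y := fun l => by
    by_cases hl : l.length = k
    · obtain ⟨y, hy⟩ := h.exists_wl U (fun i => g i l)
        (Eventually.of_forall fun i => (hg i).bd l hl)
      exact ⟨y, fun _ => hy⟩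
    · exact ⟨0, fun h => absurd h hl⟩
  choose g' hg' using this
  refine ⟨g', ⟨fun l hl i hi => ?_, fun l hl => (hg' l hl).1⟩, fun l hl => (hg' l hl).2,
    fun a l hl => ?_⟩
  · have hl' : ∀ a, (l.set i a).length = k := fun a => by simp [hl]
    refine ⟨fun a b => (hg' _ (hl' _)).2.unique h.inj ?_,
      fun c a => (hg' _ (hl' _)).2.unique h.inj ?_⟩
    · exact ((hg' _ (hl' a)).2.add (hg' _ (hl' b)).2).congr fun n =>
        (((hg n).lin l hl i hi).map_add a b).symm
    · exact ((hg' _ (hl' a)).2.smul c).congr fun n => (((hg n).lin l hl i hi).map_smul c a).symm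
  · exact ((hg' l hl).2.mul_left a).sub (bD_rel (· * ·) (WL j U) (fun _ _ _ _ h1 h2 => h1.sub h2)
      (fun _ _ a h1 => h1.mul_right a) g g' a l fun m hm => (hg' m (hm.trans hl)).2)

theorem norm_cp_add_le (h : Corner M 1 j) {z a b : A} (hz : CP z) {K : ℝ} (ha : ‖a‖ ≤ K)
    (hb : ‖b‖ ≤ K) : ‖z * a + (1 - z) * b‖ ≤ K := by
  have hK : 0 ≤ K := (norm_nonneg _).trans ha
  have hp : IsStarProjection (j z) := hz.1.map j
  have hzz : z * z = z := hz.1.isIdempotentElem
  have e1 : (z * a + (1 - z) * b) * z = a * z := by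
    rw [← hz.2, mul_add, ← mul_assoc, hzz, ← mul_assoc, mul_sub, mul_one, hzz, sub_self, zero_mul,
      add_zero, hz.2]
  have e2 : (z * a + (1 - z) * b) * (1 - z) = b * (1 - z) := by
    rw [mul_sub, e1, mul_one, hz.2, sub_mul, mul_sub, hz.2, one_mul, mul_one]
    abel
  have hj : j (1 - z) = 1 - j z := by rw [map_sub, h.one]
  rw [← h.norm_eq]
  refine ContinuousLinearMap.opNorm_le_bound _ hK fun ξ => ?_
  have h1 := pyth_two (j (z * a + (1 - z) * b)) hp (by
    rw [← map_star, ← map_mul, Commute, SemiconjBy, ← map_mul, ← map_mul, hz.2 (star _ * _)]) ξ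
  have h2 := pyth_two 1 hp (by simp) ξ
  rw [← hj, ← mul_apply_eq_comp, ← mul_apply_eq_comp, ← map_mul, ← map_mul, e1, e2, map_mul,
    map_mul, mul_apply_eq_comp, mul_apply_eq_comp, hj] at h1
  simp only [one_apply_eq_self] at h2
  have h3 := (j a).le_of_opNorm_le ((h.norm_eq a).trans_le ha) (j z ξ)
  have h4 := (j b).le_of_opNorm_le ((h.norm_eq b).trans_le hb) ((1 - j z) ξ)
  refine (abs_le_of_sq_le_sq' ?_ (by positivity)).2
  rw [← h1, mul_pow, ← h2, mul_add, ← mul_pow, ← mul_pow]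
  exact add_le_add (pow_le_pow_left₀ (norm_nonneg _) h3 2) (pow_le_pow_left₀ (norm_nonneg _) h4 2)

theorem norm_cp_sum_le (h : Corner M 1 j) {κ : Type*} {z y : κ → A} (hz : ∀ a, CP (z a))
    (ho : Pairwise fun a b => z a * z b = 0) {K : ℝ} (hK : 0 ≤ K) (hy : ∀ a, ‖y a‖ ≤ K)
    (s : Finset κ) : ‖∑ a ∈ s, z a * y a‖ ≤ K := by
  classical
  induction s using Finset.induction_on with
  | empty => simpa using hK
  | insert a s ha ih =>
    have : ∑ b ∈ s, z b * y b = (1 - z a) * ∑ b ∈ s, z b * y b := by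
      rw [Finset.mul_sum]
      refine Finset.sum_congr rfl fun b hb => ?_
      rw [sub_mul, one_mul, ← mul_assoc, ho (fun hab : a = b => ha (hab ▸ hb)), zero_mul, sub_zero]
    rw [Finset.sum_insert ha, this]
    exact norm_cp_add_le h (hz a) (hy a) ih

/-- The strong sum of orthogonal projections of `A`. -/
theorem exists_proj_sum (h : Corner M 1 j) {κ : Type*} {z : κ → A}
    (hz : ∀ a, IsStarProjection (z a)) (ho : Pairwise fun a b => z a * z b = 0) :
    ∃ Z : A, IsStarProjection Z ∧ (∀ a, Z * z a = z a) ∧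
      ∀ ξ, HasSum (fun a => j (z a) ξ) (j Z ξ) := by
  have hp : ∀ a, IsStarProjection (j (z a)) := fun a => (hz a).map j
  obtain ⟨V, hV, hpi, s1, -, -, -, s5, -, s7, -⟩ := exists_sum M (fun a => j (z a))
    (fun a => h.mem _) (fun a => isPI_of_proj (hp a))
    (fun a b hab => by
      beta_reduce
      rw [(hp a).isSelfAdjoint.star_eq, ← map_mul, ho hab, map_zero])
    (fun a b hab => by
      beta_reduce
      rw [(hp b).isSelfAdjoint.star_eq, ← map_mul, ho hab, map_zero])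
  obtain ⟨Z, rfl⟩ := h.surj V hV (by rw [one_mul, mul_one])
  have e : star (j Z) * j Z = j Z := ContinuousLinearMap.ext fun ξ => by
    have := s5 ξ
    simp only [(hp _).isSelfAdjoint.star_eq, (hp _).isIdempotentElem.eq] at this
    exact this.unique (s1 ξ)
  have hZ : IsStarProjection (j Z) := e ▸ hpi.init
  refine ⟨Z, ⟨h.inj (by rw [map_mul]; exact hZ.isIdempotentElem), h.inj (by
    rw [map_star]; exact hZ.isSelfAdjoint)⟩, fun a => h.inj ?_, s1⟩
  have := s7 a
  rw [e] at this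
  rw [map_mul]
  simpa [(hp a).isSelfAdjoint.star_eq, hZ.isSelfAdjoint.star_eq] using congrArg star this

theorem glue (h : Corner M 1 j) {k : ℕ} {K : ℝ} (hK : 0 ≤ K) {f : List A → A}
    (hloc : ∀ z₀ : A, CP z₀ → z₀ ≠ 0 → ∃ z, CP z ∧ z ≠ 0 ∧ z₀ * z = z ∧ Loc k K f z) :
    Loc k K f 1 := by
  obtain ⟨F, h1, h2, h3⟩ := exists_maximal_family (fun z : A => CP z ∧ Loc k K f z)
    (fun z w => z * w = 0 ∧ w * z = 0) fun _ _ h => ⟨h.2, h.1⟩
  have hz : ∀ z : F, CP z.1 := fun z => (h1 _ z.2).1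
  have ho : Pairwise fun z w : F => z.1 * w.1 = 0 := fun z w hzw =>
    (h2 z.2 w.2 fun h => hzw (Subtype.ext h)).1
  obtain ⟨Z, hZ, hZ1, hZ2⟩ := exists_proj_sum h (fun z => (hz z).1) ho
  have hc : ∀ x, Z * x = x * Z := fun x => h.inj (ContinuousLinearMap.ext fun ξ => by
    have a1 := (hZ2 ξ).mapL (j x)
    have a2 := hZ2 (j x ξ)
    simp only [← mul_apply_eq_comp, ← map_mul, ← (hz _).2 x] at a1 a2
    exact a2.unique a1)
  have hZ3 : Z = 1 := by
    by_contra hne
    obtain ⟨z, a1, a2, a3, a4⟩ := hloc (1 - Z)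
      ⟨hZ.one_sub, fun x => by rw [sub_mul, mul_sub, hc, one_mul, mul_one]⟩
      (sub_ne_zero.2 (Ne.symm hne))
    have a5 : Z * z = 0 := by rwa [sub_mul, one_mul, sub_eq_self] at a3
    have a6 : z ∈ F := h3 z ⟨a1, a4⟩ fun w hw => by
      have : z * w = 0 := by
        rw [← show Z * w = w from hZ1 ⟨w, hw⟩, ← mul_assoc, ← hc, a5, zero_mul]
      exact ⟨this, by rw [← a1.2, this]⟩
    exact a2 ((hZ1 ⟨z, a6⟩).symm.trans a5)
  choose g hg1 hg2 using fun z : F => (h1 _ z.2).2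
  obtain ⟨g', a1, -, a3⟩ := exists_wl_ML h (Ultrafilter.of (atTop : Filter (Finset F)))
    (fun s l => ∑ z ∈ s, z.1 * g z l) fun s =>
      ⟨Lin.sum s fun z _ => (hg1 z).lin.map (LinearMap.mulLeft ℂ z.1), fun l hl =>
        norm_cp_sum_le h hz ho (mul_nonneg hK (np_nonneg l)) (fun z => (hg1 z).bd l hl) s⟩
  refine ⟨g', a1, fun a l hl => (a3 a l hl).unique h.inj ?_⟩
  refine (wl_of_strong (x := fun s : Finset F => ∑ z ∈ s, z.1 * f (a :: l)) fun ξ => ?_).congr
    fun s => ?_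
  · have := hZ2 (j (f (a :: l)) ξ)
    rw [hZ3] at this
    simp only [map_sum, map_mul, sum_apply, mul_apply_eq_comp]
    exact Tendsto.mono_left this (Ultrafilter.of_le _)
  · rw [dL_sum]
    refine Finset.sum_congr rfl fun z _ => ?_
    rw [dL_central (hz z).2, hg2 z a l hl, ← mul_assoc, (hz z).1.isIdempotentElem.eq]

end Vale.Agent.P082
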