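import Vale.Agent.P082.TrBasic

/-! The odd kernel with small supremum, and the reflection estimate. -/

namespace Vale.Agent.P082.Tc

open scoped BigOperators ComplexConjugate
open Finset Filter Topology Vale.Agent.P085

theorem kernel_scalar {δ : ℝ} (hδ : 0 < δ) : ∃ (D : ℕ) (c : ℕ → ℝ), (∀ n, 0 ≤ c n) ∧
    ∑ n ∈ range D, c n = 1 ∧ ∀ w : ℂ, ‖w‖ = 1 →
      ‖∑ n ∈ range D, (c n : ℂ) * (w ^ (n + 1) - conj w ^ (n + 1))‖ ≤ δ := by
  have hL : 0 < (2 * Real.pi + 2) / δ := by positivity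
  obtain ⟨N, hN⟩ := (Real.tendsto_sum_range_one_div_nat_succ_atTop.eventually_ge_atTop
    (2 * ((2 * Real.pi + 2) / δ))).exists
  obtain ⟨ρ, hρ0, hρ1, hρN⟩ : ∃ ρ : ℝ, 0 < ρ ∧ ρ < 1 ∧ 1 / 2 ≤ ρ ^ N := by
    have h1 : ∀ᶠ ρ : ℝ in 𝓝 1, 1 / 2 < ρ ^ N :=
      (continuous_pow N).continuousAt.eventually (lt_mem_nhds (by norm_num))
    obtain ⟨ρ, h2, h3⟩ := (((h1.and (lt_mem_nhds one_pos)).filter_mono
      (nhdsWithin_le_nhds (s := Set.Iio 1))).and self_mem_nhdsWithin).exists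
    exact ⟨ρ, h2.2, h3, h2.1.le⟩
  obtain ⟨D, hD1, hD2⟩ := (((tendsto_pow_atTop_nhds_zero_of_lt_one hρ0.le hρ1).eventually
    (ge_mem_nhds (sub_pos.2 hρ1))).and (eventually_ge_atTop N)).exists
  obtain ⟨H, hH⟩ : ∃ H, H = ∑ n ∈ range D, ρ ^ (n + 1) / (n + 1) := ⟨_, rfl⟩
  have hHL : (2 * Real.pi + 2) / δ ≤ H := by
    have h1 : ∑ n ∈ range N, 1 / 2 * (1 / ((n : ℝ) + 1)) ≤ ∑ n ∈ range N, ρ ^ (n + 1) / (n + 1) :=
      sum_le_sum fun n hn => by
        rw [mul_one_div]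
        exact div_le_div_of_nonneg_right (hρN.trans (pow_le_pow_of_le_one hρ0.le hρ1.le
          (mem_range.1 hn))) (by positivity)
    have h2 := sum_le_sum_of_subset_of_nonneg (range_mono hD2)
      (f := fun n : ℕ => ρ ^ (n + 1) / ((n : ℝ) + 1)) fun n _ _ => by positivity
    rw [← mul_sum] at h1
    linarith
  have hH0 : 0 < H := hL.trans_le hHL
  refine ⟨D, fun n => H⁻¹ * (ρ ^ (n + 1) / (n + 1)), fun n => by positivity,
    by rw [← mul_sum, ← hH, inv_mul_cancel₀ hH0.ne'], fun w hw => ?_⟩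
  have hz : ‖-(ρ * w)‖ = ρ := by simp [hw, hρ0.le]
  have h1 := Complex.norm_log_sub_logTaylor_le D (z := -(ρ * w)) (hz.trans_lt hρ1)
  obtain ⟨P, hP⟩ : ∃ P, P = ∑ n ∈ range D, ((ρ : ℂ) * w) ^ (n + 1) / (n + 1) := ⟨_, rfl⟩
  have h2 : Complex.logTaylor (D + 1) (-(ρ * w)) = -P := by
    rw [Complex.logTaylor, sum_range_succ', hP, ← sum_neg_distrib]
    simp only [Nat.cast_zero, div_zero, add_zero, Nat.cast_add, Nat.cast_one]
    refine sum_congr rfl fun n _ => ?_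
    rw [pow_succ (-1 : ℂ) (n + 1), mul_right_comm, ← mul_pow, neg_one_mul, neg_neg]
    ring
  have h3 : ρ ^ (D + 1) * (1 - ρ)⁻¹ / (D + 1) ≤ 1 := by
    rw [div_le_one (by positivity), mul_inv_le_iff₀ (sub_pos.2 hρ1), pow_succ]
    nlinarith [pow_pos hρ0 D, mul_nonneg (Nat.cast_nonneg (α := ℝ) D) (sub_pos.2 hρ1).le]
  rw [hz, h2, sub_neg_eq_add] at h1
  have h4 := (Complex.abs_im_le_norm _).trans (h1.trans h3)
  have h5 := Complex.abs_arg_le_pi (1 + -(ρ * w))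
  rw [Complex.add_im, Complex.log_im] at h4
  have e : ∑ n ∈ range D, ((H⁻¹ * (ρ ^ (n + 1) / (n + 1)) : ℝ) : ℂ) *
      (w ^ (n + 1) - conj w ^ (n + 1)) = (H⁻¹ : ℝ) * (P - conj P) := by
    rw [hP, map_sum, ← sum_sub_distrib, mul_sum]
    refine sum_congr rfl fun n _ => ?_
    simp only [map_div₀, map_pow, map_mul, Complex.conj_ofReal, map_add, map_natCast, map_one]
    push_cast
    ring
  rw [e, Complex.sub_conj, norm_mul, norm_mul, Complex.norm_I, mul_one, Complex.norm_real,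
    Complex.norm_real, Real.norm_eq_abs, Real.norm_eq_abs, abs_of_pos (inv_pos.2 hH0),
    inv_mul_le_iff₀ hH0, abs_mul, abs_two]
  rw [div_le_iff₀ hδ] at hHL
  have := abs_le.1 h4
  have := abs_le.1 h5
  have : |P.im| ≤ Real.pi + 1 := abs_le.2 ⟨by linarith, by linarith⟩
  linarith

variable {A : Type*} [CStarAlgebra A]

theorem kernel_op {δ : ℝ} (hδ : 0 ≤ δ) {D : ℕ} {c : ℕ → ℝ} (h : ∀ w : ℂ, ‖w‖ = 1 →
      ‖∑ n ∈ range D, (c n : ℂ) * (w ^ (n + 1) - conj w ^ (n + 1))‖ ≤ δ) {y : A}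
    (hy : y ∈ unitary A) :
    ‖∑ n ∈ range D, (c n : ℂ) • (y ^ (n + 1) - star y ^ (n + 1))‖ ≤ δ := by
  have hn : IsStarNormal y := ⟨hy.1.trans hy.2.symm⟩
  have e : ∑ n ∈ range D, (c n : ℂ) • (y ^ (n + 1) - star y ^ (n + 1)) =
      cfc (∑ n ∈ range D, fun w : ℂ => (c n : ℂ) * (w ^ (n + 1) - star w ^ (n + 1))) y := by
    rw [cfc_sum _ _ _ fun _ _ => by fun_prop]
    refine sum_congr rfl fun n _ => ?_
    rw [cfc_const_mul .., cfc_sub .., cfc_pow_id .., cfc_pow .., cfc_star_id ..]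
  rw [e]
  refine norm_cfc_le hδ fun w hw => ?_
  rw [Finset.sum_apply]
  exact h w (by simpa using spectrum.subset_circle_of_unitary hy hw)

variable (T : Tr A)

theorem expect_ip_char {G : Type} [AddCommGroup G] [Fintype G] [DecidableEq G] (a b : G)
    (x z : A) : 𝔼 ψ : AddChar G ℂ, T.ip (ψ a • x) (ψ b • z) = if a = b then T.ip x z else 0 := by
  have := expect_char T (G := G) ![a, b] ![x, z]
  have h1 := expect_char T (G := G) ![a] ![x]
  have h2 := expect_char T (G := G) ![b] ![z]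
  simp only [Fin.sum_univ_two, Fin.sum_univ_one, Matrix.cons_val_zero, Matrix.cons_val_one,
    Matrix.cons_val_fin_one, T.n2_add_sq, expect_add_distrib, if_true, ← mul_expect]
    at this h1 h2
  rw [h1, h2, T.ip_comm z x] at this
  by_cases h : a = b
  · simp only [h, if_true] at this ⊢; linarith
  · simp only [h, Ne.symm h, if_false] at this ⊢; linarith

theorem char_pow {Q : ℕ} (ψ : AddChar (ZMod Q) ℂ) (y : A) (n : ℕ) :
    (ψ 1 • y) ^ n = ψ n • y ^ n := by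
  rw [smul_pow, ← ψ.map_nsmul_eq_pow, nsmul_one]

theorem char_unitary {G : Type*} [AddCommGroup G] [Finite G] (ψ : AddChar G ℂ) (a : G) {y : A}
    (hy : y ∈ unitary A) : ψ a • y ∈ unitary A := by
  have h : conj (ψ a) * ψ a = 1 := by
    rw [← ψ.map_neg_eq_conj, ← ψ.map_add_eq_mul, neg_add_cancel, ψ.map_zero_eq_one]
  rw [Unitary.mem_iff, star_smul, smul_mul_smul_comm, smul_mul_smul_comm, hy.1, hy.2,
    mul_comm (ψ a)]
  simp [h]

theorem expect_geom {Q : ℕ} [NeZero Q] {y : A} (hy : y ∈ unitary A) (k N : ℕ) (h : N ≤ Q) :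
    𝔼 ψ : AddChar (ZMod Q) ℂ, T.n2 (∑ m ∈ range N, (ψ 1 • y) ^ (k + m)) ^ 2 = N := by
  simp only [T.n2_sq, char_pow, ip_sum_left, T.ip_sum_right, expect_sum_comm, expect_ip_char]
  rw [sum_congr rfl (g := fun _ => (1 : ℝ)) fun m hm => ?_]
  · simp
  rw [sum_eq_single m (fun l hl hlm => if_neg fun e => hlm ?_) (fun h => absurd hm h), if_pos rfl,
    ← T.n2_sq, ← mul_one (y ^ _), n2_unit_mul T (pow_mem hy _), T.n2_one, one_pow]
  rw [Nat.cast_add, Nat.cast_add, add_right_inj, ZMod.natCast_eq_natCast_iff',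
    Nat.mod_eq_of_lt ((mem_range.1 hm).trans_le h),
    Nat.mod_eq_of_lt ((mem_range.1 hl).trans_le h)] at e
  exact e

theorem expect_term {Q D : ℕ} [NeZero Q] (y d x z : A) (a : ZMod Q)
    (h : ∀ l < D, ∃ m₀ < 3 * D, star y ^ (D + l) * y ^ m₀ = x ∧
      ∀ m < 3 * D, ((m : ZMod Q) - (D + l : ℕ) = a ↔ m = m₀)) :
    𝔼 ψ : AddChar (ZMod Q) ℂ, T.ip (d * (star (∑ l ∈ range D, (ψ 1 • y) ^ (D + l)) *
      ∑ m ∈ range (3 * D), (ψ 1 • y) ^ (0 + m))) (ψ a • z) = D * T.ip (d * x) z := by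
  have e : ∀ (ψ : AddChar (ZMod Q) ℂ) (l m : ℕ),
      d * (star ((ψ 1 • y) ^ (D + l)) * (ψ 1 • y) ^ (0 + m)) =
      ψ ((m : ZMod Q) - (D + l : ℕ)) • (d * (star y ^ (D + l) * y ^ m)) := fun ψ l m => by
    rw [char_pow, char_pow, star_smul, smul_mul_smul_comm, mul_smul_comm, zero_add, star_pow,
      sub_eq_neg_add, ψ.map_add_eq_mul, ψ.map_neg_eq_conj]
    rfl
  simp only [star_sum, sum_mul, mul_sum, e, ip_sum_left, expect_sum_comm, expect_ip_char]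
  rw [sum_comm, sum_congr rfl (g := fun _ => T.ip (d * x) z) fun l hl => ?_]
  · simp
  obtain ⟨m₀, h1, h2, h3⟩ := h l (mem_range.1 hl)
  rw [sum_eq_single m₀ (fun m hm hne => if_neg fun e => hne ((h3 m (mem_range.1 hm)).1 e))
    (fun h => absurd (mem_range.2 h1) h), if_pos ((h3 _ h1).2 rfl), h2]

/-- The quadratic form attached to `S` and `d`. -/
noncomputable def qf (S : A →L[ℂ] A) (d x : A) : ℝ := T.ip (d * x) (S x)

theorem reflection {δ : ℝ} (hδ : 0 ≤ δ) {D : ℕ} (hD : 0 < D) {c : ℕ → ℝ} (h : ∀ w : ℂ, ‖w‖ = 1 →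
      ‖∑ n ∈ range D, (c n : ℂ) * (w ^ (n + 1) - conj w ^ (n + 1))‖ ≤ δ) {y : A}
    (hy : y ∈ unitary A) (S : A →L[ℂ] A) (d : A) :
    ∑ n ∈ range D, c n * (qf T S d (star y ^ (n + 1)) - qf T S d (y ^ (n + 1))) ≤
      2 * (‖d‖ * (‖S‖ * δ)) := by
  have : NeZero (4 * D) := ⟨by omega⟩
  have key : ∀ a b : ℕ, a < 4 * D → b < 4 * D → ((a : ZMod (4 * D)) = b ↔ a = b) :=
    fun a b ha hb => by
      rw [ZMod.natCast_eq_natCast_iff', Nat.mod_eq_of_lt ha, Nat.mod_eq_of_lt hb]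
  have hu : ∀ k, star y ^ k * y ^ k = 1 := fun k => by rw [← star_pow]; exact (pow_mem hy k).1
  let G := fun ψ : AddChar (ZMod (4 * D)) ℂ => ∑ l ∈ range D, (ψ 1 • y) ^ (D + l)
  let G' := fun ψ : AddChar (ZMod (4 * D)) ℂ => ∑ l ∈ range (3 * D), (ψ 1 • y) ^ (0 + l)
  have h1 : 𝔼 ψ : AddChar (ZMod (4 * D)) ℂ, T.ip (d * (star (G ψ) * G' ψ))
      (S (-∑ n ∈ range D, (c n : ℂ) • ((ψ 1 • y) ^ (n + 1) - star (ψ 1 • y) ^ (n + 1)))) =
      D * ∑ n ∈ range D, c n * (qf T S d (star y ^ (n + 1)) - qf T S d (y ^ (n + 1))) := by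
    simp only [← sum_neg_distrib, map_sum, T.ip_sum_right, expect_sum_comm, mul_sum]
    refine sum_congr rfl fun n hn => ?_
    have hn := mem_range.1 hn
    have e : ∀ ψ : AddChar (ZMod (4 * D)) ℂ,
        S (-((c n : ℂ) • ((ψ 1 • y) ^ (n + 1) - star (ψ 1 • y) ^ (n + 1)))) =
        c n • (ψ (-((n + 1 : ℕ) : ZMod (4 * D))) • S (star y ^ (n + 1)) -
          ψ ((n + 1 : ℕ) : ZMod (4 * D)) • S (y ^ (n + 1))) := fun ψ => by
      rw [← star_pow, char_pow, star_smul, star_pow, ← smul_neg, neg_sub, map_smul, map_sub,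
        map_smul, map_smul, ψ.map_neg_eq_conj, Complex.coe_smul]
      rfl
    simp only [e, T.ip_smul_right, T.ip_sub_right, ← mul_expect, expect_sub_distrib, G, G']
    rw [expect_term T y d (star y ^ (n + 1)) _ _ fun l hl => ⟨D + l - (n + 1), by omega, ?_,
      fun m hm => ?_⟩, expect_term T y d (y ^ (n + 1)) _ _ fun l hl => ⟨D + l + (n + 1), by omega,
      ?_, fun m hm => ?_⟩]
    · simp only [qf]; ring
    · rw [pow_add y, ← mul_assoc, hu, one_mul]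
    · rw [sub_eq_iff_eq_add', ← Nat.cast_add, key _ _ (by omega) (by omega)]
    · nth_rw 1 [show D + l = n + 1 + (D + l - (n + 1)) by omega]
      rw [pow_add, mul_assoc, hu, mul_one]
    · rw [sub_eq_iff_eq_add, neg_add_eq_sub, eq_sub_iff_add_eq, ← Nat.cast_add,
        key _ _ (by omega) (by omega)]
      omega
  have hM : 0 ≤ ‖d‖ * (‖S‖ * δ) := by positivity
  have h2 := expect_le_expect (s := univ) fun (ψ : AddChar (ZMod (4 * D)) ℂ) _ =>
    show T.ip (d * (star (G ψ) * G' ψ))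
      (S (-∑ n ∈ range D, (c n : ℂ) • ((ψ 1 • y) ^ (n + 1) - star (ψ 1 • y) ^ (n + 1)))) ≤
      ‖d‖ * (‖S‖ * δ) / 2 * (T.n2 (G ψ) ^ 2 + T.n2 (G' ψ) ^ 2) by
    have h3 := S.le_of_opNorm_le_of_le le_rfl ((norm_neg _).trans_le
      (kernel_op hδ h (char_unitary ψ 1 hy)))
    generalize S _ = a at h3
    rw [T.ip_comm, ip_mul_left, ip_mul_left, star_star]
    refine (T.ip_le _ _).trans ?_
    have h4 := (T.n2_mul_le' (G ψ) (star d * a)).trans (mul_le_mul_of_nonneg_left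
      ((norm_mul_le _ _).trans (mul_le_mul_of_nonneg_left h3 (norm_nonneg _))) (T.n2_nonneg _))
    rw [norm_star] at h4
    nlinarith [mul_le_mul_of_nonneg_right h4 (T.n2_nonneg (G' ψ)),
      mul_nonneg hM (sq_nonneg (T.n2 (G ψ) - T.n2 (G' ψ)))]
  rw [h1, ← mul_expect, expect_add_distrib, expect_geom T hy D D (by omega),
    expect_geom T hy 0 (3 * D) (by omega)] at h2
  refine le_of_mul_le_mul_left (h2.trans_eq ?_) (Nat.cast_pos.2 hD)
  push_cast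
  ring

end Vale.Agent.P082.Tc
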