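import Vale.Agent.P082.Base
import Vale.Agent.P104.VNBasic

/-! Weak operator ultralimits in a corner of a von Neumann algebra. -/

open scoped InnerProductSpace ComplexOrder Topology
open Filter

namespace Vale.Agent.P082

open Vale.Agent.P104

variable {L : Type*} [NormedAddCommGroup L] [InnerProductSpace ℂ L] [CompleteSpace L]
  {B : Type*} [CStarAlgebra B] {M : VonNeumannAlgebra L} {e : L →L[ℂ] L}
  {j : B →⋆ₙₐ[ℂ] (L →L[ℂ] L)} {ι : Type*} {U : Filter ι} {x x' : ι → B} {y y' : B}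

theorem Corner.norm_eq (h : Corner M e j) (b : B) : ‖j b‖ = ‖b‖ :=
  NonUnitalStarAlgHom.norm_map j h.inj b

theorem Corner.proj (h : Corner M e j) : IsStarProjection e := by
  rw [← h.one]
  exact ⟨by rw [IsIdempotentElem, ← map_mul, mul_one], by
    rw [IsSelfAdjoint, ← map_star, star_one]⟩

theorem Corner.el (h : Corner M e j) (b : B) : e * j b = j b := by
  rw [← h.one, ← map_mul, one_mul]

theorem Corner.er (h : Corner M e j) (b : B) : j b * e = j b := by
  rw [← h.one, ← map_mul, mul_one]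

theorem WL.const (j : B →⋆ₙₐ[ℂ] (L →L[ℂ] L)) (U : Filter ι) (y : B) : WL j U (fun _ => y) y :=
  fun _ _ => tendsto_const_nhds

theorem WL.unique [U.NeBot] (hj : Function.Injective j) (h : WL j U x y) (h' : WL j U x y') :
    y = y' :=
  hj (ContinuousLinearMap.ext fun ξ => ext_inner_left ℂ fun η =>
    tendsto_nhds_unique (h η ξ) (h' η ξ))

theorem WL.congr' (h : WL j U x y) (hx : x =ᶠ[U] x') : WL j U x' y := fun η ξ =>
  (h η ξ).congr' (hx.mono fun i hi => by simp only [hi])

theorem WL.congr (h : WL j U x y) (hx : ∀ i, x i = x' i) : WL j U x' y :=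
  h.congr' (Eventually.of_forall hx)

theorem WL.add (h : WL j U x y) (h' : WL j U x' y') : WL j U (fun i => x i + x' i) (y + y') :=
  fun η ξ => by
    simpa only [map_add, add_apply, inner_add_right] using
      (h η ξ).add (h' η ξ)

theorem WL.sub (h : WL j U x y) (h' : WL j U x' y') : WL j U (fun i => x i - x' i) (y - y') :=
  fun η ξ => by
    simpa only [map_sub, sub_apply, inner_sub_right] using
      (h η ξ).sub (h' η ξ)

theorem WL.neg (h : WL j U x y) : WL j U (fun i => -x i) (-y) :=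
  fun η ξ => by
    simpa only [map_neg, neg_apply, inner_neg_right] using (h η ξ).neg

theorem WL.smul (c : ℂ) (h : WL j U x y) : WL j U (fun i => c • x i) (c • y) :=
  fun η ξ => by
    simpa only [map_smul, smul_apply, inner_smul_right] using
      (h η ξ).const_mul c

theorem WL.mul_right (h : WL j U x y) (a : B) : WL j U (fun i => x i * a) (y * a) :=
  fun η ξ => by
    simpa only [map_mul, mul_apply_eq_comp] using h η (j a ξ)

theorem WL.mul_left (a : B) (h : WL j U x y) : WL j U (fun i => a * x i) (a * y) :=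
  fun η ξ => by
    simpa only [map_mul, mul_apply_eq_comp, inner_star_left] using
      h (star (j a) η) ξ

theorem WL.star (h : WL j U x y) : WL j U (fun i => star (x i)) (star y) :=
  fun η ξ => by
    have := (Complex.continuous_conj.tendsto _).comp (h ξ η)
    simpa only [map_star, inner_star_right, Function.comp_def, inner_conj_symm] using this

theorem WL.sum {κ : Type*} (s : Finset κ) {x : κ → ι → B} {y : κ → B}
    (h : ∀ k ∈ s, WL j U (x k) (y k)) : WL j U (fun i => ∑ k ∈ s, x k i) (∑ k ∈ s, y k) :=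
  fun η ξ => by
    simpa only [map_sum, sum_apply, inner_sum] using
      tendsto_finsetSum s fun k hk => h k hk η ξ

theorem WL.mono {V : Filter ι} (h : WL j U x y) (hV : V ≤ U) : WL j V x y :=
  fun η ξ => (h η ξ).mono_left hV

/-- Strong convergence implies weak convergence. -/
theorem wl_of_strong (h : ∀ ξ, Tendsto (fun i => j (x i) ξ) U (𝓝 (j y ξ))) : WL j U x y :=
  fun _ ξ => tendsto_const_nhds.inner (h ξ)

theorem WL.apply_le [U.NeBot] (h : WL j U x y) (ξ : L) {C : ℝ}
    (hC : ∀ᶠ i in U, ‖j (x i) ξ‖ ≤ C) : ‖j y ξ‖ ≤ C := by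
  obtain ⟨i, hi⟩ := hC.exists
  have h0 : 0 ≤ C := (norm_nonneg _).trans hi
  have h1 : ‖⟪j y ξ, j y ξ⟫_ℂ‖ ≤ ‖j y ξ‖ * C :=
    le_of_tendsto (h (j y ξ) ξ).norm (hC.mono fun i hi => (norm_inner_le_norm _ _).trans
      (mul_le_mul_of_nonneg_left hi (norm_nonneg _)))
  rw [inner_self_eq_norm_sq_to_K, norm_pow, RCLike.norm_ofReal, abs_norm] at h1
  rcases (norm_nonneg (j y ξ)).eq_or_lt with h2 | h2
  · rwa [← h2]
  · nlinarith

theorem WL.norm_le [U.NeBot] (hj : Function.Injective j) (h : WL j U x y) {C : ℝ}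
    (hC : ∀ᶠ i in U, ‖x i‖ ≤ C) : ‖y‖ ≤ C := by
  obtain ⟨i, hi⟩ := hC.exists
  have h0 : 0 ≤ C := (norm_nonneg _).trans hi
  rw [← NonUnitalStarAlgHom.norm_map j hj]
  refine ContinuousLinearMap.opNorm_le_bound _ h0 fun ξ => h.apply_le ξ (hC.mono fun i hi => ?_)
  exact (j (x i)).le_of_opNorm_le ((NonUnitalStarAlgHom.norm_apply_le j _).trans hi) ξ

theorem exists_clim (U : Ultrafilter ι) (c : ι → ℂ) {C : ℝ} (h : ∀ᶠ i in U, ‖c i‖ ≤ C) :
    ∃ d, Tendsto c U (𝓝 d) := by
  obtain ⟨d, -, hd⟩ := (isCompact_closedBall (0 : ℂ) C).ultrafilter_le_nhds (U.map c) (by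
    rw [Ultrafilter.coe_map, le_principal_iff, mem_map]
    exact h.mono fun i hi => by simpa using hi)
  exact ⟨d, hd⟩

/-- Bounded families have weak ultralimits. -/
theorem Corner.exists_wl (h : Corner M e j) (U : Ultrafilter ι) (x : ι → B) {C : ℝ}
    (hC : ∀ᶠ i in U, ‖x i‖ ≤ C) : ∃ y, ‖y‖ ≤ C ∧ WL j U x y := by
  have hb : ∀ η ξ : L, ∀ᶠ i in U, ‖⟪η, j (x i) ξ⟫_ℂ‖ ≤ C * ‖η‖ * ‖ξ‖ := fun η ξ =>
    hC.mono fun i hi => (norm_inner_le_norm _ _).trans (by
      have := (j (x i)).le_of_opNorm_le ((h.norm_eq _).trans_le hi) ξ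
      nlinarith [norm_nonneg η])
  choose d hd using fun η ξ => exists_clim U _ (hb η ξ)
  let F : L →ₗ⋆[ℂ] L →ₗ[ℂ] ℂ := LinearMap.mk₂'ₛₗ (starRingEnd ℂ) (RingHom.id ℂ) d
    (fun η η' ξ => tendsto_nhds_unique (hd _ _) (by
      simpa only [inner_add_left] using (hd η ξ).add (hd η' ξ)))
    (fun c η ξ => tendsto_nhds_unique (hd _ _) (by
      simpa only [inner_smul_left, smul_eq_mul] using (hd η ξ).const_mul (starRingEnd ℂ c)))
    (fun η ξ ξ' => tendsto_nhds_unique (hd _ _) (by
      simpa only [map_add, inner_add_right] using (hd η ξ).add (hd η ξ')))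
    (fun c η ξ => tendsto_nhds_unique (hd _ _) (by
      simpa only [map_smul, inner_smul_right, smul_eq_mul, RingHom.id_apply] using
        (hd η ξ).const_mul c))
  let G : L →L⋆[ℂ] L →L[ℂ] ℂ := F.mkContinuous₂ C fun η ξ => le_of_tendsto (hd η ξ).norm (hb η ξ)
  let Y : L →L[ℂ] L := star (InnerProductSpace.continuousLinearMapOfBilin G)
  have hY : ∀ η ξ, ⟪η, Y ξ⟫_ℂ = d η ξ := fun η ξ => by
    rw [inner_star_right, InnerProductSpace.continuousLinearMapOfBilin_apply]
    rfl
  have hM : Y ∈ M := mem_of_commute M fun s hs => ContinuousLinearMap.ext fun ξ =>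
    ext_inner_left ℂ fun η => by
      rw [mul_apply_eq_comp, mul_apply_eq_comp, ← inner_star_left, hY, hY]
      refine tendsto_nhds_unique (hd _ _) ((hd _ _).congr fun i => ?_)
      rw [inner_star_left, ← mul_apply_eq_comp, ← (commute_of_mem M hs (h.mem _)).eq,
        mul_apply_eq_comp]
  have he : e * Y * e = Y := ContinuousLinearMap.ext fun ξ => ext_inner_left ℂ fun η => by
    rw [mul_apply_eq_comp, mul_apply_eq_comp, ← inner_star_left, hY, hY]
    refine tendsto_nhds_unique (hd _ _) ((hd _ _).congr fun i => ?_)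
    rw [inner_star_left, ← mul_apply_eq_comp, ← mul_apply_eq_comp, h.el,
      h.er]
  obtain ⟨y, hy⟩ := h.surj Y hM he
  have hw : WL j U x y := fun η ξ => by rw [hy, hY]; exact hd η ξ
  exact ⟨y, hw.norm_le h.inj hC, hw⟩

/-- Bounded families of maps have pointwise weak ultralimits. -/
theorem Corner.exists_wl_clm {E : Type*} [NormedAddCommGroup E] [NormedSpace ℂ E]
    (h : Corner M e j) (U : Ultrafilter ι) (T : ι → (E →L[ℂ] B)) {C : ℝ}
    (hC : ∀ᶠ i in U, ‖T i‖ ≤ C) :
    ∃ S : E →L[ℂ] B, ‖S‖ ≤ C ∧ ∀ v, WL j U (fun i => T i v) (S v) := by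
  obtain ⟨i, hi⟩ := hC.exists
  have h0 : 0 ≤ C := (norm_nonneg _).trans hi
  choose y hy1 hy2 using fun v => h.exists_wl U (fun i => T i v) (C := C * ‖v‖)
    (hC.mono fun i hi => (T i).le_of_opNorm_le hi v)
  let S : E →ₗ[ℂ] B :=
    { toFun := y
      map_add' := fun v w => (hy2 _).unique h.inj (((hy2 v).add (hy2 w)).congr fun i => by simp)
      map_smul' := fun c v => (hy2 _).unique h.inj (((hy2 v).smul c).congr fun i => by simp) }
  exact ⟨S.mkContinuous C hy1, S.mkContinuous_norm_le h0 hy1, hy2⟩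

end Vale.Agent.P082
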