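import Vale.Agent.P082.Cover
import Vale.Agent.P082.Glue

/-! A projection with infinitely many copies gives a properly infinite central projection. -/

open scoped InnerProductSpace ComplexOrder Topology
open Filter

namespace Vale.Agent.P082

open Vale.Agent.P104

variable {L : Type*} [NormedAddCommGroup L] [InnerProductSpace ℂ L] [CompleteSpace L]
  {A : Type*} [CStarAlgebra A] {M : VonNeumannAlgebra L} {j : A →⋆ₙₐ[ℂ] (L →L[ℂ] L)}

/-- Strong sums. -/
def SS (j : A →⋆ₙₐ[ℂ] (L →L[ℂ] L)) {κ : Type*} (v : κ → A) (V : A) : Prop :=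
  ∀ ξ, HasSum (fun a => j (v a) ξ) (j V ξ)

theorem SS.unique (h : Corner M 1 j) {κ : Type*} {v : κ → A} {V W : A} (h1 : SS j v V)
    (h2 : SS j v W) : V = W :=
  h.inj (ContinuousLinearMap.ext fun ξ => (h1 ξ).unique (h2 ξ))

theorem SS.mul_left {κ : Type*} {v : κ → A} {V : A} (h1 : SS j v V) (x : A) :
    SS j (fun a => x * v a) (x * V) := fun ξ => by
  simpa only [map_mul, mul_apply_eq_comp] using (h1 ξ).mapL (j x)

theorem SS.mul_right {κ : Type*} {v : κ → A} {V : A} (h1 : SS j v V) (x : A) :
    SS j (fun a => v a * x) (V * x) := fun ξ => by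
  simpa only [map_mul, mul_apply_eq_comp] using h1 (j x ξ)

theorem SS.single {κ : Type*} {v : κ → A} (a : κ) (h : ∀ b, b ≠ a → v b = 0) : SS j v (v a) :=
  fun ξ => hasSum_single (f := fun b => j (v b) ξ) a fun b hb => by simp [h b hb]

theorem SS.zero {κ : Type*} : SS j (fun _ : κ => (0 : A)) 0 := fun ξ => by
  simp

theorem SS.mul (h : Corner M 1 j) {κ : Type*} {v w : κ → A} {V W : A} (h1 : SS j v V)
    (h2 : SS j w W) (ho : Pairwise fun a b => v a * w b = 0) :
    SS j (fun a => v a * w a) (V * W) := by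
  have : ∀ a, v a * W = v a * w a := fun a => (h2.mul_left (v a)).unique h
    (SS.single (v := fun b => v a * w b) a fun b hb => ho hb.symm)
  simpa only [this] using h1.mul_right W

theorem exists_ss (h : Corner M 1 j) {κ : Type*} {v : κ → A}
    (hpi : ∀ a, v a * star (v a) * v a = v a) (h1 : Pairwise fun a b => star (v a) * v b = 0)
    (h2 : Pairwise fun a b => v a * star (v b) = 0) :
    ∃ V, SS j v V ∧ SS j (fun a => star (v a)) (star V) := by
  obtain ⟨V, hV, -, s1, s2, -⟩ := exists_sum M (fun a => j (v a)) (fun a => h.mem _)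
    (fun a => by rw [IsPI, ← map_star, ← map_mul, ← map_mul, hpi])
    (fun a b hab => by
      beta_reduce
      rw [← map_star, ← map_mul, h1 hab, map_zero])
    (fun a b hab => by
      beta_reduce
      rw [← map_star, ← map_mul, h2 hab, map_zero])
  obtain ⟨W, rfl⟩ := h.surj V hV (by rw [one_mul, mul_one])
  exact ⟨W, s1, fun ξ => by simpa only [map_star] using s2 ξ⟩

theorem pi_of_init {v : A} (hv : IsStarProjection (star v * v)) : v * (star v * v) = v := by
  have e := hv.isIdempotentElem.eq
  have h1 : star (v * (star v * v) - v) * (v * (star v * v) - v) =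
      (star v * v) * (star v * v) * (star v * v) - (star v * v) * (star v * v) -
        (star v * v) * (star v * v) + star v * v := by
    simp only [star_sub, star_mul, star_star]
    noncomm_ring
  rw [e, e, sub_self, zero_sub, neg_add_cancel, CStarRing.star_mul_self_eq_zero_iff] at h1
  exact sub_eq_zero.1 h1

/-- A projection containing infinitely many orthogonal copies of itself. -/
def PI (f : A) : Prop :=
  IsStarProjection f ∧ ∃ s : ℕ → A, (∀ a b, star (s a) * s b = if a = b then f else 0) ∧
    ∀ a, f * s a = s a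

theorem pi_of_inf (h : Corner M 1 j) {p : A} (hp : IsStarProjection p) (u : ℕ → A)
    (hu : ∀ a b, star (u a) * u b = if a = b then p else 0) :
    ∃ f, PI f ∧ (∀ a, f * u a = u a) ∧ SS j (fun a => u a * star (u a)) f := by
  have h0 : ∀ a, star (u a) * u a = p := fun a => by rw [hu, if_pos rfl]
  have h1 : ∀ a, u a * p = u a := fun a => by rw [← h0 a, pi_of_init (by rwa [h0])]
  have h2 : ∀ a b x, star (u a) * (u b * x) = if a = b then p * x else 0 := fun a b x => by
    rw [← mul_assoc, hu]
    split_ifs <;> simp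
  have h3 : ∀ a, p * star (u a) = star (u a) := fun a => by
    simpa [hp.isSelfAdjoint.star_eq] using congrArg star (h1 a)
  obtain ⟨f, f1, f2, f3⟩ := exists_proj_sum h (z := fun a => u a * star (u a))
    (fun a => ⟨by simp [IsIdempotentElem, mul_assoc, h2, h3], by simp [IsSelfAdjoint]⟩)
    fun a b hab => by simp [mul_assoc, h2, hab]
  have f4 : ∀ a, f * u a = u a := fun a => by
    have := congrArg (· * u a) (f2 a)
    simpa only [mul_assoc, h0, h1] using this
  choose s s1 s2 using fun a : ℕ => exists_ss h (v := fun k => u (Nat.pair a k) * star (u k))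
    (fun k => by simp [mul_assoc, h2, h3])
    (fun k l hkl => by simp [mul_assoc, h2, hkl]) fun k l hkl => by simp [mul_assoc, h2, hkl]
  refine ⟨f, ⟨f1, s, fun a b => ?_, fun a => ?_⟩, f4, f3⟩
  · have := (s2 a).mul h (s1 b) fun k l hkl => by simp [mul_assoc, h2, hkl]
    split_ifs with hab
    · exact this.unique h (by simpa [mul_assoc, h2, hab, h3] using (show SS j _ f from f3))
    · exact this.unique h (by simpa [mul_assoc, h2, hab] using SS.zero)
  · exact ((s1 a).mul_left f).unique h (by simpa only [← mul_assoc, f4] using s1 a)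

theorem pi_sum (h : Corner M 1 j) {κ : Type*} {f : κ → A} (hf : ∀ a, PI (f a))
    (ho : Pairwise fun a b => f a * f b = 0) :
    ∃ F, PI F ∧ (∀ a, F * f a = f a) ∧ SS j f F := by
  obtain ⟨F, F1, F2, F3⟩ := exists_proj_sum h (fun a => (hf a).1) ho
  choose s s1 s2 using fun a => (hf a).2
  have h0 : ∀ a n, star (s a n) * s a n = f a := fun a n => by rw [s1, if_pos rfl]
  have h1 : ∀ a n, s a n * f a = s a n := fun a n => by
    rw [← h0 a n, pi_of_init (by rw [h0]; exact (hf a).1)]
  have h2 : ∀ a n, star (s a n) * f a = star (s a n) := fun a n => by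
    simpa [(hf a).1.isSelfAdjoint.star_eq] using congrArg star (s2 a n)
  have h3 : ∀ a n, f a * star (s a n) = star (s a n) := fun a n => by
    simpa [(hf a).1.isSelfAdjoint.star_eq] using congrArg star (h1 a n)
  have h4 : ∀ n m, Pairwise fun a b => star (s a n) * s b m = 0 := fun n m a b hab => by
    beta_reduce
    rw [← h2, ← s2 b, mul_assoc, ← mul_assoc (f a), ho hab, zero_mul, mul_zero]
  choose S S1 S2 using fun n => exists_ss h (v := fun a => s a n)
    (fun a => by rw [mul_assoc, h0, h1]) (h4 n n) fun a b hab => by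
      beta_reduce
      rw [← h1, ← h3 b, mul_assoc, ← mul_assoc (f a), ho hab, zero_mul, mul_zero]
  refine ⟨F, ⟨F1, S, fun n m => ?_, fun n => ?_⟩, F2, F3⟩
  · have := (S2 n).mul h (S1 m) (h4 n m)
    split_ifs with hab
    · exact this.unique h (by simpa [s1, hab] using (show SS j _ F from F3))
    · exact this.unique h (by simpa [s1, hab] using SS.zero)
  · refine ((S1 n).mul_left F).unique h ?_
    have : ∀ a, F * s a n = s a n := fun a => by rw [← s2, ← mul_assoc, F2]
    simpa only [this] using S1 n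

/-- Comparison of two projections. -/
theorem exists_compare (h : Corner M 1 j) {F r : A} (hF : IsStarProjection F)
    (hr : IsStarProjection r) : ∃ W : A, W * star W * W = W ∧ F * W = W ∧ W * r = W ∧
      ∀ x, (F - W * star W) * x * (r - star W * W) = 0 := by
  obtain ⟨G, V, hV, hpi, h1, -, s1, -, -, -, -, hmax⟩ := exists_max_sum M
    (fun v => v ∈ M ∧ IsPI v ∧ j F * v = v ∧ v * j r = v) (fun v hv => ⟨hv.1, hv.2.1⟩)
    (fun _ _ => True) (fun _ _ _ => trivial)
  have a1 : j F * V = V := sum_mul_left s1 fun v => (h1 _ v.2).2.2.1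
  have a2 : V * j r = V := sum_mul_right s1 fun v => (h1 _ v.2).2.2.2
  obtain ⟨W, rfl⟩ := h.surj V hV (by rw [one_mul, mul_one])
  have b0 : W * star W * W = W := h.inj (by rw [map_mul, map_mul, map_star]; exact hpi)
  have b1 : F * W = W := h.inj (by rw [map_mul, a1])
  have b2 : W * r = W := h.inj (by rw [map_mul, a2])
  have b3 : star W * F = star W := by simpa [hF.isSelfAdjoint.star_eq] using congrArg star b1
  have b4 : r * star W = star W := by simpa [hr.isSelfAdjoint.star_eq] using congrArg star b2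
  have b5 : star W * W * star W = star W := by simpa [mul_assoc] using congrArg star b0
  have c1 : (F - W * star W) * (F - W * star W) = F - W * star W := by
    rw [sub_mul, mul_sub, mul_sub, hF.isIdempotentElem, ← mul_assoc F, b1, mul_assoc W _ F, b3,
      ← mul_assoc, b0]
    abel
  have c2 : IsStarProjection (r - star W * W) := ⟨by
    rw [IsIdempotentElem, sub_mul, mul_sub, mul_sub, hr.isIdempotentElem, ← mul_assoc r, b4,
      mul_assoc _ W r, b2, ← mul_assoc, b5]
    abel, hr.isSelfAdjoint.sub (IsSelfAdjoint.star_mul_self W)⟩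
  refine ⟨W, b0, b1, b2, fun x => ?_⟩
  by_contra hne
  obtain ⟨v, hvM, hv, hv0, v1, v2⟩ := exists_pi_of_ne_zero M (h.mem _)
    fun h0 => hne (h.inj (h0.trans (map_zero j).symm))
  have d1 := v1 (j (F - W * star W)) (by rw [← map_mul, ← mul_assoc, ← mul_assoc, c1])
  have d2 := v2 (j (r - star W * W)) (c2.map j) (by
    rw [← map_mul, mul_assoc, c2.isIdempotentElem])
  refine hv0 (hmax v ⟨hvM, hv, ?_, ?_⟩ ?_ ?_ fun _ _ => trivial)
  · rw [← d1, ← mul_assoc, ← map_mul, mul_sub, hF.isIdempotentElem, ← mul_assoc, b1]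
  · rw [← d2, mul_assoc, ← map_mul, sub_mul, hr.isIdempotentElem, mul_assoc, b2]
  · have : star (j W) * v = 0 := by
      rw [← d1, ← mul_assoc, ← map_star, ← map_mul, mul_sub, b3, ← mul_assoc, b5, sub_self,
        map_zero, zero_mul]
    simpa using congrArg star this
  · rw [← d2, mul_assoc, ← map_star, ← map_mul, sub_mul, b4, b5, sub_self, map_zero, mul_zero]

theorem central_of_inf {L : Type*} [NormedAddCommGroup L] [InnerProductSpace ℂ L]
    [CompleteSpace L] {A : Type*} [CStarAlgebra A] {M : VonNeumannAlgebra L}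
    {j : A →⋆ₙₐ[ℂ] (L →L[ℂ] L)} (h : Corner M 1 j) {z₀ p : A} (hz : CP z₀)
    (hp : IsStarProjection p) (hp0 : p ≠ 0) (hzp : z₀ * p = p) (hI : IsInf M (j p)) :
    ∃ z : A, CP z ∧ z ≠ 0 ∧ z₀ * z = z ∧
      ∃ s : ℕ → A, ∀ a b, star (s a) * s b = if a = b then z else 0 := by
  obtain ⟨u', hu1, hu2⟩ := hI
  choose u hu using fun k => h.surj (u' k) (hu1 k) (by rw [one_mul, mul_one])
  have hu3 : ∀ a b, star (u a) * u b = if a = b then p else 0 := fun a b => h.inj (by
    rw [map_mul, map_star, hu, hu, hu2]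
    split_ifs <;> simp)
  have h0 : ∀ a, star (u a) * u a = p := fun a => by rw [hu3, if_pos rfl]
  have h1 : ∀ a, u a * p = u a := fun a => by rw [← h0 a, pi_of_init (by rwa [h0])]
  obtain ⟨f₀, f1, f2, f3⟩ := pi_of_inf h hp u hu3
  have f4 : z₀ * f₀ = f₀ := (f3.mul_left z₀).unique h (by
    have : ∀ a, z₀ * u a = u a := fun a => by rw [hz.2, ← h1, mul_assoc, ← hz.2, hzp]
    simpa only [← mul_assoc, this] using f3)
  have f5 : f₀ ≠ 0 := fun h => hp0 (by rw [← h0 0, ← f2 0, h, zero_mul, mul_zero])
  obtain ⟨G, g1, g2, g3⟩ := exists_maximal_family (fun f : A => PI f ∧ z₀ * f = f)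
    (fun f g => f * g = 0 ∧ g * f = 0) fun _ _ h => ⟨h.2, h.1⟩
  obtain ⟨F, ⟨F1, s, s1, s2⟩, F2, F3⟩ := pi_sum h (f := fun f : G => f.1) (fun f => (g1 _ f.2).1)
    fun f g hfg => (g2 f.2 g.2 fun h => hfg (Subtype.ext h)).1
  have F4 : z₀ * F = F := (F3.mul_left z₀).unique h (by
    simpa only [fun f : G => (g1 _ f.2).2] using F3)
  have key : ∀ g, PI g → z₀ * g = g → F * g = 0 → g = 0 := fun g a1 a2 a3 => by
    have a4 : g ∈ G := g3 g ⟨a1, a2⟩ fun w hw => by
      have b1 : w * F = w := by
        simpa [F1.isSelfAdjoint.star_eq, (g1 w hw).1.1.isSelfAdjoint.star_eq] using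
          congrArg star (F2 ⟨w, hw⟩)
      have b2 : w * g = 0 := by rw [← b1, mul_assoc, a3, mul_zero]
      exact ⟨by
        simpa [a1.1.isSelfAdjoint.star_eq, (g1 w hw).1.1.isSelfAdjoint.star_eq] using
          congrArg star b2, b2⟩
    exact (F2 ⟨g, a4⟩).symm.trans a3
  have F5 : F ≠ 0 := fun h => f5 (key f₀ f1 f4 (by rw [h, zero_mul]))
  have hzz : z₀ * z₀ = z₀ := hz.1.isIdempotentElem
  have hFF : F * F = F := F1.isIdempotentElem
  have hr : IsStarProjection (z₀ - F) := ⟨by
    rw [IsIdempotentElem, sub_mul, mul_sub, mul_sub, hzz, F4, ← hz.2, F4, hFF]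
    abel, hz.1.isSelfAdjoint.sub F1.isSelfAdjoint⟩
  obtain ⟨W, b0, b1, b2, b6⟩ := exists_compare h F1 hr
  have b3 : star W * F = star W := by simpa [F1.isSelfAdjoint.star_eq] using congrArg star b1
  have b4 : (z₀ - F) * star W = star W := by
    simpa [F1.isSelfAdjoint.star_eq, hz.1.isSelfAdjoint.star_eq] using congrArg star b2
  have b5 : star W * W * star W = star W := by simpa [mul_assoc] using congrArg star b0
  have c1 : IsStarProjection (F - W * star W) := ⟨by
    rw [IsIdempotentElem, sub_mul, mul_sub, mul_sub, hFF, ← mul_assoc F, b1, mul_assoc W _ F, b3,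
      ← mul_assoc, b0]
    abel, F1.isSelfAdjoint.sub (IsSelfAdjoint.mul_star_self W)⟩
  have c2 : F - W * star W ≠ 0 := fun h => by
    have d0 : W * star W = F := (sub_eq_zero.1 h).symm
    have d1 : star W * W = 0 := key _ ⟨⟨by rw [IsIdempotentElem, ← mul_assoc, b5],
      IsSelfAdjoint.star_mul_self W⟩, fun a => star W * s a * W, fun a b => by
        have : star (star W * s a * W) * (star W * s b * W) =
            star W * (star (s a) * ((W * star W) * s b)) * W := by
          simp only [star_mul, star_star, mul_assoc]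
        rw [this, d0, s2, s1]
        split_ifs
        · rw [b3]
        · simp, fun a => by rw [← mul_assoc, ← mul_assoc, b5]⟩
      (by rw [← b4, ← mul_assoc, ← mul_assoc, mul_sub, hzz, F4])
      (by rw [← b4, ← mul_assoc, ← mul_assoc, mul_sub, ← hz.2, F4, hFF, sub_self, zero_mul,
        zero_mul])
    exact F5 (by rw [← d0, ← b0, mul_assoc W _ W, d1, mul_zero, zero_mul])
  obtain ⟨z, -, z1, z2, z3, -⟩ := exists_cover h c1
  have z4 : z₀ * z = z := by
    have := z3 (1 - z₀) fun x => by
      rw [sub_mul, hz.2, sub_mul, one_mul, mul_assoc x z₀, mul_sub z₀, F4, ← mul_assoc z₀,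
        ← b1, ← mul_assoc z₀, F4, sub_self]
    rw [sub_mul, one_mul, sub_eq_zero] at this
    exact this.symm
  have z5 : (z₀ - F - star W * W) * z = 0 := z3 _ fun x => by
    have := congrArg star (b6 (star x))
    simpa [F1.isSelfAdjoint.star_eq, hz.1.isSelfAdjoint.star_eq, mul_assoc] using this
  refine ⟨z, z1, fun h => c2 (by rw [← z2, h, zero_mul]), z4,
    fun a => (s (2 * a) + s (2 * a + 1) * W) * z, fun a b => ?_⟩
  have e1 : star ((s (2 * a) + s (2 * a + 1) * W) * z) * ((s (2 * b) + s (2 * b + 1) * W) * z) =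
      z * ((star (s (2 * a)) * s (2 * b) + star (s (2 * a)) * s (2 * b + 1) * W +
        star W * (star (s (2 * a + 1)) * s (2 * b)) +
        star W * (star (s (2 * a + 1)) * s (2 * b + 1)) * W) * z) := by
    simp only [star_mul, star_add, z1.1.isSelfAdjoint.star_eq]
    noncomm_ring
  rw [e1, s1, s1, s1, s1, if_neg (show 2 * a ≠ 2 * b + 1 by omega),
    if_neg (show 2 * a + 1 ≠ 2 * b by omega)]
  by_cases hab : a = b
  · subst hab
    have : (F + star W * W) * z = z := by
      rw [sub_sub, sub_mul, z4, sub_eq_zero] at z5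
      exact z5.symm
    simp only [if_true, zero_mul, mul_zero, add_zero, b3, this, z1.1.isIdempotentElem.eq]
  · rw [if_neg (show 2 * a ≠ 2 * b by omega), if_neg (show 2 * a + 1 ≠ 2 * b + 1 by omega),
      if_neg hab]
    simp

end Vale.Agent.P082
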