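import Vale.Agent.P082.PInfAux

/-! The properly infinite case: prism, sign averaging and ultralimit. -/

open scoped InnerProductSpace ComplexOrder Topology
open Filter

namespace Vale.Agent.P082

open Vale.Agent.P104

section Stage

variable {A : Type*} [CStarAlgebra A] {z : A} {κ : Type*} [DecidableEq κ] {s : κ → A}

theorem iso_mul (hz : CP z) (hs : ∀ a b, star (s a) * s b = if a = b then z else 0) (a : κ) :
    s a * z = s a := by
  have h1 : star (s a) * s a = z := by simpa using hs a a
  have hzz : z * z = z := hz.1.isIdempotentElem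
  have h2 : star (s a * z - s a) * (s a * z - s a) = 0 := by
    rw [star_sub, star_mul, hz.1.isSelfAdjoint.star_eq]
    have : (z * star (s a) - star (s a)) * (s a * z - s a) =
        z * (star (s a) * s a) * z - z * (star (s a) * s a) - star (s a) * s a * z +
          star (s a) * s a := by noncomm_ring
    rw [this, h1, hzz, hzz]
    abel
  exact sub_eq_zero.1 ((CStarRing.star_mul_self_eq_zero_iff _).1 h2)

theorem iso_orth (hz : CP z) (hs : ∀ a b, star (s a) * s b = if a = b then z else 0) {ι : Type*}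
    {e : ι → κ} (he : Function.Injective e) : Orth fun i => s (e i) := by
  refine ⟨fun i => ?_, fun a b hab => by simp only [hs, if_neg (he.ne hab)]⟩
  have h1 := CStarRing.norm_star_mul_self (x := s (e i))
  rw [hs, if_pos rfl] at h1
  nlinarith [hz.1.norm_le, norm_nonneg (s (e i))]

variable [Fintype κ]

/-- The diagonal amplification. -/
noncomputable def amp (s : κ → A) : A →ₗ[ℂ] A := ∑ a, LinearMap.mulLeftRight ℂ (s a, star (s a))

omit [DecidableEq κ] in
theorem amp_apply (s : κ → A) (x : A) : amp s x = ∑ a, s a * x * star (s a) := by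
  simp [amp, LinearMap.sum_apply]

theorem amp_mul_iso (hz : CP z) (hs : ∀ a b, star (s a) * s b = if a = b then z else 0) (x : A)
    (a : κ) : amp s x * s a = s a * x := by
  simp only [amp_apply, Finset.sum_mul, mul_assoc, hs, mul_ite, mul_zero, Finset.sum_ite_eq',
    Finset.mem_univ, if_true]
  rw [← hz.2, ← mul_assoc, iso_mul hz hs]

omit [DecidableEq κ] in
theorem amp_star (s : κ → A) (x : A) : amp s (star x) = star (amp s x) := by
  simp only [amp_apply, star_sum, star_mul, star_star, mul_assoc]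

theorem iso_mul_amp (hz : CP z) (hs : ∀ a b, star (s a) * s b = if a = b then z else 0) (x : A)
    (a : κ) : star (s a) * amp s x = x * star (s a) := by
  simpa only [star_mul, star_star, ← amp_star] using congrArg star (amp_mul_iso hz hs (star x) a)

theorem amp_mul (hz : CP z) (hs : ∀ a b, star (s a) * s b = if a = b then z else 0) (x y : A) :
    amp s (x * y) = amp s x * amp s y := by
  rw [amp_apply s y, amp_apply s (x * y), Finset.mul_sum]
  refine Finset.sum_congr rfl fun a _ => ?_
  rw [← mul_assoc (amp s x), ← mul_assoc (amp s x), amp_mul_iso hz hs, mul_assoc (s a) x y]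

theorem norm_amp_le (hz : CP z) (hs : ∀ a b, star (s a) * s b = if a = b then z else 0) (x : A) :
    ‖amp s x‖ ≤ ‖x‖ :=
  NonUnitalStarAlgHom.norm_apply_le
    ({ toFun := amp s
       map_smul' := (amp s).map_smul
       map_zero' := (amp s).map_zero
       map_add' := (amp s).map_add
       map_mul' := amp_mul hz hs
       map_star' := amp_star s } : A →⋆ₙₐ[ℂ] A) x

/-- The twisted average of a map. -/
noncomputable def tw (s : κ → A) (F : A →L[ℂ] A) : A →L[ℂ] A :=
  cav fun a => cav fun b => (ContinuousLinearMap.mulLeftRight ℂ A (star (s a)) (s b)).comp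
    (F.comp (ContinuousLinearMap.mulLeftRight ℂ A (s a) (star (s b))))

omit [DecidableEq κ] in
theorem tw_apply (s : κ → A) (F : A →L[ℂ] A) (x : A) :
    tw s F x = cav fun a => cav fun b => star (s a) * F (s a * x * star (s b)) * s b := by
  simp only [tw, cav, smul_apply, sum_apply, ContinuousLinearMap.comp_apply,
    ContinuousLinearMap.mulLeftRight_apply]

theorem norm_tw_le [Nonempty κ] (hz : CP z)
    (hs : ∀ a b, star (s a) * s b = if a = b then z else 0) (F : A →L[ℂ] A) : ‖tw s F‖ ≤ ‖F‖ := by
  have h1 : ∀ a, ‖s a‖ ≤ 1 := (iso_orth hz hs Function.injective_id).1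
  have h2 : ∀ a b y, ‖star (s a) * y * s b‖ ≤ ‖y‖ ∧ ‖s a * y * star (s b)‖ ≤ ‖y‖ := fun a b y => by
    have := norm_nonneg y
    constructor <;>
    · refine (norm_mul₃_le).trans ?_
      rw [norm_star]
      exact (mul_le_of_le_one_right (by positivity) (h1 b)).trans (mul_le_of_le_one_left this (h1 a))
  refine ContinuousLinearMap.opNorm_le_bound _ (norm_nonneg _) fun x => ?_
  rw [tw_apply]
  exact norm_cav_le fun a => norm_cav_le fun b => (h2 a b _).1.trans ((F.le_opNorm _).trans
    (mul_le_mul_of_nonneg_left (h2 a b x).2 (norm_nonneg _)))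

theorem tw_cb {L : Type*} [NormedAddCommGroup L] [InnerProductSpace ℂ L] [CompleteSpace L]
    {j : A →⋆ₙₐ[ℂ] (L →L[ℂ] L)} (hj : Function.Injective j) [AddCommGroup κ] (hz : CP z)
    (hs : ∀ a b, star (s a) * s b = if a = b then z else 0) (F : A →L[ℂ] A) {K : ℝ} (hF : ‖F‖ ≤ K)
    {ι : Type} [Fintype ι] (hι : Fintype.card ι ≤ Fintype.card κ) : CBon j ι (tw s F) K := by
  intro x hx
  obtain ⟨e⟩ := Function.Embedding.nonempty_of_card_le hι
  have hK : 0 ≤ K := (norm_nonneg _).trans hF
  have ho : ∀ c : κ, Orth fun i => s (e i + c) := fun c =>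
    iso_orth hz hs ((add_left_injective c).comp e.injective)
  have h1 := mbdd_cav (j := j) hK fun c : κ => mbdd_cav (j := j) hK fun d : κ =>
    mbdd_twist hj (ho c) (ho d) F hF hx
  have e1 : ∀ a b, (cav fun c : κ => cav fun d : κ => star (s (e a + c)) *
      F (s (e a + c) * x a b * star (s (e b + d))) * s (e b + d)) = tw s F (x a b) := by
    intro a b
    rw [tw_apply, ← cav_equiv (Equiv.addLeft (e a))
      fun c => cav fun d => star (s c) * F (s c * x a b * star (s d)) * s d]
    exact cav_congr fun c => cav_equiv (Equiv.addLeft (e b))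
      fun d => star (s (e a + c)) * F (s (e a + c) * x a b * star (s d)) * s d
  simpa only [e1] using h1

theorem stage {L : Type*} [NormedAddCommGroup L] [InnerProductSpace ℂ L] [CompleteSpace L]
    {j : A →⋆ₙₐ[ℂ] (L →L[ℂ] L)} (hj : Function.Injective j) [AddCommGroup κ] (hz : CP z)
    (hs : ∀ a b, star (s a) * s b = if a = b then z else 0) {k : ℕ} {C : ℝ}
    (hC : 0 ≤ C) {f : List A → A} (hf : ML (k + 1) C f)
    (hd : ∀ a l, l.length = k + 1 → dL f a l = 0) :
    ∃ (h : List A → A) (G : List A → (A →L[ℂ] A)), ML k ((k + 1) * C) h ∧ Lin k G ∧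
      (∀ l : List A, l.length = k → ‖G l‖ ≤ C * np l ∧
        ∀ (ι : Type) [Fintype ι], Fintype.card ι ≤ Fintype.card κ → CBon j ι (G l) (C * np l)) ∧
      ∀ a l, l.length = k → ∀ x,
        a * G l x - bD (fun (T : A → A) b y => T (b * y)) (fun m y => G m y) a l x =
          (-1) ^ (k + 1) * (z * f (a :: l) - dL h a l) * x := by
  have hb : ∀ l : List A, l.length = k → ∀ x, ‖f (l ++ [x])‖ ≤ C * np l * ‖x‖ := fun l hl x => by
    simpa [np_append, mul_assoc] using hf.bd (l ++ [x]) (by simp [hl])
  have : ∀ l : List A, ∃ T : A →L[ℂ] A, l.length = k → (∀ x, T x = f (l ++ [x])) ∧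
      ‖T‖ ≤ C * np l := fun l => by
    by_cases hl : l.length = k
    · exact ⟨(IsLinearMap.mk' _ (hf.lin.last l hl)).mkContinuous _ (hb l hl), fun _ =>
        ⟨fun _ => rfl, LinearMap.mkContinuous_norm_le _ (mul_nonneg hC (np_nonneg l)) _⟩⟩
    · exact ⟨0, fun h => absurd h hl⟩
  choose F hF using this
  have h1 : ∀ a, ‖s a‖ ≤ 1 := (iso_orth hz hs Function.injective_id).1
  have hG : ∀ l : List A, l.length = k → ∀ x, tw s (F (l.map (amp s))) x = cav fun a => cav fun b =>
      star (s a) * f (l.map (amp s) ++ [s a * x * star (s b)]) * s b := fun l hl x => by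
    simp only [tw_apply, (hF (l.map (amp s)) (by simpa using hl)).1]
  have hn : ∀ l : List A, l.length = k → ‖F (l.map (amp s))‖ ≤ C * np l := fun l hl =>
    (hF _ (by simpa using hl)).2.trans
      (mul_le_mul_of_nonneg_left (np_map_le (norm_amp_le hz hs) l) hC)
  have hp : ∀ a, ML k ((k + 1) * C) fun m => star (s a) * pr (amp s) (s a) f m := fun a =>
    hf.pr hC (amp s) (norm_amp_le hz hs) (by rw [norm_star]; exact h1 a) (h1 a)
  refine ⟨fun m => cav fun a => star (s a) * pr (amp s) (s a) f m, fun l => tw s (F (l.map (amp s))),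
    ⟨(Lin.sum Finset.univ fun a _ => (hp a).lin).map ((Fintype.card κ : ℂ)⁻¹ • LinearMap.id),
      fun l hl => norm_cav_le fun a => (hp a).bd l hl⟩, fun l hl i hi => ?_,
    fun l hl => ⟨(norm_tw_le hz hs _).trans (hn l hl), fun ι _ hι => tw_cb hj hz hs _ (hn l hl) hι⟩,
    fun a l hl x => ?_⟩
  · have hl' : ∀ a, (l.set i a).length = k := fun a => by simp [hl]
    have h2 : ∀ x, Lin k fun m : List A => cav fun a => cav fun b =>
        star (s a) * f (m.map (amp s) ++ [s a * x * star (s b)]) * s b := fun x =>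
      (Lin.sum Finset.univ fun a _ => (Lin.sum Finset.univ fun b _ =>
        ((hf.lin.init (s a * x * star (s b))).comp_map (amp s)).map
          (LinearMap.mulLeftRight ℂ (star (s a), s b))).map
            ((Fintype.card κ : ℂ)⁻¹ • LinearMap.id)).map ((Fintype.card κ : ℂ)⁻¹ • LinearMap.id)
    refine ⟨fun a b => ContinuousLinearMap.ext fun x => ?_,
      fun c a => ContinuousLinearMap.ext fun x => ?_⟩
    · rw [add_apply, hG _ (hl' _), hG _ (hl' _), hG _ (hl' _)]
      exact (h2 x l hl i hi).map_add a b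
    · rw [smul_apply, hG _ (hl' _), hG _ (hl' _)]
      exact (h2 x l hl i hi).map_smul c a
  · rw [hG l hl, bD_congr _ (g := fun m y => cav fun c => cav fun d =>
      star (s c) * f (m.map (amp s) ++ [s c * y * star (s d)]) * s d) a l
      (fun m hm => funext fun y => hG m (hm.trans hl) y), bD_cav, cav_mul_left, ← cav_sub, dL_cav,
      ← cav_const (Ω := κ) (z * f (a :: l)), ← cav_sub, cav_mul_left, cav_mul_right]
    refine cav_congr fun c => ?_
    rw [bD_cav, cav_mul_left, ← cav_sub]
    refine (cav_congr fun d => ?_).trans (cav_const _)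
    have e1 := prism (amp_mul hz hs) (fun y => amp_mul_iso hz hs y c)
      (fun y => iso_mul_amp hz hs y c) hd a l hl
    have e2 := bD_last (β := fun y => s c * y * star (s d)) (amp_mul hz hs)
      (fun b y => by rw [← mul_assoc (amp s b), ← mul_assoc (amp s b), amp_mul_iso hz hs,
        mul_assoc (s c) b y]) (star (s c)) (s d) (fun m y => f (m ++ [y])) a l x
    have e3 := hd (amp s a) (l.map (amp s) ++ [s c * x * star (s d)]) (by simp [hl])
    rw [dL, bD_append, List.length_map, hl, ← sub_add, add_eq_zero_iff_eq_neg] at e3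
    have e4 : s c * x * star (s d) * s d = s c * x := by
      rw [mul_assoc, hs, if_pos rfl, mul_assoc, ← hz.2, ← mul_assoc, iso_mul hz hs]
    have e5 : (-1 : A) ^ k * star (s c) = star (s c) * (-1) ^ k :=
      ((Commute.neg_one_left _).pow_left k).eq
    rw [e1, e2, hs, if_pos rfl, sub_sub_cancel, ← mul_assoc a, ← mul_assoc a, ← iso_mul_amp hz hs,
      mul_assoc (star (s c)) (amp s a), ← sub_mul, ← mul_sub, e3, List.map_cons, pow_succ]
    simp only [mul_neg, neg_mul, mul_one, mul_assoc, neg_inj] at e4 ⊢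
    rw [e4, ← mul_assoc, ← e5, mul_assoc]

end Stage

theorem loc_pi {L : Type*} [NormedAddCommGroup L] [InnerProductSpace ℂ L] [CompleteSpace L]
    {A : Type*} [CStarAlgebra A] {M : VonNeumannAlgebra L} {j : A →⋆ₙₐ[ℂ] (L →L[ℂ] L)}
    (h : Corner M 1 j) {Ψ : (A →L[ℂ] A) →ₗ[ℂ] A} (hΨ : IsRet (CB j) 1 Ψ) {z : A} (hz : CP z)
    (s : ℕ → A) (hs : ∀ a b, star (s a) * s b = if a = b then z else 0) {k : ℕ} {C : ℝ}
    (hC : 0 ≤ C) {f : List A → A} (hf : ML (k + 1) C f)
    (hd : ∀ a l, l.length = k + 1 → dL f a l = 0) : Loc k ((k + 2) * C) f z := by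
  choose g G a1 a2 a3 a4 using fun n : ℕ => stage (κ := Fin (n + 1)) (s := fun a => s a) h.inj hz
    (fun a b => by simp only [hs, Fin.ext_iff]) hC hf hd
  obtain ⟨g', b1, -, b2⟩ := exists_wl_ML h (hyperfilter ℕ) g a1
  have : ∀ l : List A, ∃ S : A →L[ℂ] A, l.length = k →
      ∀ x, WL j (hyperfilter ℕ) (fun n => G n l x) (S x) := fun l => by
    by_cases hl : l.length = k
    · obtain ⟨S, -, hS⟩ := h.exists_wl_clm (hyperfilter ℕ) (fun n => G n l)
        (Eventually.of_forall fun n => (a3 n l hl).1)
      exact ⟨S, fun _ => hS⟩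
    · exact ⟨0, fun h => absurd h hl⟩
  choose G' hG' using this
  obtain ⟨c1, c2⟩ := ret_apply hΨ hC G' (fun l hl i hi => by
      have hl' : ∀ a, (l.set i a).length = k := fun a => by simp [hl]
      refine ⟨fun a b => ContinuousLinearMap.ext fun x => (hG' _ (hl' _) x).unique h.inj ?_,
        fun c a => ContinuousLinearMap.ext fun x => (hG' _ (hl' _) x).unique h.inj ?_⟩
      · exact ((hG' _ (hl' a) x).add (hG' _ (hl' b) x)).congr fun n => by
          rw [(a2 n l hl i hi).map_add a b, add_apply]
      · exact ((hG' _ (hl' a) x).smul c).congr fun n => by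
          rw [(a2 n l hl i hi).map_smul c a, smul_apply])
    (fun l hl ι _ x hx => mbdd_lim (mul_nonneg hC (np_nonneg l)) (fun a b => hG' l hl (x a b))
      (Nat.hyperfilter_le_atTop ((eventually_ge_atTop (Fintype.card ι)).mono fun n hn =>
        (a3 n l hl).2 ι (by rw [Fintype.card_fin]; omega) x hx)))
    (fun a l => (-1) ^ (k + 1) * (z * f (a :: l) - dL g' a l)) fun a l hl x => by
      have d1 := bD_rel (fun (T : A → A) b y => T (b * y))
        (fun (T : ℕ → A → A) S => ∀ y, WL j (hyperfilter ℕ : Filter ℕ) (fun n => T n y) (S y))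
        (fun _ _ _ _ h1 h2 y => (h1 y).sub (h2 y)) (fun _ _ a h1 y => h1 (a * y))
        (fun n m y => G n m y) (fun m y => G' m y) a l (fun m hm => hG' m (hm.trans hl)) x
      exact (((hG' l hl x).mul_left a).sub d1).unique h.inj
        ((((((WL.const j _ _).sub (b2 a l hl)).mul_left _).mul_right x)).congr fun n =>
          (a4 n a l hl x).symm)
  refine ⟨_, (b1.add (c1.sign (k + 1))).mono (le_of_eq (by ring)), fun a l hl => ?_⟩
  rw [dL_add, dL_sign, c2 a l hl]
  rcases neg_one_pow_eq_or A (k + 1) with h | h <;> simp [h]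

end Vale.Agent.P082
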