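import Vale.Agent.P082.AbelFin
import Vale.Agent.P082.CBAvg
import Vale.Agent.P082.PICentral
import Vale.Agent.P082.PInf
import Vale.Agent.P104.Tracial

/-! Assembly. -/

open scoped InnerProductSpace ComplexOrder Topology

namespace Vale.Agent.P082

open Vale.Agent.P104

universe u

theorem loc_one {L : Type u} [NormedAddCommGroup L] [InnerProductSpace ℂ L] [CompleteSpace L]
    {A : Type*} [CStarAlgebra A] {M : VonNeumannAlgebra L} {j : A →⋆ₙₐ[ℂ] (L →L[ℂ] L)}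
    (h : Corner M 1 j) {k : ℕ} {C : ℝ} (hC : 0 ≤ C) {f : List A → A} (hf : ML (k + 1) C f)
    (hd : ∀ a l, l.length = k + 1 → dL f a l = 0) : Loc k ((k + 2) * C) f 1 := by
  refine glue h (by positivity) fun z₀ hz₀ hz0 => ?_
  have hjz : IsStarProjection (j z₀) := hz₀.1.map j
  obtain ⟨e, heM, he, he0, hze, hcase⟩ := trichotomy M (h.mem z₀) hjz
    fun h0 => hz0 (h.inj (h0.trans (map_zero j).symm))
  obtain ⟨p, rfl⟩ := h.surj e heM (by rw [one_mul, mul_one])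
  have hp : IsStarProjection p :=
    ⟨h.inj (by rw [map_mul]; exact he.isIdempotentElem), h.inj (by
      rw [map_star]; exact he.isSelfAdjoint)⟩
  have hp0 : p ≠ 0 := fun h0 => he0 (by rw [h0, map_zero])
  have hzp : z₀ * p = p := h.inj (by rw [map_mul, hze])
  obtain ⟨B, iB, i, hi1, hi2, hi3, hi4⟩ := exists_corner M (j p) heM he
  have hi : Corner M (j p) i := ⟨hi1, hi2, hi3, hi4⟩
  have key : ∀ Φ : (B →L[ℂ] B) →ₗ[ℂ] B, IsRet Bd 1 Φ →
      ∃ z, CP z ∧ z ≠ 0 ∧ z₀ * z = z ∧ Loc k ((k + 2) * C) f z := by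
    intro Φ hΦ
    obtain ⟨z, hz, hz1, hz2, Ψ, hΨ⟩ := ret_of_corner h hp hi hΦ
    refine ⟨z, hz, fun h0 => hp0 (by rw [← hz1, h0, zero_mul]), ?_,
      (loc_of_ret hΨ hC hf hd).mono (by nlinarith [Nat.cast_nonneg (α := ℝ) k])⟩
    have := hz2 (1 - z₀) fun x => by
      rw [sub_mul, hz₀.2, sub_mul, one_mul, mul_assoc x z₀, hzp, sub_self]
    rw [sub_mul, one_mul, sub_eq_zero] at this
    exact this.symm
  rcases hcase with hA | hI | hF
  · obtain ⟨Φ, hΦ⟩ := ret_abel hi hA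
    exact key Φ hΦ
  · obtain ⟨z, hz, hz1, hz2, s, hs⟩ := central_of_inf h hz₀ hp hp0 hzp hI
    obtain ⟨Ψ, hΨ⟩ := exists_ret_cb h
    exact ⟨z, hz, hz1, hz2, loc_pi h hΨ hz s hs hC hf hd⟩
  · obtain ⟨Φ, hΦ⟩ := ret_fin hi hF
    exact key Φ hΦ

theorem vanishing {H : Type u} [NormedAddCommGroup H] [InnerProductSpace ℂ H] [CompleteSpace H]
    (M : VonNeumannAlgebra H) (k : ℕ)
    (f : ContinuousMultilinearMap ℂ (fun _ : Fin (k + 1) => M.toStarSubalgebra)
      M.toStarSubalgebra)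
    (hf : ∀ a, hochschildD f a = 0) :
    ∃ g : ContinuousMultilinearMap ℂ (fun _ : Fin k => M.toStarSubalgebra) M.toStarSubalgebra,
      ∀ a, f a = hochschildD g a := by
  haveI : IsClosed (M.toStarSubalgebra : Set (H →L[ℂ] H)) := by
    rw [VonNeumannAlgebra.coe_toStarSubalgebra, ← M.centralizer_centralizer]
    exact Set.isClosed_centralizer _
  have h : Corner M 1 (M.toStarSubalgebra.subtype.toNonUnitalStarAlgHom) :=
    ⟨Subtype.val_injective, rfl, fun b => b.2, fun x hx _ => ⟨⟨x, hx⟩, rfl⟩⟩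
  exact vanish_of_loc (fun C f hC hf hd => ⟨_, loc_one h hC hf hd⟩) f hf

end Vale.Agent.P082
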