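import Vale.Agent.P082.TrBasic

/-! Averaging operators on bounded maps, and the normal part. -/

namespace Vale.Agent.P082.Tc

open scoped BigOperators
open Finset Filter Topology Vale.Agent.P085

variable {A : Type*} [CStarAlgebra A] (T : Tr A)

/-- Left multiplication. -/
noncomputable abbrev lm (a : A) : A →L[ℂ] A := ContinuousLinearMap.mul ℂ A a

/-- Right multiplication. -/
noncomputable abbrev rm (a : A) : A →L[ℂ] A := (ContinuousLinearMap.mul ℂ A).flip a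

/-- Linear contractions on bounded maps that commute with the left operations. -/
structure Pre (ρ : (A →L[ℂ] A) → (A →L[ℂ] A)) : Prop where
  add : ∀ S S' x, ρ (S + S') x = ρ S x + ρ S' x
  smul : ∀ (c : ℂ) S x, ρ (c • S) x = c • ρ S x
  norm : ∀ S x, ‖ρ S x‖ ≤ ‖S‖ * ‖x‖
  left : ∀ a S x, ρ (lm a ∘L S) x = a * ρ S x
  right : ∀ b S x, ρ (S ∘L lm b) x = ρ S (b * x)

theorem Pre.lim (hT : WCompact T) {ι : Type*} (𝒰 : Ultrafilter ι)
    {F : ι → (A →L[ℂ] A) → (A →L[ℂ] A)} (hF : ∀ i, Pre (F i)) :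
    ∃ ρ, Pre ρ ∧ ∀ S x, WL T 𝒰 (fun i => F i S x) (ρ S x) := by
  choose g hg using fun S x => hT.exists 𝒰 (fun i => F i S x) fun i => (hF i).norm S x
  have hn : ∀ S x, ‖g S x‖ ≤ ‖S‖ * ‖x‖ := fun S x => (hg S x).norm_le fun i => (hF i).norm S x
  refine ⟨fun S => LinearMap.mkContinuous
    { toFun := g S
      map_add' := fun x y => (hg S _).unique (by simpa using (hg S x).add (hg S y))
      map_smul' := fun c x => (hg S _).unique (by simpa using (hg S x).smul c) } ‖S‖ (hn S),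
    ⟨fun S S' x => (hg _ x).unique ?_, fun c S x => (hg _ x).unique ?_, hn,
      fun a S x => (hg _ x).unique ?_, fun b S x => (hg _ x).unique ?_⟩, hg⟩
  · simp only [(hF _).add]; exact (hg S x).add (hg S' x)
  · simp only [(hF _).smul]; exact (hg S x).smul c
  · simp only [(hF _).left]; exact (hg S x).mul_left a
  · simp only [(hF _).right]; exact hg S (b * x)

theorem scalar_cut (f : A →ₗ[ℝ] ℝ) {M : ℝ} (hM : 0 ≤ M) (hf : ∀ x, f x ≤ M * ‖x‖) {η : ℝ}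
    (hη : 0 < η) : ∃ δ > 0, ∃ κ > 0, ∀ ε > 0, ∃ x₀ : A, T.n2 x₀ ≤ ε ∧ ∀ e : A, star e = e →
      ‖e‖ ≤ 1 → ‖x₀ * e‖ ≤ κ → ∀ x, ‖x‖ ≤ 1 → T.n2 x ≤ δ → f (x * e) ≤ η := by
  let B : ℝ → Set A := fun δ => {x | ‖x‖ ≤ 1 ∧ T.n2 x ≤ δ}
  let G : ℝ → ℝ := fun δ => sSup (f '' B δ)
  have hb : ∀ x, ‖x‖ ≤ 1 → f x ≤ M := fun x hx => (hf x).trans (mul_le_of_le_one_right hM hx)
  have hbdd : ∀ δ, BddAbove (f '' B δ) := fun δ => ⟨M, by rintro _ ⟨x, hx, rfl⟩; exact hb x hx.1⟩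
  have hne : ∀ δ > 0, (f '' B δ).Nonempty := fun δ hδ => ⟨_, 0, ⟨by simp, by simp [hδ.le]⟩, rfl⟩
  have hG0 : ∀ δ > 0, 0 ≤ G δ := fun δ hδ =>
    le_csSup (hbdd δ) ⟨0, ⟨by simp, by simp [hδ.le]⟩, map_zero f⟩
  have hGM : ∀ δ > 0, G δ ≤ M := fun δ hδ =>
    csSup_le (hne δ hδ) (by rintro _ ⟨x, hx, rfl⟩; exact hb x hx.1)
  obtain ⟨t, ht0, ht1, htη⟩ : ∃ t : ℝ, 0 < t ∧ t ≤ 1 ∧ t * (2 + 2 * M) ≤ η :=
    ⟨min 1 (η / (2 + 2 * M)), by positivity, min_le_left _ _,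
      (le_div_iff₀ (by positivity)).1 (min_le_right _ _)⟩
  have hlow : BddBelow (G '' Set.Ioi 0) := ⟨0, by rintro _ ⟨δ, hδ, rfl⟩; exact hG0 δ hδ⟩
  obtain ⟨_, ⟨δ, hδ, rfl⟩, hδG⟩ := exists_lt_of_csInf_lt (s := G '' Set.Ioi 0)
    ⟨_, 1, Set.mem_Ioi.2 one_pos, rfl⟩ (lt_add_of_pos_right _ (pow_pos ht0 2))
  have hδ0 : 0 < δ := hδ
  refine ⟨δ / 2, by positivity, t ^ 2, by positivity, fun ε hε => ?_⟩
  have hε' : 0 < min ε (δ / 2) := by positivity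
  obtain ⟨_, ⟨x₀, hx₀, rfl⟩, h0⟩ := exists_lt_of_lt_csSup (hne _ hε')
    (sub_lt_self (G (min ε (δ / 2))) (pow_pos ht0 2))
  have h1 : sInf (G '' Set.Ioi 0) ≤ G (min ε (δ / 2)) := csInf_le hlow ⟨_, hε', rfl⟩
  refine ⟨x₀, hx₀.2.trans (min_le_left _ _), fun e he he1 hxe x hx hxδ => ?_⟩
  have hxe1 : ‖x * e‖ ≤ 1 := (norm_mul_le _ _).trans (mul_le_one₀ hx (norm_nonneg _) he1)
  have hc : ‖x₀ * star (x * e)‖ ≤ t ^ 2 := by
    rw [star_mul, he, ← mul_assoc]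
    refine (norm_mul_le _ _).trans ?_
    rw [norm_star]
    nlinarith [norm_nonneg (x₀ * e), norm_nonneg x]
  have hz : ‖x₀ + t • (x * e)‖ ≤ 1 + 2 * t ^ 2 := by
    have e1 : (x₀ + t • (x * e)) * star (x₀ + t • (x * e)) = x₀ * star x₀ +
        t • (x₀ * star (x * e)) + t • star (x₀ * star (x * e)) +
        (t * t) • (x * e * star (x * e)) := by
      simp only [star_add, star_smul, star_trivial, add_mul, mul_add, smul_mul_assoc,
        mul_smul_comm, star_mul (x₀), star_star, smul_add, smul_smul]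
      abel
    have h2 := CStarRing.norm_self_mul_star (x := x₀ + t • (x * e))
    have h3 := norm_add_le (x₀ * star x₀ + t • (x₀ * star (x * e)) + t • star (x₀ * star (x * e)))
      ((t * t) • (x * e * star (x * e)))
    have h4 := norm_add₃_le (a := x₀ * star x₀) (b := t • (x₀ * star (x * e)))
      (c := t • star (x₀ * star (x * e)))
    rw [← e1, h2] at h3
    simp only [norm_smul, norm_star, CStarRing.norm_self_mul_star, Real.norm_eq_abs, abs_mul,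
      abs_of_pos ht0] at h3 h4
    have h5 : ‖x₀‖ * ‖x₀‖ ≤ 1 := mul_le_one₀ hx₀.1 (norm_nonneg _) hx₀.1
    have h6 : ‖x * e‖ * ‖x * e‖ ≤ 1 := mul_le_one₀ hxe1 (norm_nonneg _) hxe1
    have h7 : t * ‖x₀ * star (x * e)‖ ≤ t ^ 2 := by nlinarith [sq_nonneg t]
    have h8 : t * t * (‖x * e‖ * ‖x * e‖) ≤ t ^ 2 := by nlinarith [sq_nonneg t]
    refine abs_le_of_sq_le_sq' ?_ (by positivity) |>.2
    nlinarith [sq_nonneg (t ^ 2)]
  have hp : 0 < 1 + 2 * t ^ 2 := by positivity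
  have hw : (1 + 2 * t ^ 2)⁻¹ • (x₀ + t • (x * e)) ∈ B δ := by
    constructor
    · rw [norm_smul, Real.norm_eq_abs, abs_of_pos (inv_pos.2 hp), inv_mul_le_iff₀ hp, mul_one]
      exact hz
    · rw [T.n2_real_smul, abs_of_pos (inv_pos.2 hp), inv_mul_le_iff₀ hp]
      have h2 := T.n2_add_le x₀ (t • (x * e))
      have h3 := T.n2_mul_le' x e
      have h4 := hx₀.2.trans (min_le_right _ _)
      rw [T.n2_real_smul, abs_of_pos ht0] at h2
      have h5 : T.n2 (x * e) ≤ δ / 2 := by nlinarith [T.n2_nonneg x]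
      nlinarith [T.n2_nonneg (x * e), mul_pos hδ0 (pow_pos ht0 2)]
  have h2 : f _ ≤ G δ := le_csSup (hbdd δ) ⟨_, hw, rfl⟩
  rw [map_smul, smul_eq_mul, inv_mul_le_iff₀ hp, map_add, map_smul, smul_eq_mul] at h2
  have h3 := mul_le_mul_of_nonneg_left (hGM δ hδ0) (sq_nonneg t)
  refine le_trans (le_of_mul_le_mul_left ?_ ht0) htη
  nlinarith

/-- The real functional `x ↦ ⟨z, S x⟩`. -/
noncomputable def fnl (z : A) (S : A →L[ℂ] A) : A →ₗ[ℝ] ℝ where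
  toFun x := T.ip z (S x)
  map_add' x y := by rw [map_add, T.ip_add_right]
  map_smul' c x := by rw [S.map_smul_of_tower, T.ip_smul_right]; rfl

theorem exists_normal_weak (hT : WCompact T) : ∃ ρ : (A →L[ℂ] A) → (A →L[ℂ] A), Pre ρ ∧
    (∀ x, ρ (.id ℂ A) x = x) ∧
    ∀ S z, ∀ η > 0, ∃ δ > 0, ∀ x, ‖x‖ ≤ 1 → T.n2 x ≤ δ → T.ip z (ρ S x) ≤ η := by
  have key := fun (d : (A →L[ℂ] A) × A × Set.Ioi (0 : ℝ)) =>
    scalar_cut T (fnl T d.2.1 d.1) (M := T.n2 d.2.1 * ‖d.1‖)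
      (mul_nonneg (T.n2_nonneg _) (norm_nonneg _)) (fun x => by
        refine (le_abs_self _).trans ((T.abs_ip_le_norm _ _).trans ?_)
        rw [mul_assoc]
        exact mul_le_mul_of_nonneg_left (d.1.le_opNorm x) (T.n2_nonneg _)) d.2.2.2
  choose δ hδ κ hκ hx using key
  obtain ⟨𝒰, h𝒰⟩ := exists_ultra (X := {e : A // ‖e‖ ≤ 1})
    (fun (d : (A →L[ℂ] A) × A × Set.Ioi (0 : ℝ)) e => T.n2 (1 - e.1) ≤ d.2.2 ∧
      ∀ x, ‖x‖ ≤ 1 → T.n2 x ≤ δ d → T.ip d.2.1 (d.1 (x * e.1)) ≤ d.2.2) fun F => by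
    obtain ⟨m, hm, hmF⟩ : ∃ m > 0, ∀ d ∈ F, m ≤ κ d ∧ m ≤ d.2.2 := by
      have : ∀ᶠ m in 𝓝[>] (0 : ℝ), ∀ d ∈ F, m ≤ κ d ∧ m ≤ d.2.2 :=
        (eventually_all_finset F).2 fun d _ => nhdsWithin_le_nhds
          ((eventually_le_nhds (hκ d)).and (eventually_le_nhds d.2.2.2))
      obtain ⟨m, h1, h2⟩ := (this.and self_mem_nhdsWithin).exists
      exact ⟨m, h2, h1⟩
    choose x₀ hx₀ hx₁ using fun d => hx d (m ^ 2 / (F.card + 1)) (by positivity)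
    obtain ⟨e, he, he1, -, hxe, hn, -⟩ := exists_cutoff T F x₀ hm
    refine ⟨⟨e, he1⟩, fun d hd => ⟨le_trans ?_ (hmF d hd).2, hx₁ d e he he1
      ((hxe d hd).trans (hmF d hd).1)⟩⟩
    refine abs_le_of_sq_le_sq' (hn.trans ?_) hm.le |>.2
    have h1 := sum_le_card_nsmul F (fun d => T.n2 (x₀ d) ^ 2) _ fun d _ =>
      pow_le_pow_left₀ (T.n2_nonneg _) (hx₀ d) 2
    rw [div_le_iff₀ (by positivity)]
    refine h1.trans ?_
    rw [nsmul_eq_mul, div_pow, ← mul_div_assoc, div_le_iff₀ (by positivity)]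
    have : (0 : ℝ) ≤ F.card := Nat.cast_nonneg _
    nlinarith [mul_nonneg (pow_pos hm 4).le (sq_nonneg (F.card : ℝ)), pow_pos hm 4,
      mul_nonneg (pow_pos hm 4).le this]
  obtain ⟨ρ, hρ, hl⟩ := Pre.lim T hT 𝒰 (F := fun e S => S ∘L rm e.1) fun e =>
    ⟨fun _ _ _ => rfl, fun _ _ _ => rfl, fun S x => (S.le_opNorm _).trans
      (mul_le_mul_of_nonneg_left ((norm_mul_le _ _).trans
        (mul_le_of_le_one_right (norm_nonneg _) e.2)) (norm_nonneg _)), fun _ _ _ => rfl,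
      fun b S x => congrArg S (mul_assoc b x e.1).symm⟩
  refine ⟨ρ, hρ, fun x => (hl _ x).unique (WL.of_n2 ?_), fun S z η hη =>
    ⟨δ (S, z, ⟨η, hη⟩), hδ _, fun x hx hxδ => le_of_tendsto (hl S x z)
      ((h𝒰 (S, z, ⟨η, hη⟩)).mono fun e he => he.2 x hx hxδ)⟩⟩
  have h1 : Tendsto (fun e : {e : A // ‖e‖ ≤ 1} => T.n2 (1 - e.1)) 𝒰 (𝓝 0) :=
    tendsto_order.2 ⟨fun a ha => .of_forall fun e => ha.trans_le (T.n2_nonneg _), fun a ha =>
      (h𝒰 (0, 0, ⟨a / 2, half_pos ha⟩)).mono fun e he => he.1.trans_lt (half_lt_self ha)⟩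
  refine squeeze_zero (fun _ => T.n2_nonneg _) (fun e => ?_) (by simpa using h1.const_mul ‖x‖)
  have := T.n2_mul_le x (1 - e.1)
  rwa [mul_sub, mul_one, T.n2_sub_comm] at this

theorem norm_two_le {b x c a : A} (hb : ‖b‖ ≤ 1) (hx : ‖x‖ ≤ 1) (hc : star c = c)
    (ha : star a = a) (h : ∀ z, T.n2 (c * z) ^ 2 + T.n2 (a * z) ^ 2 ≤ T.n2 z ^ 2) :
    ‖c * b * c + a * x * a‖ ≤ 1 := by
  refine T.norm_le_one_of_n2 fun y => n2_le_of_ip T (T.n2_nonneg _) ?_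
  generalize hz : (c * b * c + a * x * a) * y = z
  have e : T.ip z z = T.ip (c * z) (b * (c * y)) + T.ip (a * z) (x * (a * y)) := by
    nth_rw 2 [← hz]
    simp only [add_mul, mul_assoc, T.ip_add_right]
    rw [ip_mul_left T z c, ip_mul_left T z a, hc, ha]
  have h1 := (T.ip_le (c * z) (b * (c * y))).trans (mul_le_mul_of_nonneg_left
    ((T.n2_mul_le b _).trans (mul_le_of_le_one_left (T.n2_nonneg _) hb)) (T.n2_nonneg _))
  have h2 := (T.ip_le (a * z) (x * (a * y))).trans (mul_le_mul_of_nonneg_left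
    ((T.n2_mul_le x _).trans (mul_le_of_le_one_left (T.n2_nonneg _) hx)) (T.n2_nonneg _))
  refine (e.le.trans (add_le_add h1 h2)).trans (abs_le_of_sq_le_sq' ?_
    (mul_nonneg (T.n2_nonneg _) (T.n2_nonneg _))).2
  have h3 := mul_le_mul (h y) (h z) (by positivity) (by positivity)
  nlinarith [sq_nonneg (T.n2 (c * z) * T.n2 (a * y) - T.n2 (a * z) * T.n2 (c * y))]

theorem modulus (S : A →L[ℂ] A)
    (hS : ∀ z, ∀ η > 0, ∃ δ > 0, ∀ x, ‖x‖ ≤ 1 → T.n2 x ≤ δ → T.ip z (S x) ≤ η) {ε : ℝ}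
    (hε : 0 < ε) : ∃ C ≥ 0, ∀ x, T.n2 (S x) ≤ ε * ‖x‖ + C * T.n2 x := by
  suffices h : ∃ δ > 0, ∀ x, ‖x‖ ≤ 1 → T.n2 x ≤ δ → T.n2 (S x) ≤ ε by
    obtain ⟨δ, hδ, h⟩ := h
    refine ⟨‖S‖ / δ, by positivity, fun x => ?_⟩
    have h0 := mul_nonneg (div_nonneg (norm_nonneg S) hδ.le) (T.n2_nonneg x)
    rcases (norm_nonneg x).eq_or_lt with hx | hx
    · simp [norm_eq_zero.1 hx.symm]
    by_cases hd : T.n2 x ≤ δ * ‖x‖
    · have := h (‖x‖⁻¹ • x) (by rw [norm_smul, norm_inv, norm_norm, inv_mul_cancel₀ hx.ne'])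
        (by rw [T.n2_real_smul, abs_of_pos (inv_pos.2 hx), inv_mul_le_iff₀ hx]; linarith)
      rw [S.map_smul_of_tower, T.n2_real_smul, abs_of_pos (inv_pos.2 hx), inv_mul_le_iff₀ hx]
        at this
      linarith
    · have h1 := (T.n2_le_norm _).trans (S.le_opNorm x)
      have h2 : ‖S‖ * ‖x‖ ≤ ‖S‖ / δ * T.n2 x := by
        rw [div_mul_eq_mul_div, le_div_iff₀ hδ]
        nlinarith [norm_nonneg S, not_le.1 hd]
      nlinarith
  let N : Set ℝ := (fun b => T.n2 (S b) ^ 2) '' {b | ‖b‖ ≤ 1}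
  have hN : BddAbove N := ⟨‖S‖ ^ 2, by
    rintro _ ⟨b, hb, rfl⟩
    exact pow_le_pow_left₀ (T.n2_nonneg _) ((T.n2_le_norm _).trans (S.unit_le_opNorm b hb)) 2⟩
  have hη : 0 < ε ^ 2 / 20 := by positivity
  obtain ⟨_, ⟨b, hb, rfl⟩, hbN⟩ := exists_lt_of_lt_csSup (s := N) ⟨_, 0, by simp, rfl⟩
    (sub_lt_self (sSup N) hη)
  obtain ⟨δ, hδ, hz⟩ := hS (S b) _ hη
  obtain ⟨κ, hκ, hκS⟩ : ∃ κ > 0, ‖S‖ * (2 * κ) ≤ ε / 2 :=
    ⟨ε / (4 * (‖S‖ + 1)), by positivity, by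
      rw [← mul_div_assoc, ← mul_div_assoc, div_le_iff₀ (by positivity)]
      nlinarith [norm_nonneg S]⟩
  refine ⟨κ * δ / 2, by positivity, fun x hx hxδ => ?_⟩
  obtain ⟨e, he, he1, he2, hxe, hn, hp⟩ := exists_cutoff T univ ![x, star x] hκ
  have ha : star (1 - e) = 1 - e := by rw [star_sub, star_one, he]
  have h1 : T.n2 (1 - e) ≤ δ := by
    refine abs_le_of_sq_le_sq' (hn.trans ?_) hδ.le |>.2
    simp only [Fin.sum_univ_two, Matrix.cons_val_zero, Matrix.cons_val_one, T.n2_star]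
    rw [div_le_iff₀ (by positivity)]
    nlinarith [pow_le_pow_left₀ (T.n2_nonneg _) hxδ 2, sq_nonneg (κ * δ)]
  have hb1 : ‖b‖ ≤ 1 := hb
  have h2 := hz ((2⁻¹ : ℝ) • (b - e * b * e)) (by
    have h3 := norm_sub_le b (e * b * e)
    have h4 : ‖e * b * e‖ ≤ 1 := (norm_mul_le _ _).trans (mul_le_one₀ ((norm_mul_le _ _).trans
      (mul_le_one₀ he1 (norm_nonneg _) hb1)) (norm_nonneg _) he1)
    rw [norm_smul, Real.norm_eq_abs, abs_of_pos (by norm_num)]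
    linarith) (by
    have e1 : b - e * b * e = (1 - e) * b + e * b * (1 - e) := by noncomm_ring
    have h3 := T.n2_mul_le' (1 - e) b
    have h4 := T.n2_mul_le (e * b) (1 - e)
    have h5 : ‖e * b‖ ≤ 1 := (norm_mul_le _ _).trans (mul_le_one₀ he1 (norm_nonneg _) hb1)
    have h6 := T.n2_add_le ((1 - e) * b) (e * b * (1 - e))
    rw [T.n2_real_smul, abs_of_pos (by norm_num), e1]
    nlinarith [T.n2_nonneg (1 - e)])
  rw [S.map_smul_of_tower, T.ip_smul_right, map_sub, T.ip_sub_right, ← T.n2_sq] at h2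
  have h3 := T.n2_sub_sq (S b) (S (e * b * e))
  have h4 : T.n2 (S (e * b * e + (1 - e) * x * (1 - e))) ^ 2 ≤ sSup N :=
    le_csSup hN ⟨_, norm_two_le T hb1 hx he ha hp, rfl⟩
  have h5 : T.n2 (S (e * b * e + (1 - e) * (-x) * (1 - e))) ^ 2 ≤ sSup N :=
    le_csSup hN ⟨_, norm_two_le T hb1 (by rwa [norm_neg]) he ha hp, rfl⟩
  rw [mul_neg, neg_mul, ← sub_eq_add_neg, map_sub, T.n2_sub_sq] at h5
  rw [map_add, T.n2_add_sq] at h4
  have h6 : T.n2 (S ((1 - e) * x * (1 - e))) ≤ ε / 2 :=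
    abs_le_of_sq_le_sq' (by nlinarith [sq_nonneg (T.n2 (S b - S (e * b * e)))]) (by positivity) |>.2
  have e1 : x = (1 - e) * x * (1 - e) + (star (star x * e) + (1 - e) * (x * e)) := by
    rw [star_mul, star_star, he]; noncomm_ring
  have h7 : ‖star (star x * e) + (1 - e) * (x * e)‖ ≤ 2 * κ := by
    have h8 : ‖x * e‖ ≤ κ := hxe 0 (mem_univ _)
    have h9 : ‖star x * e‖ ≤ κ := hxe 1 (mem_univ _)
    have := norm_add_le (star (star x * e)) ((1 - e) * (x * e))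
    rw [norm_star] at this
    nlinarith [norm_mul_le (1 - e) (x * e), norm_nonneg (x * e)]
  have h8 := (T.n2_le_norm _).trans (S.le_of_opNorm_le_of_le le_rfl h7)
  rw [e1, map_add]
  linarith [T.n2_add_le (S ((1 - e) * x * (1 - e))) (S (star (star x * e) + (1 - e) * (x * e)))]

/-- Averaging operators with a prescribed modulus of continuity. -/
structure Good (C : (A →L[ℂ] A) → ℝ → ℝ) (ρ : (A →L[ℂ] A) → (A →L[ℂ] A)) : Prop
    extends Pre ρ where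
  one : ∀ x, ρ (.id ℂ A) x = x
  mod : ∀ S, ∀ ε > 0, ∀ x, T.n2 (ρ S x) ≤ ε * ‖x‖ + C S ε * T.n2 x

theorem exists_good (hT : WCompact T) : ∃ C ρ, (∀ S ε, 0 ≤ C S ε) ∧ Good T C ρ := by
  obtain ⟨ρ, hρ, h1, h⟩ := exists_normal_weak T hT
  have : ∀ S ε, ∃ C ≥ 0, 0 < ε → ∀ x, T.n2 (ρ S x) ≤ ε * ‖x‖ + C * T.n2 x := fun S ε => by
    by_cases hε : 0 < ε
    · exact (modulus T (ρ S) (h S) hε).imp fun C hC => ⟨hC.1, fun _ => hC.2⟩
    · exact ⟨0, le_rfl, fun h => absurd h hε⟩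
  choose C hC0 hC using this
  exact ⟨C, ρ, hC0, hρ, h1, fun S ε hε => hC S ε hε⟩

theorem Good.lim (hT : WCompact T) {C : (A →L[ℂ] A) → ℝ → ℝ} {ι : Type*} (𝒰 : Ultrafilter ι)
    {F : ι → (A →L[ℂ] A) → (A →L[ℂ] A)} (hF : ∀ i, Good T C (F i)) :
    ∃ ρ, Good T C ρ ∧ ∀ S x, WL T 𝒰 (fun i => F i S x) (ρ S x) := by
  obtain ⟨ρ, hρ, hl⟩ := Pre.lim T hT 𝒰 fun i => (hF i).toPre
  exact ⟨ρ, ⟨hρ, fun x => (hl _ x).unique (by simpa only [(hF _).one] using WL.const x),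
    fun S ε hε x => (hl S x).n2_le (.of_forall fun i => (hF i).mod S ε hε x)⟩, hl⟩

end Vale.Agent.P082.Tc
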