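import Vale.Agent.P082.Glue
import Vale.Agent.P104.CoreE
import Vale.Agent.P104.GoodVNAux

/-! Averages and complete boundedness in the properly infinite case. -/

open scoped InnerProductSpace ComplexOrder Topology
open Filter

namespace Vale.Agent.P082

open Vale.Agent.P104

section Cav

variable {Ω : Type*} [Fintype Ω] {V W : Type*} [AddCommGroup V] [Module ℂ V] [AddCommGroup W]
  [Module ℂ W]

/-- Average with complex scalars. -/
noncomputable def cav (f : Ω → V) : V := (Fintype.card Ω : ℂ)⁻¹ • ∑ ω, f ω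

theorem cav_congr {f g : Ω → V} (h : ∀ ω, f ω = g ω) : cav f = cav g := by rw [funext h]

theorem cav_sub (f g : Ω → V) : cav (fun ω => f ω - g ω) = cav f - cav g := by
  simp only [cav, Finset.sum_sub_distrib, smul_sub]

theorem cav_const [Nonempty Ω] (v : V) : cav (fun _ : Ω => v) = v := by
  have : (Fintype.card Ω : ℂ) ≠ 0 := Nat.cast_ne_zero.2 Fintype.card_ne_zero
  rw [cav, Finset.sum_const, Finset.card_univ, ← Nat.cast_smul_eq_nsmul ℂ, smul_smul,
    inv_mul_cancel₀ this, one_smul]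

theorem map_cav (T : V →ₗ[ℂ] W) (f : Ω → V) : T (cav f) = cav fun ω => T (f ω) := by
  simp only [cav, map_smul, map_sum]

theorem cav_equiv {Ω' : Type*} [Fintype Ω'] (e : Ω ≃ Ω') (f : Ω' → V) :
    cav (fun ω => f (e ω)) = cav f := by
  rw [cav, cav, e.sum_comp, Fintype.card_congr e]

theorem cav_sum {ι : Type*} (s : Finset ι) (f : Ω → ι → V) :
    cav (fun ω => ∑ i ∈ s, f ω i) = ∑ i ∈ s, cav fun ω => f ω i := by
  simp only [cav, ← Finset.smul_sum]
  rw [Finset.sum_comm]

theorem cav_smul (c : Ω → ℂ) (v : V) : cav (fun ω => c ω • v) = cav c • v :=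
  (map_cav (LinearMap.toSpanSingleton ℂ V v) c).symm

theorem norm_cav_le {E : Type*} [SeminormedAddCommGroup E] [NormedSpace ℂ E] [Nonempty Ω]
    {f : Ω → E} {K : ℝ} (h : ∀ ω, ‖f ω‖ ≤ K) : ‖cav f‖ ≤ K := by
  have h0 : (0 : ℝ) < Fintype.card Ω := Nat.cast_pos.2 Fintype.card_pos
  have h1 : ‖∑ ω, f ω‖ ≤ Fintype.card Ω * K := by
    refine (norm_sum_le _ _).trans ((Finset.sum_le_sum fun ω _ => h ω).trans ?_)
    simp
  rw [cav, norm_smul, norm_inv, Complex.norm_natCast, inv_mul_le_iff₀ h0]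
  exact h1

theorem cav_sgn {β : Type*} [Fintype β] [DecidableEq β] (i k : β) :
    cav (fun ε : β → Bool => ((sgn (ε i) : ℂ) * sgn (ε k))) = if i = k then 1 else 0 := by
  have h := congrArg (fun r : ℝ => (r : ℂ)) (avg_sgn i k)
  simp only [avg, smul_eq_mul] at h
  push_cast at h
  rw [cav, smul_eq_mul, h]
  split_ifs <;> simp

theorem norm_sgn (b : Bool) : ‖(sgn b : ℂ)‖ = 1 := by cases b <;> simp [sgn]

end Cav

section Bar

variable {A : Type*} [Ring A] [Algebra ℂ A]

theorem cav_mul_left {Ω : Type*} [Fintype Ω] (c : A) (f : Ω → A) :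
    c * cav f = cav fun ω => c * f ω := map_cav (LinearMap.mulLeft ℂ c) f

theorem cav_mul_right {Ω : Type*} [Fintype Ω] (c : A) (f : Ω → A) :
    cav f * c = cav fun ω => f ω * c := map_cav (LinearMap.mulRight ℂ c) f

theorem dL_cav {Ω : Type*} [Fintype Ω] (f : Ω → List A → A) (a : A) (l : List A) :
    dL (fun m => cav fun ω => f ω m) a l = cav fun ω => dL (f ω) a l := by
  simp only [cav, Algebra.smul_def]
  rw [dL_central (fun x => Algebra.commutes _ x), dL_sum]

theorem bD_cav {Ω : Type*} [Fintype Ω] (g : Ω → List A → A → A) (a : A) (l : List A) (x : A) :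
    bD (fun (T : A → A) b y => T (b * y)) (fun m y => cav fun ω => g ω m y) a l x =
      cav fun ω => bD (fun (T : A → A) b y => T (b * y)) (g ω) a l x := by
  induction l generalizing g a with
  | nil => rfl
  | cons b l ih => simp only [bD_cons, Pi.sub_apply, cav_sub, ih]

omit [Algebra ℂ A] in
theorem bD_last {α β : A → A} (hα : ∀ a b, α (a * b) = α a * α b)
    (hβ : ∀ a y, β (a * y) = α a * β y) (p q : A) (g : List A → A → A) (a : A) (l : List A)
    (x : A) :
    bD (fun (T : A → A) b y => T (b * y)) (fun m y => p * g (m.map α) (β y) * q) a l x =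
      p * bD (fun (T : A → A) b y => T (b * y)) g (α a) (l.map α) (β x) * q := by
  induction l generalizing g a with
  | nil => simp only [bD_nil, List.map_nil, hβ]
  | cons b l ih =>
    have := ih (fun m => g (α a :: m)) b
    simp only [bD_cons, Pi.sub_apply, List.map_cons, hα, this, mul_sub, sub_mul]

end Bar

variable {L : Type*} [NormedAddCommGroup L] [InnerProductSpace ℂ L] [CompleteSpace L]
  {A : Type*} [CStarAlgebra A] {M : VonNeumannAlgebra L} {j : A →⋆ₙₐ[ℂ] (L →L[ℂ] L)}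

theorem mbdd_cav {Ω ι : Type*} [Fintype Ω] [Nonempty Ω] [Fintype ι] {K : ℝ} (hK : 0 ≤ K)
    {W : Ω → ι → ι → A} (h : ∀ ω, MBdd K fun a b => j (W ω a b)) :
    MBdd K fun a b => j (cav fun ω => W ω a b) := by
  refine mbdd_of_inner_le hK fun θ ζ => ?_
  have e : ∑ a, ∑ b, ⟪θ a, j (cav fun ω => W ω a b) (ζ b)⟫_ℂ =
      cav fun ω => ∑ a, ∑ b, ⟪θ a, j (W ω a b) (ζ b)⟫_ℂ := by
    simp only [cav_sum]
    simp only [cav, map_smul, map_sum, smul_apply, sum_apply, inner_smul_right, inner_sum,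
      smul_eq_mul]
  have h1 := norm_cav_le (f := fun ω => ∑ a, ∑ b, ⟪θ a, j (W ω a b) (ζ b)⟫_ℂ)
    (K := K * (∑ a, ‖θ a‖ ^ 2 + ∑ b, ‖ζ b‖ ^ 2) / 2) fun ω => by
      have := (h ω).inner_le hK θ ζ
      linarith
  rw [e]
  linarith

theorem mbdd_lim {κ ι : Type*} [Fintype ι] {U : Filter κ} [U.NeBot] {K : ℝ} (hK : 0 ≤ K)
    {x : κ → ι → ι → A} {y : ι → ι → A} (hw : ∀ a b, WL j U (fun i => x i a b) (y a b))
    (hx : ∀ᶠ i in U, MBdd K fun a b => j (x i a b)) : MBdd K fun a b => j (y a b) := by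
  refine mbdd_of_inner_le hK fun θ ζ => ?_
  have h1 := ((tendsto_finsetSum Finset.univ fun a _ => tendsto_finsetSum Finset.univ fun b _ =>
    hw a b (θ a) (ζ b)).norm).const_mul 2
  exact le_of_tendsto h1 (hx.mono fun i hi => hi.inner_le hK θ ζ)

/-- Orthogonal contractions. -/
def Orth {ι : Type*} (u : ι → A) : Prop :=
  (∀ a, ‖u a‖ ≤ 1) ∧ Pairwise fun a b => star (u a) * u b = 0

theorem Orth.sign {ι : Type*} {u : ι → A} (h : Orth u) (ε : ι → Bool) :
    Orth fun a => (sgn (ε a) : ℂ) • u a :=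
  ⟨fun a => by rw [norm_smul, norm_sgn, one_mul]; exact h.1 a, fun a b hab => by
    simp only [star_smul, smul_mul_assoc, mul_smul_comm, h.2 hab, smul_zero]⟩

theorem Orth.row {ι : Type*} [Fintype ι] {u : ι → A} (h : Orth u) : GRow 1 fun a => j (u a) :=
  grow_of_orth (fun a => (NonUnitalStarAlgHom.norm_apply_le j _).trans (h.1 a)) fun a b hab => by
    beta_reduce
    rw [← map_star, ← map_mul, h.2 hab, map_zero]

theorem norm_compress_le (hj : Function.Injective j) {ι : Type*} [Fintype ι] {u v : ι → A}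
    (hu : Orth u) (hv : Orth v) {x : ι → ι → A} (hx : MBdd 1 fun a b => j (x a b)) :
    ‖∑ a, ∑ b, u a * x a b * star (v b)‖ ≤ 1 := by
  rw [← NonUnitalStarAlgHom.norm_map j hj]
  refine ContinuousLinearMap.opNorm_le_bound _ zero_le_one fun ξ => ?_
  have h1 := hu.row (j := j) fun a => ∑ b, j (x a b) (star (j (v b)) ξ)
  have h2 := hx fun b => star (j (v b)) ξ
  have h3 := (hv.row (j := j)).col ξ
  refine (abs_le_of_sq_le_sq' ?_ (by positivity)).2
  simp only [map_sum, map_mul, map_star, sum_apply, mul_apply_eq_comp] at h1 ⊢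
  simp only [one_pow, one_mul] at h1 h2 h3 ⊢
  linarith

theorem mbdd_rank_one {ι : Type*} [Fintype ι] {u v : ι → A} (hu : Orth u) (hv : Orth v) {y : A}
    {K : ℝ} (hy : ‖y‖ ≤ K) : MBdd K fun a b => j (star (u a) * y * v b) := by
  intro ξ
  have h1 := (hu.row (j := j)).col (j y (∑ b, j (v b) (ξ b)))
  have h2 := (j y).le_of_opNorm_le ((NonUnitalStarAlgHom.norm_apply_le j _).trans hy)
    (∑ b, j (v b) (ξ b))
  have h3 := hv.row (j := j) ξ
  have h4 := pow_le_pow_left₀ (norm_nonneg _) h2 2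
  have h5 := mul_le_mul_of_nonneg_left h3 (sq_nonneg K)
  simp only [map_sum, map_mul, map_star, mul_apply_eq_comp] at h1 h4 ⊢
  simp only [one_pow, one_mul, mul_pow] at h1 h4 h5
  linarith

theorem mbdd_twist (hj : Function.Injective j) {ι : Type*} [Fintype ι] {u v : ι → A}
    (hu : Orth u) (hv : Orth v) (F : A →L[ℂ] A) {K : ℝ} (hF : ‖F‖ ≤ K) {x : ι → ι → A}
    (hx : MBdd 1 fun a b => j (x a b)) :
    MBdd K fun a b => j (star (u a) * F (u a * x a b * star (v b)) * v b) := by
  classical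
  have hK : 0 ≤ K := (norm_nonneg _).trans hF
  have h1 := mbdd_cav (j := j) hK fun ε : ι → Bool => mbdd_cav (j := j) hK fun ε' : ι → Bool =>
    mbdd_rank_one (j := j) (hu.sign ε) (hv.sign ε') ((F.le_of_opNorm_le hF _).trans
      (mul_le_of_le_one_right hK (norm_compress_le hj (hu.sign ε) (hv.sign ε') hx)))
  have e : ∀ a b, (cav fun ε : ι → Bool => cav fun ε' : ι → Bool =>
      star ((sgn (ε a) : ℂ) • u a) * F (∑ c, ∑ d, (sgn (ε c) : ℂ) • u c * x c d *
        star ((sgn (ε' d) : ℂ) • v d)) * (sgn (ε' b) : ℂ) • v b) =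
      star (u a) * F (u a * x a b * star (v b)) * v b := by
    intro a b
    have e1 : ∀ ε ε' : ι → Bool, star ((sgn (ε a) : ℂ) • u a) *
        F (∑ c, ∑ d, (sgn (ε c) : ℂ) • u c * x c d * star ((sgn (ε' d) : ℂ) • v d)) *
        (sgn (ε' b) : ℂ) • v b = ∑ c, ∑ d, ((sgn (ε' b) : ℂ) * sgn (ε' d)) •
          ((sgn (ε a) : ℂ) * sgn (ε c)) • (star (u a) * F (u c * x c d * star (v d)) * v b) := by
      intro ε ε'
      simp only [map_sum, Finset.mul_sum, Finset.sum_mul, star_smul, smul_mul_assoc, mul_smul_comm,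
        map_smul, smul_smul, RCLike.star_def, Complex.conj_ofReal]
      simp only [Finset.smul_sum, smul_smul]
      refine Finset.sum_congr rfl fun c _ => Finset.sum_congr rfl fun d _ => ?_
      congr 1
      ring
    simp only [e1, cav_sum, cav_smul, cav_sgn, ite_smul, one_smul, zero_smul, Finset.sum_ite_eq,
      Finset.mem_univ, if_true]
  simpa only [e] using h1

end Vale.Agent.P082
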