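import Vale.Agent.P082.Walk
import Vale.Agent.P082.Kernel

/-! Peeling the last letter of a random word. -/

namespace Vale.Agent.P082.Tc

open scoped BigOperators
open Finset Vale.Agent.P085 Function

variable {A : Type*} [CStarAlgebra A] {T : Tr A} {α Ω : Type} [Fintype α] [DecidableEq α]
  [Fintype Ω] [Nonempty Ω]

theorem expect_eval (H : Ω → ℝ) (s : α) : 𝔼 ω : α → Ω, H (ω s) = 𝔼 o, H o := by
  rw [Fintype.expect_equiv (Equiv.funSplitAt s Ω) (fun ω => H (ω s)) (fun x => H x.1)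
    fun _ => rfl, ← univ_product_univ, expect_product]
  simp

theorem resample (G : (α → Ω) → Ω → ℝ) (s : α) :
    𝔼 ω : (α → Ω) × (α → Ω), G (update ω.1 s (ω.2 s)) (ω.1 s) = 𝔼 ω, 𝔼 o, G ω o := by
  have inv : Involutive fun ω : (α → Ω) × (α → Ω) =>
      (update ω.1 s (ω.2 s), update ω.2 s (ω.1 s)) := fun ω => by simp
  rw [Fintype.expect_equiv inv.toPerm _ (fun ω => G ω.1 (ω.2 s)) fun ω => by simp,
    ← univ_product_univ, expect_product]
  exact expect_congr rfl fun ω _ => expect_eval (G ω) s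

theorem expect_fst (G : (α → Ω) → ℝ) : 𝔼 ω : (α → Ω) × (α → Ω), G ω.1 = 𝔼 ω, G ω := by
  rw [← univ_product_univ, expect_product]
  simp

/-- The random block diagonal unitary. -/
def bw (p : α → A) (u : Ω → A) (ω : α → Ω) : A := ∑ s, u (ω s) * p s

/-- Difference between a power and its resampled version. -/
def dl (p : α → A) (u : Ω → A) (Z : A) (n : ℕ) (ω : (α → Ω) × (α → Ω)) : A :=
  (bw p u ω.1 * Z) ^ n - ∑ s, (bw p u (update ω.1 s (ω.2 s)) * Z) ^ n * p s

/-- Standing assumptions. -/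
structure Setup (T : Tr A) (S : A →L[ℂ] A) (p : α → A) (u : Ω → A) (Z : A) (θ ε C γ : ℝ)
    (D : ℕ) : Prop where
  part : Part p
  unit : ∀ o, u o ∈ unitary A
  comm : ∀ o s, u o * p s = p s * u o
  modp : ∀ a s, S (a * p s) = S a * p s
  harm : Harm T S u
  close : Close T S u Z θ
  Zu : Z ∈ unitary A
  ε0 : 0 ≤ ε
  C0 : 0 ≤ C
  mod : ∀ x, T.n2 (S x) ≤ ε * ‖x‖ + C * T.n2 x
  γ0 : 0 < γ
  ret : ∀ m < D, 𝔼 ω, ∑ s, T.n2 (p s * (Z * (bw p u ω * Z) ^ m * p s)) ^ 2 ≤ γ ^ 2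

namespace Setup

variable {S : A →L[ℂ] A} {p : α → A} {u : Ω → A} {Z : A} {θ ε C γ : ℝ} {D : ℕ}
  (h : Setup T S p u Z θ ε C γ D)
include h

omit [Nonempty Ω] in
theorem bw_mem (ω : α → Ω) : bw p u ω ∈ unitary A :=
  block_unitary h.part (fun _ => h.unit _) fun _ _ => h.comm _ _

omit [Nonempty Ω] in
theorem pow_mem (ω : α → Ω) (n : ℕ) : (bw p u ω * Z) ^ n ∈ unitary A :=
  _root_.pow_mem (mul_mem (h.bw_mem ω) h.Zu) n

omit [Nonempty Ω] in
theorem p_bw (ω : α → Ω) (s : α) : p s * bw p u ω = p s * u (ω s) := by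
  rw [bw, mul_sum, sum_eq_single s (fun t _ hts => ?_) (by simp), h.comm, ← mul_assoc,
    h.part.idem]
  rw [h.comm, ← mul_assoc, h.part.mul, if_neg (Ne.symm hts), zero_mul]

omit [Nonempty Ω] in
theorem dl_succ (n : ℕ) (ω : (α → Ω) × (α → Ω)) : dl p u Z (n + 1) ω =
    bw p u ω.1 * Z * dl p u Z n ω + ∑ s, p s * ((u (ω.1 s) - u (ω.2 s)) *
      (p s * (Z * (bw p u (update ω.1 s (ω.2 s)) * Z) ^ n)) * p s) := by
  have e : ∀ s, bw p u ω.1 - bw p u (update ω.1 s (ω.2 s)) =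
      p s * ((u (ω.1 s) - u (ω.2 s)) * p s) := fun s => by
    rw [bw, bw, ← sum_sub_distrib, sum_eq_single s (fun t _ hts => by
      rw [update_of_ne hts, sub_self]) (by simp), update_self, sub_mul, h.comm, h.comm, mul_sub,
      ← mul_assoc, ← mul_assoc, h.part.idem]
  simp only [dl, pow_succ', mul_sub _ _ (∑ _, _), mul_sum, sub_add, ← sum_sub_distrib]
  congr 1
  refine sum_congr rfl fun s _ => ?_
  have := congrArg (· * (Z * (bw p u (update ω.1 s (ω.2 s)) * Z) ^ n * p s)) (e s)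
  simp only [sub_mul (bw p u ω.1), mul_assoc] at this ⊢
  rw [← this, sub_sub_cancel]

theorem dl_bound (n : ℕ) (hn : n ≤ D) :
    (∀ ω, ‖dl p u Z n ω‖ ≤ 2 * n) ∧ 𝔼 ω, T.n2 (dl p u Z n ω) ≤ 2 * n * γ := by
  have := T.nontrivial
  induction n with
  | zero => simp [dl, h.part.sum]
  | succ n ih =>
    obtain ⟨ih1, ih2⟩ := ih (by omega)
    have hu : ∀ a b, ‖u a - u b‖ ≤ 2 := fun a b => by
      linarith [norm_sub_le (u a) (u b), unit_norm_le (h.unit a), unit_norm_le (h.unit b)]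
    have hW := fun ω => mul_mem (h.bw_mem ω) h.Zu
    refine ⟨fun ω => ?_, ?_⟩
    · rw [h.dl_succ]
      refine (norm_add_le_of_le ((CStarRing.norm_mem_unitary_mul _ (hW _)).trans_le (ih1 ω))
        (norm_block T h.part _ zero_le_two fun s => ?_)).trans_eq (by push_cast; ring)
      have h1 := norm_mul_le (u (ω.1 s) - u (ω.2 s))
        (p s * (Z * (bw p u (update ω.1 s (ω.2 s)) * Z) ^ n))
      rw [CStarRing.norm_mul_mem_unitary _ (mul_mem h.Zu (h.pow_mem _ n))] at h1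
      nlinarith [hu (ω.1 s) (ω.2 s), h.part.norm_le s, norm_nonneg (p s)]
    · simp only [h.dl_succ]
      refine (expect_le_expect fun ω _ => T.n2_add_le _ _).trans ?_
      simp only [expect_add_distrib, n2_unit_mul T (hW _)]
      refine (add_le_add ih2 (expect_le_of_sq (θ := 2 * γ) (by linarith [h.γ0]) ?_)).trans_eq
        (by push_cast; ring)
      have h1 := mul_le_mul_of_nonneg_left (h.ret n (by omega)) (by norm_num : (0 : ℝ) ≤ 4)
      refine le_trans ?_ (h1.trans_eq (by ring))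
      simp only [pyth_left T h.part, expect_sum_comm, mul_sum]
      refine sum_le_sum fun s _ => ?_
      have h2 := resample (fun ω (_ : Ω) => T.n2 (p s * (Z * (bw p u ω * Z) ^ n * p s)) ^ 2) s
      simp only [Fintype.expect_const] at h2
      rw [← h2, mul_expect]
      refine expect_le_expect fun ω _ => ?_
      simp only [mul_assoc]
      generalize p s * (Z * ((bw p u (update ω.1 s (ω.2 s)) * Z) ^ n * p s)) = a
      have h3 := T.n2_mul_le (p s) ((u (ω.1 s) - u (ω.2 s)) * a)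
      have h4 := T.n2_mul_le (u (ω.1 s) - u (ω.2 s)) a
      have h5 := mul_le_mul_of_nonneg_right (hu (ω.1 s) (ω.2 s)) (T.n2_nonneg a)
      have h6 := mul_le_of_le_one_left (T.n2_nonneg ((u (ω.1 s) - u (ω.2 s)) * a))
        (h.part.norm_le s)
      nlinarith [T.n2_nonneg (p s * ((u (ω.1 s) - u (ω.2 s)) * a))]

omit [Nonempty Ω] in
theorem split (b : A) (n : ℕ) (ω : (α → Ω) × (α → Ω)) :
    b * (bw p u ω.1 * Z) ^ n * bw p u ω.1 = b * dl p u Z n ω * bw p u ω.1 +
      ∑ s, b * (bw p u (update ω.1 s (ω.2 s)) * Z) ^ n * p s * u (ω.1 s) := by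
  simp only [dl, mul_sub, sub_mul, mul_sum, sum_mul, mul_assoc, h.p_bw, sub_add_cancel]

theorem err_le {b : A} (hb : b ∈ unitary A) {n : ℕ} (hn : n ≤ D) {V : (α → Ω) → A}
    (hV : ∀ ω, V ω ∈ unitary A) :
    𝔼 ω, T.n2 (S (b * dl p u Z n ω * V ω.1)) ≤ ε * (2 * D) + C * (2 * D * γ) := by
  have hD : (n : ℝ) ≤ D := Nat.cast_le.2 hn
  obtain ⟨h1, h2⟩ := h.dl_bound n hn
  refine (expect_le_expect (g := fun ω => ε * (2 * D) + C * T.n2 (b * dl p u Z n ω * V ω.1))
    fun ω _ => (h.mod _).trans (add_le_add_left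
    (mul_le_mul_of_nonneg_left ?_ h.ε0) _)).trans ?_
  · rw [CStarRing.norm_mul_mem_unitary _ (hV _), CStarRing.norm_mem_unitary_mul _ hb]
    linarith [h1 ω]
  · simp only [expect_add_distrib, Fintype.expect_const, ← mul_expect, n2_mul_unit T (hV _),
      n2_unit_mul T hb]
    exact add_le_add_right (mul_le_mul_of_nonneg_left (by nlinarith [h.γ0]) h.C0) _

theorem peelW {b : A} (hb : b ∈ unitary A) (d : A) {n : ℕ} (hn : n ≤ D) :
    |𝔼 ω, qf T S d (b * (bw p u ω * Z) ^ n * bw p u ω) - 𝔼 ω, qf T S d (b * (bw p u ω * Z) ^ n)| ≤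
      ‖d‖ * (ε * (2 * D) + C * (2 * D * γ) + ‖S‖ * (1 + 2 * D) * (2 * D * γ)) := by
  have := T.nontrivial
  have hD : (n : ℝ) ≤ D := Nat.cast_le.2 hn
  obtain ⟨h1, h2⟩ := h.dl_bound n hn
  let y := fun (ω : (α → Ω) × (α → Ω)) =>
    ∑ s, b * (bw p u (update ω.1 s (ω.2 s)) * Z) ^ n * p s * u (ω.1 s)
  have e1 : 𝔼 ω, qf T S d (y ω) = 𝔼 ω, qf T S d (b * (bw p u ω * Z) ^ n) := by
    have e2 : ∀ a : α → A, qf T S d (∑ s, a s * p s) = ∑ s, qf T S d (a s * p s) := fun a => by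
      simp only [qf, map_sum, mul_sum, h.modp, ← mul_assoc, ip_right T h.part]
    have e3 : ∀ x, qf T S d x = ∑ s, qf T S d (x * p s) := fun x => by
      rw [← e2, ← mul_sum, h.part.sum, mul_one]
    simp only [y, mul_assoc _ (p _), ← h.comm, ← mul_assoc _ (u _), e2, expect_sum_comm]
    simp only [e3 (b * _ ^ n), expect_sum_comm]
    refine sum_congr rfl fun s _ => ?_
    rw [resample (fun ω o => qf T S d (b * (bw p u ω * Z) ^ n * u o * p s)) s]
    refine expect_congr rfl fun ω _ => ?_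
    simp only [qf, mul_assoc _ (u _), h.comm]
    simpa only [mul_assoc] using h.harm (b * (bw p u ω * Z) ^ n * p s)
      (d * (b * (bw p u ω * Z) ^ n * p s))
  rw [← e1, ← expect_fst, ← expect_sub_distrib]
  refine (abs_expect_le _ _).trans ((expect_le_expect (g := fun ω => ‖d‖ *
    (T.n2 (S (b * dl p u Z n ω * bw p u ω.1)) + ‖S‖ * (1 + 2 * D) * T.n2 (dl p u Z n ω)))
    fun ω _ => ?_).trans ?_)
  · have hx := mul_mem (mul_mem hb (h.pow_mem ω.1 n)) (h.bw_mem ω.1)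
    have hΔ : ‖b * dl p u Z n ω * bw p u ω.1‖ ≤ 2 * D := by
      rw [CStarRing.norm_mul_mem_unitary _ (h.bw_mem _), CStarRing.norm_mem_unitary_mul _ hb]
      linarith [h1 ω]
    have hΔ' : T.n2 (b * dl p u Z n ω * bw p u ω.1) = T.n2 (dl p u Z n ω) := by
      rw [n2_mul_unit T (h.bw_mem _), n2_unit_mul T hb]
    have hs : b * (bw p u ω.1 * Z) ^ n * bw p u ω.1 = b * dl p u Z n ω * bw p u ω.1 + y ω :=
      h.split b n ω
    rw [← hΔ']
    generalize b * dl p u Z n ω * bw p u ω.1 = Δ at hs hΔ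
    generalize b * (bw p u ω.1 * Z) ^ n * bw p u ω.1 = x at hs hx
    have hy : ‖y ω‖ ≤ 1 + 2 * D := by
      rw [← sub_eq_iff_eq_add'] at hs
      linarith [hs ▸ norm_sub_le x Δ, unit_norm_le hx]
    have e2 : qf T S d x - qf T S d (y ω) = T.ip (d * x) (S Δ) + T.ip (d * Δ) (S (y ω)) := by
      simp only [qf, hs, map_add, mul_add, T.ip_add_left, T.ip_add_right]
      ring
    have h3 := (T.abs_ip_le (d * x) (S Δ)).trans (mul_le_mul_of_nonneg_right
      ((n2_mul_unit T hx d).trans_le (T.n2_le_norm d)) (T.n2_nonneg _))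
    have h4 := (T.abs_ip_le_norm (d * Δ) (S (y ω))).trans (mul_le_mul (T.n2_mul_le d Δ)
      (S.le_of_opNorm_le_of_le le_rfl hy) (norm_nonneg _)
      (mul_nonneg (norm_nonneg _) (T.n2_nonneg _)))
    rw [e2]
    linarith [abs_add_le (T.ip (d * x) (S Δ)) (T.ip (d * Δ) (S (y ω)))]
  · rw [← mul_expect, expect_add_distrib, ← mul_expect]
    exact mul_le_mul_of_nonneg_left (add_le_add (h.err_le hb hn h.bw_mem)
      (mul_le_mul_of_nonneg_left (by nlinarith [h.γ0]) (by positivity))) (norm_nonneg _)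

theorem peelZ {b : A} (hb : b ∈ unitary A) (d : A) {n : ℕ} (hn : n ≤ D) :
    |𝔼 ω, qf T S d (b * (bw p u ω * Z) ^ (n + 1)) -
      𝔼 ω, qf T S d (b * (bw p u ω * Z) ^ n * bw p u ω)| ≤
      ‖d‖ * (2 * (ε * (2 * D) + C * (2 * D * γ)) + Fintype.card α * θ) := by
  have := T.nontrivial
  rw [← expect_sub_distrib, ← expect_fst]
  refine (abs_expect_le _ _).trans ((expect_le_expect (g := fun ω => ‖d‖ *
    (T.n2 (S (b * dl p u Z n ω * (bw p u ω.1 * Z))) + T.n2 (S (b * dl p u Z n ω * bw p u ω.1)) +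
      ∑ s, T.n2 (S (b * (bw p u (update ω.1 s (ω.2 s)) * Z) ^ n * p s * u (ω.1 s) * Z) -
        S (b * (bw p u (update ω.1 s (ω.2 s)) * Z) ^ n * p s * u (ω.1 s)) * Z)))
    fun ω _ => ?_).trans ?_)
  · have hx := mul_mem (mul_mem hb (h.pow_mem ω.1 n)) (h.bw_mem ω.1)
    rw [pow_succ, ← mul_assoc, ← mul_assoc, ← mul_assoc]
    have hs := h.split b n ω
    generalize b * dl p u Z n ω * bw p u ω.1 = Δ at hs
    generalize b * (bw p u ω.1 * Z) ^ n * bw p u ω.1 = x at hs hx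
    have e2 : qf T S d (x * Z) - qf T S d x = T.ip (d * (x * Z)) (S (x * Z) - S x * Z) := by
      rw [T.ip_sub_right, ip_mul_right, mul_assoc, mul_assoc, h.Zu.2, mul_one, qf, qf]
    rw [e2]
    refine (T.abs_ip_le _ _).trans (mul_le_mul ((n2_mul_unit T (mul_mem hx h.Zu) d).trans_le
      (T.n2_le_norm d)) ?_ (T.n2_nonneg _) (norm_nonneg _))
    rw [hs, add_mul, map_add, map_add, add_mul, add_sub_add_comm, sum_mul, map_sum, map_sum,
      sum_mul, ← sum_sub_distrib, ← n2_mul_unit T h.Zu (S Δ)]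
    exact (T.n2_add_le _ _).trans (add_le_add (T.n2_sub_le _ _) (n2_sum_le T _ _))
  · rw [← mul_expect, expect_add_distrib, expect_add_distrib, expect_sum_comm,
      two_mul (ε * (2 * D) + C * (2 * D * γ)), ← nsmul_eq_mul, ← card_univ, ← sum_const]
    refine mul_le_mul_of_nonneg_left (add_le_add (add_le_add
      (h.err_le hb hn (V := fun ω => bw p u ω * Z) fun ω => mul_mem (h.bw_mem ω) h.Zu)
      (h.err_le hb hn h.bw_mem))
      (sum_le_sum fun s _ => ?_)) (norm_nonneg _)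
    rw [resample (fun ω o => T.n2 (S (b * (bw p u ω * Z) ^ n * p s * u o * Z) -
      S (b * (bw p u ω * Z) ^ n * p s * u o) * Z)) s]
    refine expect_le univ_nonempty fun ω _ => h.close _ ?_
    rw [CStarRing.norm_mem_unitary_mul _ (mul_mem hb (h.pow_mem ω n))]
    exact h.part.norm_le s

theorem peel {b : A} (hb : b ∈ unitary A) (d : A) {E : ℝ}
    (h1 : ‖d‖ * (ε * (2 * D) + C * (2 * D * γ) + ‖S‖ * (1 + 2 * D) * (2 * D * γ)) ≤ E)
    (h2 : ‖d‖ * (2 * (ε * (2 * D) + C * (2 * D * γ)) + Fintype.card α * θ) ≤ E) (n : ℕ)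
    (hn : n ≤ D) : |𝔼 ω, qf T S d (b * (bw p u ω * Z) ^ n) - qf T S d b| ≤ 2 * n * E ∧
      |𝔼 ω, qf T S d (b * (bw p u ω * Z) ^ n * bw p u ω) - qf T S d b| ≤ (2 * n + 1) * E := by
  have key : |𝔼 ω, qf T S d (b * (bw p u ω * Z) ^ n) - qf T S d b| ≤ 2 * n * E := by
    induction n with
    | zero => simp
    | succ n ih =>
      have := abs_le.1 (ih (by omega))
      have := abs_le.1 ((h.peelW hb d (n := n) (by omega)).trans h1)
      have := abs_le.1 ((h.peelZ hb d (n := n) (by omega)).trans h2)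
      rw [abs_le]
      push_cast
      constructor <;> linarith
  have := abs_le.1 key
  have := abs_le.1 ((h.peelW hb d hn).trans h1)
  refine ⟨key, abs_le.2 ⟨by linarith, by linarith⟩⟩

end Setup

end Vale.Agent.P082.Tc
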