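import Vale.Agent.P085.Khin
import Vale.Agent.P104.Defs

/-! Basic facts on tracial algebras: orthogonality, weak limits, soft cutoffs. -/

namespace Vale.Agent.P082.Tc

open scoped BigOperators ComplexConjugate ComplexOrder
open Finset Filter Topology Vale.Agent.P085

variable {A : Type*} [CStarAlgebra A] (T : Tr A)

theorem ip_mul_left (y a x : A) : T.ip y (a * x) = T.ip (star a * y) x := by
  simp [Tr.ip, mul_assoc]

theorem ip_mul_right (y a x : A) : T.ip y (x * a) = T.ip (y * star a) x := by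
  rw [Tr.ip, Tr.ip, star_mul, star_star, ← mul_assoc, T.comm, mul_assoc]

theorem ip_csmul (y x : A) (c : ℂ) : T.ip y (c • x) = T.ip (conj c • y) x := by
  simp [Tr.ip]

theorem ip_zero_right (y : A) : T.ip y 0 = 0 := by simp [Tr.ip]

theorem ip_neg_right (y x : A) : T.ip y (-x) = -T.ip y x := by simp [Tr.ip]

theorem ip_sum_left {ι : Type*} (s : Finset ι) (x : A) (y : ι → A) :
    T.ip (∑ i ∈ s, y i) x = ∑ i ∈ s, T.ip (y i) x := by
  simp [Tr.ip, Finset.sum_mul]

/-- Uniform average of a finite family. -/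
noncomputable def avg {ι V : Type*} [Fintype ι] [AddCommGroup V] [Module ℝ V] (f : ι → V) : V :=
  (Fintype.card ι : ℝ)⁻¹ • ∑ i, f i

theorem expect_eq {ι : Type*} [Fintype ι] (f : ι → ℝ) :
    𝔼 i, f i = (Fintype.card ι : ℝ)⁻¹ * ∑ i, f i := by
  rw [expect_eq_sum_div_card, card_univ, div_eq_inv_mul]

theorem ip_avg {ι : Type*} [Fintype ι] (x : A) (y : ι → A) :
    T.ip x (avg y) = 𝔼 i, T.ip x (y i) := by
  rw [avg, expect_eq, T.ip_smul_right, T.ip_sum_right]

theorem n2_unit_mul {u : A} (hu : u ∈ unitary A) (x : A) : T.n2 (u * x) = T.n2 x := by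
  rw [← sq_eq_sq₀ (T.n2_nonneg _) (T.n2_nonneg _), T.n2_sq, T.n2_sq, ip_mul_left, ← mul_assoc,
    hu.1, one_mul]

theorem n2_mul_unit {u : A} (hu : u ∈ unitary A) (x : A) : T.n2 (x * u) = T.n2 x := by
  rw [← T.n2_star, star_mul, n2_unit_mul T (Unitary.star_mem hu), T.n2_star]

theorem n2_le_of_ip {z : A} {c : ℝ} (hc : 0 ≤ c) (h : T.ip z z ≤ c * T.n2 z) : T.n2 z ≤ c := by
  rw [← T.n2_sq] at h
  by_contra hlt
  nlinarith [not_le.1 hlt, T.n2_nonneg z]

theorem norm_le_of_n2 {z : A} {c : ℝ} (hc : 0 ≤ c) (h : ∀ x, T.n2 (z * x) ≤ c * T.n2 x) :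
    ‖z‖ ≤ c := by
  refine le_of_forall_pos_le_add fun ε hε => ?_
  have hp : 0 < c + ε := by positivity
  have := T.norm_le_one_of_n2 (z := (c + ε)⁻¹ • z) fun x => by
    rw [smul_mul_assoc, T.n2_real_smul, abs_of_pos (inv_pos.2 hp), inv_mul_le_iff₀ hp]
    nlinarith [h x, T.n2_nonneg x]
  rwa [norm_smul, Real.norm_eq_abs, abs_of_pos (inv_pos.2 hp), inv_mul_le_iff₀ hp, mul_one] at this

theorem n2_sum_le {ι : Type*} (s : Finset ι) (f : ι → A) :
    T.n2 (∑ i ∈ s, f i) ≤ ∑ i ∈ s, T.n2 (f i) := by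
  simp only [Tr.n2, map_sum]
  exact norm_sum_le _ _

theorem n2_avg_le {ι : Type*} [Fintype ι] (f : ι → A) : T.n2 (avg f) ≤ 𝔼 i, T.n2 (f i) := by
  rw [avg, expect_eq, T.n2_real_smul, abs_of_nonneg (by positivity)]
  exact mul_le_mul_of_nonneg_left (n2_sum_le T _ f) (by positivity)

theorem norm_avg_le {ι : Type*} [Fintype ι] [Nonempty ι] (f : ι → A) {c : ℝ}
    (h : ∀ i, ‖f i‖ ≤ c) : ‖avg f‖ ≤ c := by
  refine le_trans ?_ (expect_le univ_nonempty fun i _ => h i)
  rw [avg, expect_eq, norm_smul, Real.norm_eq_abs, abs_of_nonneg (by positivity)]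
  exact mul_le_mul_of_nonneg_left (norm_sum_le _ _) (by positivity)

section proj

variable {α : Type*} [Fintype α] [DecidableEq α]

/-- A partition of unity into projections. -/
structure Part (p : α → A) : Prop where
  mul : ∀ s t, p s * p t = if s = t then p s else 0
  star : ∀ s, star (p s) = p s
  sum : ∑ s, p s = 1

variable {p : α → A}

theorem Part.idem (h : Part p) (s : α) : p s * p s = p s := by simpa using h.mul s s

theorem Part.norm_le (h : Part p) (s : α) : ‖p s‖ ≤ 1 :=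
  IsStarProjection.norm_le _ ⟨h.idem s, h.star s⟩

theorem ip_left (h : Part p) (a b : α → A) :
    T.ip (∑ s, p s * a s) (∑ s, p s * b s) = ∑ s, T.ip (p s * a s) (p s * b s) := by
  rw [ip_sum_left]
  refine sum_congr rfl fun s _ => ?_
  rw [T.ip_sum_right, sum_eq_single s (fun t _ hts => ?_) (by simp)]
  rw [ip_mul_left, h.star, ← mul_assoc, h.mul, if_neg hts, zero_mul, T.ip_comm, ip_zero_right]

theorem ip_right (h : Part p) (a b : α → A) :
    T.ip (∑ s, a s * p s) (∑ s, b s * p s) = ∑ s, T.ip (a s * p s) (b s * p s) := by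
  rw [ip_sum_left]
  refine sum_congr rfl fun s _ => ?_
  rw [T.ip_sum_right, sum_eq_single s (fun t _ hts => ?_) (by simp)]
  rw [ip_mul_right, h.star, mul_assoc, h.mul, if_neg (Ne.symm hts), mul_zero, T.ip_comm,
    ip_zero_right]

theorem pyth_left (h : Part p) (a : α → A) :
    T.n2 (∑ s, p s * a s) ^ 2 = ∑ s, T.n2 (p s * a s) ^ 2 := by
  simp only [T.n2_sq, ip_left T h]

theorem sum_left (h : Part p) (x : A) : ∑ s, T.n2 (p s * x) ^ 2 = T.n2 x ^ 2 := by
  rw [← pyth_left T h, ← sum_mul, h.sum, one_mul]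

include T in
theorem norm_block (h : Part p) (a : α → A) {c : ℝ} (hc : 0 ≤ c) (ha : ∀ s, ‖a s‖ ≤ c) :
    ‖∑ s, p s * (a s * p s)‖ ≤ c := by
  refine norm_le_of_n2 T hc fun x => ?_
  rw [← sq_le_sq₀ (T.n2_nonneg _) (mul_nonneg hc (T.n2_nonneg _)), sum_mul]
  simp only [mul_assoc]
  rw [pyth_left T h, mul_pow, ← sum_left T h x, mul_sum]
  refine sum_le_sum fun s _ => ?_
  rw [← mul_pow]
  refine pow_le_pow_left₀ (T.n2_nonneg _) ?_ 2
  have h1 := T.n2_mul_le (p s) (a s * (p s * x))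
  have h2 := T.n2_mul_le (a s) (p s * x)
  have h3 := mul_le_mul_of_nonneg_right (ha s) (T.n2_nonneg (p s * x))
  nlinarith [h.norm_le s, T.n2_nonneg (a s * (p s * x))]

theorem block_unitary (h : Part p) {u : α → A} (hu : ∀ s, u s ∈ unitary A)
    (hc : ∀ s t, u s * p t = p t * u s) : ∑ s, u s * p s ∈ unitary A := by
  have key : ∀ a b : α → A, (∀ s, a s * b s = 1) → (∀ s t, b s * p t = p t * b s) →
      (∑ s, a s * p s) * ∑ s, b s * p s = 1 := fun a b hab hb => by
    rw [sum_mul, ← h.sum]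
    refine sum_congr rfl fun s _ => ?_
    rw [mul_sum, sum_eq_single s (fun t _ hts => ?_) (by simp)]
    · rw [hb, mul_assoc, ← mul_assoc (p s), h.idem, ← hb, ← mul_assoc, hab, one_mul]
    · rw [hb, mul_assoc, ← mul_assoc (p s), h.mul, if_neg (Ne.symm hts), zero_mul, mul_zero]
  have hc' : ∀ s t, star (u s) * p t = p t * star (u s) := fun s t => by
    simpa [h.star] using congrArg star (hc s t).symm
  have e : star (∑ s, u s * p s) = ∑ s, star (u s) * p s := by
    simp only [star_sum, star_mul, h.star, hc']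
  rw [Unitary.mem_iff, e]
  exact ⟨key _ _ (fun s => (hu s).1) hc, key _ _ (fun s => (hu s).2) hc'⟩

end proj

/-- Bounded ultrafilters converge weakly. -/
def WCompact : Prop :=
  ∀ (𝒰 : Ultrafilter A) (C : ℝ), (∀ᶠ x in (𝒰 : Filter A), ‖x‖ ≤ C) →
    ∃ z, ∀ y, Tendsto (fun x => T.ip y x) 𝒰 (𝓝 (T.ip y z))

/-- Weak limit along a filter. -/
def WL {ι : Type*} (l : Filter ι) (x : ι → A) (z : A) : Prop :=
  ∀ y, Tendsto (fun i => T.ip y (x i)) l (𝓝 (T.ip y z))

section WL

variable {T} {ι : Type*} {l : Filter ι} {x x' : ι → A} {z z' : A}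

theorem WCompact.exists (h : WCompact T) (𝒰 : Ultrafilter ι) (x : ι → A) {C : ℝ}
    (hx : ∀ i, ‖x i‖ ≤ C) : ∃ z, WL T 𝒰 x z :=
  h (𝒰.map x) C (Eventually.of_forall (f := (𝒰 : Filter ι)) hx)

theorem WL.unique [l.NeBot] (h : WL T l x z) (h' : WL T l x z') : z = z' := by
  have := tendsto_nhds_unique (h (z - z')) (h' (z - z'))
  rw [← sub_eq_zero, ← T.ip_sub_right, ← T.n2_sq] at this
  exact sub_eq_zero.1 (T.eq_zero_of_n2 (pow_eq_zero_iff two_ne_zero |>.1 this))

theorem WL.const (z : A) : WL T l (fun _ => z) z := fun _ => tendsto_const_nhds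

theorem WL.add (h : WL T l x z) (h' : WL T l x' z') : WL T l (fun i => x i + x' i) (z + z') :=
  fun y => by simpa only [T.ip_add_right] using (h y).add (h' y)

theorem WL.sub (h : WL T l x z) (h' : WL T l x' z') : WL T l (fun i => x i - x' i) (z - z') :=
  fun y => by simpa only [T.ip_sub_right] using (h y).sub (h' y)

theorem WL.smul (h : WL T l x z) (c : ℂ) : WL T l (fun i => c • x i) (c • z) :=
  fun y => by simpa only [ip_csmul] using h _

theorem WL.mul_left (h : WL T l x z) (a : A) : WL T l (fun i => a * x i) (a * z) :=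
  fun y => by simpa only [ip_mul_left] using h _

theorem WL.mul_right (h : WL T l x z) (a : A) : WL T l (fun i => x i * a) (z * a) :=
  fun y => by simpa only [ip_mul_right] using h _

theorem WL.avg {κ : Type*} [Fintype κ] {x : κ → ι → A} {z : κ → A}
    (h : ∀ k, WL T l (x k) (z k)) : WL T l (fun i => avg fun k => x k i) (avg z) := fun y => by
  simp only [ip_avg, expect_eq]
  exact (tendsto_finsetSum _ fun k _ => h k y).const_mul _

theorem WL.n2_le [l.NeBot] (h : WL T l x z) {c : ℝ} (hc : ∀ᶠ i in l, T.n2 (x i) ≤ c) :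
    T.n2 z ≤ c := by
  obtain ⟨i, hi⟩ := hc.exists
  refine n2_le_of_ip T ((T.n2_nonneg _).trans hi) (le_of_tendsto (h z) (hc.mono fun i hi => ?_))
  have := T.ip_le z (x i)
  nlinarith [T.n2_nonneg z]

theorem WL.norm_le [l.NeBot] (h : WL T l x z) {c : ℝ} (hc : ∀ i, ‖x i‖ ≤ c) : ‖z‖ ≤ c := by
  obtain ⟨i⟩ := l.nonempty_of_neBot
  exact norm_le_of_n2 T ((norm_nonneg _).trans (hc i)) fun y =>
    (h.mul_right y).n2_le (.of_forall fun i => (T.n2_mul_le _ _).trans
      (mul_le_mul_of_nonneg_right (hc i) (T.n2_nonneg _)))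

theorem WL.of_n2 (h : Tendsto (fun i => T.n2 (x i - z)) l (𝓝 0)) : WL T l x z := fun y => by
  rw [tendsto_iff_norm_sub_tendsto_zero]
  refine squeeze_zero (fun _ => norm_nonneg _) (fun i => ?_) (by simpa using h.const_mul (T.n2 y))
  rw [← T.ip_sub_right]
  exact T.abs_ip_le _ _

end WL

theorem exists_ultra {ι X : Type*} (P : ι → X → Prop)
    (h : ∀ F : Finset ι, ∃ x, ∀ i ∈ F, P i x) : ∃ 𝒰 : Ultrafilter X, ∀ i, ∀ᶠ x in 𝒰, P i x := by
  classical
  choose f hf using h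
  refine ⟨(Ultrafilter.of (atTop : Filter (Finset ι))).map f, fun i => ?_⟩
  have : ∀ᶠ F in (Ultrafilter.of (atTop : Filter (Finset ι)) : Filter (Finset ι)), P i (f F) :=
    Ultrafilter.of_le _ ((eventually_ge_atTop {i}).mono fun F hF =>
      hf F i (hF (mem_singleton_self i)))
  exact this

/-- Soft cutoff killing a finite family that is small in the two-norm. -/
theorem exists_cutoff {ι : Type*} (s : Finset ι) (x : ι → A) {η : ℝ} (hη : 0 < η) :
    ∃ e : A, star e = e ∧ ‖e‖ ≤ 1 ∧ ‖1 - e‖ ≤ 1 ∧ (∀ i ∈ s, ‖x i * e‖ ≤ η) ∧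
      T.n2 (1 - e) ^ 2 ≤ (∑ i ∈ s, T.n2 (x i) ^ 2) / η ^ 2 ∧
      ∀ z, T.n2 (e * z) ^ 2 + T.n2 ((1 - e) * z) ^ 2 ≤ T.n2 z ^ 2 := by
  let := CStarAlgebra.spectralOrder A
  have := CStarAlgebra.spectralOrderedRing A
  have := T.nontrivial
  obtain ⟨h, hh⟩ : ∃ h, h = ∑ i ∈ s, star (x i) * x i := ⟨_, rfl⟩
  have h0 : 0 ≤ h := hh ▸ sum_nonneg fun i _ => star_mul_self_nonneg _
  have hs : IsSelfAdjoint h := h0.isSelfAdjoint
  have hsp : ∀ t ∈ spectrum ℝ h, 0 ≤ t := fun t ht => spectrum_nonneg_of_nonneg h0 ht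
  obtain ⟨f, hf, hf0, hf1, hfm⟩ : ∃ f : ℝ → ℝ, Continuous f ∧ (∀ t, 0 ≤ f t) ∧ (∀ t, f t ≤ 1) ∧
      ∀ t, f t * (η ^ 2 + |t|) = η ^ 2 :=
    ⟨fun t => η ^ 2 / (η ^ 2 + |t|),
      Continuous.div continuous_const (by fun_prop) fun t => by positivity, fun t => by positivity,
      fun t => (div_le_one (by positivity)).2 (le_add_of_nonneg_right (abs_nonneg _)),
      fun t => div_mul_cancel₀ _ (by positivity)⟩
  have he : IsSelfAdjoint (cfc f h) := cfc_predicate _ _
  have e1 : 1 - cfc f h = cfc (fun t => 1 - f t) h := by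
    rw [cfc_sub .., cfc_const_one ℝ h]
  refine ⟨cfc f h, he, norm_cfc_le zero_le_one fun t _ => ?_, ?_, fun i hi => ?_, ?_, fun z => ?_⟩
  · rw [Real.norm_eq_abs, abs_of_nonneg (hf0 t)]; exact hf1 t
  · rw [e1]
    refine norm_cfc_le zero_le_one fun t _ => ?_
    rw [Real.norm_eq_abs, abs_le]
    constructor <;> linarith [hf0 t, hf1 t]
  · have h1 : star (x i) * x i ≤ h :=
      hh ▸ single_le_sum (f := fun i => star (x i) * x i) (fun i _ => star_mul_self_nonneg _) hi
    have h2 := CStarAlgebra.norm_le_norm_of_nonneg_of_le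
      (star_left_conjugate_nonneg (star_mul_self_nonneg (x i)) (cfc f h))
      (star_left_conjugate_le_conjugate h1 (cfc f h))
    have h3 : star (cfc f h) * h * cfc f h = cfc (fun t => f t * t * f t) h := by
      rw [he.star_eq, cfc_mul .., cfc_mul .., cfc_id' ℝ h]
    have h4 : ‖cfc (fun t => f t * t * f t) h‖ ≤ η ^ 2 := norm_cfc_le (by positivity) fun t ht => by
      have := hfm t
      rw [abs_of_nonneg (hsp t ht)] at this
      rw [Real.norm_eq_abs, abs_of_nonneg (mul_nonneg (mul_nonneg (hf0 t) (hsp t ht)) (hf0 t))]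
      nlinarith [hf0 t, hf1 t, hsp t ht, mul_nonneg (hf0 t) (hsp t ht),
        mul_nonneg (hf0 t) (sq_nonneg η)]
    rw [h3, ← mul_assoc, ← star_mul, mul_assoc, CStarRing.norm_star_mul_self] at h2
    rw [← sq_le_sq₀ (norm_nonneg _) hη.le]
    linarith [sq ‖x i * cfc f h‖]
  · have h1 := T.re_τ_cfc_nonneg (h := h) (fun t => (η ^ 2)⁻¹ * t - (1 - f t) * (1 - f t))
      fun t ht => by
        have := hfm t
        rw [abs_of_nonneg (hsp t ht)] at this
        have h2 : 1 - f t ≤ (η ^ 2)⁻¹ * t := by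
          rw [le_inv_mul_iff₀ (by positivity)]
          nlinarith [mul_le_mul_of_nonneg_right (hf1 t) (hsp t ht)]
        nlinarith [hf0 t, hf1 t]
    rw [cfc_sub .., cfc_mul (fun t => 1 - f t) _ h, ← e1, cfc_const_mul_id _ h, map_sub,
      Complex.sub_re, ← Complex.coe_smul, map_smul, smul_eq_mul, Complex.re_ofReal_mul] at h1
    have h2 : (T.τ h).re = ∑ i ∈ s, T.n2 (x i) ^ 2 := by
      simp only [hh, map_sum, Complex.re_sum, T.n2_sq, Tr.ip]
    rw [T.n2_sq, Tr.ip, star_sub, star_one, he.star_eq, div_eq_inv_mul, ← h2]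
    linarith
  · have h1 : 0 ≤ cfc (fun t => f t * (1 - f t)) h :=
      cfc_nonneg fun t _ => mul_nonneg (hf0 t) (sub_nonneg.2 (hf1 t))
    rw [cfc_mul .., ← e1] at h1
    obtain ⟨c, hc⟩ := CStarAlgebra.nonneg_iff_eq_star_mul_self.1 h1
    have h2 := T.n2_add_sq (cfc f h * z) ((1 - cfc f h) * z)
    rw [← add_mul, add_sub_cancel, one_mul, T.ip_comm, ip_mul_left, he.star_eq, ← mul_assoc, hc,
      mul_assoc, T.ip_comm, ip_mul_left, star_star, ← T.n2_sq] at h2
    nlinarith [sq_nonneg (T.n2 (c * z))]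

end Vale.Agent.P082.Tc
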