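import Vale.Agent.P082.TrBasic

/-! Random walks of unitaries and harmonic maps. -/

namespace Vale.Agent.P082.Tc

open scoped BigOperators
open Finset Vale.Agent.P085

variable {A : Type*} [CStarAlgebra A] (T : Tr A) {κ : Type} [Fintype κ] [Nonempty κ]

/-- The Markov operator of the walk. -/
noncomputable def mk (g : κ → A) (φ : A → ℝ) (x : A) : ℝ := 𝔼 i, φ (x * g i)

/-- Product of the first `k` letters. -/
def pfx (g : κ → A) {K : ℕ} (k : ℕ) (f : Fin K → κ) : A :=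
  ((List.ofFn fun i => g (f i)).take k).prod

omit [Nonempty κ] in
theorem expect_cons {K : ℕ} (G : (Fin (K + 1) → κ) → ℝ) :
    𝔼 f, G f = 𝔼 a, 𝔼 f : Fin K → κ, G (Fin.cons a f) := by
  rw [← expect_product', univ_product_univ]
  exact (Fintype.expect_equiv (Fin.consEquiv fun _ => κ) _ _ fun _ => rfl).symm

omit [Fintype κ] [Nonempty κ] in
theorem pfx_cons (g : κ → A) {K : ℕ} (k : ℕ) (a : κ) (f : Fin K → κ) :
    pfx g (k + 1) (Fin.cons a f : Fin (K + 1) → κ) = g a * pfx g k f := by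
  simp [pfx, List.ofFn_succ]

theorem walk_fwd (g : κ → A) (φ : A → ℝ) (K : ℕ) : ∀ k ≤ K, ∀ x,
    𝔼 f : Fin K → κ, φ (x * pfx g k f) = (mk g)^[k] φ x := by
  induction K with
  | zero => rintro k hk x; simp [Nat.le_zero.1 hk, pfx]
  | succ K ih =>
    rintro (_ | k) hk x
    · simp [pfx]
    · rw [expect_cons, Function.iterate_succ_apply', mk]
      simp only [pfx_cons, ← mul_assoc, ih k (by omega)]

theorem walk_bwd {g : κ → A} (σ : κ ≃ κ) (hσ : ∀ i, g (σ i) = star (g i)) (K : ℕ) :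
    ∀ k ≤ K, ∀ (φ : A → ℝ) x, 𝔼 f : Fin K → κ, φ (x * star (pfx g k f)) = (mk g)^[k] φ x := by
  induction K with
  | zero => rintro k hk φ x; simp [Nat.le_zero.1 hk, pfx]
  | succ K ih =>
    rintro (_ | k) hk φ x
    · simp [pfx]
    · rw [expect_cons, Function.iterate_succ_apply, expect_comm, ← ih k (by omega)]
      refine expect_congr rfl fun f _ => ?_
      simp only [pfx_cons, star_mul, ← mul_assoc, ← hσ, mk]
      exact Fintype.expect_equiv σ _ _ fun _ => rfl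

/-- Harmonic maps. -/
def Harm {Ω : Type} [Fintype Ω] (S : A →L[ℂ] A) (u : Ω → A) : Prop :=
  ∀ x y, 𝔼 ω, T.ip (y * u ω) (S (x * u ω)) = T.ip y (S x)

/-- The local energy. -/
noncomputable def en (S : A →L[ℂ] A) (g : κ → A) (a : A) : ℝ :=
  𝔼 i, T.n2 (S (a * g i) - S a * g i) ^ 2

/-- The defect of modularity at `b` is controlled by the local energy. -/
def Near (S : A →L[ℂ] A) (g : κ → A) (b : A) : Prop :=
  ∃ C ≥ 0, ∀ a, T.n2 (S (a * b) - S a * b) ^ 2 ≤ C * en T S g a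

variable {T} {S : A →L[ℂ] A} {g : κ → A}

omit [Nonempty κ] in
theorem en_nonneg (a : A) : 0 ≤ en T S g a := expect_nonneg fun _ _ => sq_nonneg _

theorem Near.gen (i : κ) : Near T S g (g i) := ⟨Fintype.card κ, Nat.cast_nonneg _, fun a => by
  rw [en, expect_eq, ← mul_assoc, mul_inv_cancel₀ (by simp), one_mul]
  exact single_le_sum (f := fun i => T.n2 (S (a * g i) - S a * g i) ^ 2)
    (fun _ _ => sq_nonneg _) (mem_univ i)⟩

omit [Nonempty κ] in
theorem Near.zero : Near T S g 0 := ⟨0, le_rfl, fun a => by simp⟩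

omit [Nonempty κ] in
theorem Near.add {b c : A} (hb : Near T S g b) (hc : Near T S g c) : Near T S g (b + c) := by
  obtain ⟨B, hB0, hB⟩ := hb
  obtain ⟨C, hC0, hC⟩ := hc
  refine ⟨2 * B + 2 * C, by positivity, fun a => ?_⟩
  have h := T.n2_add_le (S (a * b) - S a * b) (S (a * c) - S a * c)
  rw [← add_sub_add_comm, ← map_add, ← mul_add, ← mul_add] at h
  nlinarith [pow_le_pow_left₀ (T.n2_nonneg _) h 2, hB a, hC a,
    sq_nonneg (T.n2 (S (a * b) - S a * b) - T.n2 (S (a * c) - S a * c))]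

omit [Nonempty κ] in
theorem Near.mul_right {b m : A} (hb : Near T S g b) (hm : ∀ a, S (a * m) = S a * m) :
    Near T S g (b * m) := by
  obtain ⟨B, hB0, hB⟩ := hb
  refine ⟨B * ‖m‖ ^ 2, by positivity, fun a => ?_⟩
  rw [← mul_assoc, hm, ← mul_assoc, ← sub_mul, mul_right_comm]
  refine (pow_le_pow_left₀ (T.n2_nonneg _) (T.n2_mul_le' _ _) 2).trans ?_
  rw [mul_pow]
  exact mul_le_mul_of_nonneg_right (hB a) (sq_nonneg _)

omit [Nonempty κ] in
theorem Near.smul {b : A} (hb : Near T S g b) (c : ℂ) : Near T S g (c • b) := by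
  have := hb.mul_right (m := c • 1) fun a => by
    rw [mul_smul_comm, mul_smul_comm, mul_one, mul_one, map_smul]
  rwa [mul_smul_comm, mul_one] at this

omit [Nonempty κ] in
theorem Near.mul_left {b m : A} (hb : Near T S g b) (hm : ∀ a, S (a * m) = S a * m)
    (hc : ∀ i, m * g i = g i * m) : Near T S g (m * b) := by
  obtain ⟨B, hB0, hB⟩ := hb
  refine ⟨B * ‖m‖ ^ 2, by positivity, fun a => ?_⟩
  rw [← mul_assoc, ← mul_assoc, ← hm, mul_assoc B]
  refine (hB _).trans (mul_le_mul_of_nonneg_left ?_ hB0)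
  rw [en, en, mul_expect]
  refine expect_le_expect fun i _ => ?_
  rw [mul_assoc, hc, ← mul_assoc, hm, hm, mul_assoc _ m, hc, ← mul_assoc, ← sub_mul, ← mul_pow,
    mul_comm ‖m‖]
  exact pow_le_pow_left₀ (T.n2_nonneg _) (T.n2_mul_le' _ _) 2

theorem en_eq (hg : ∀ i, g i ∈ unitary A) (hS : Harm T S g) (a : A) :
    en T S g a = mk g (fun x => T.n2 (S x) ^ 2) a - T.n2 (S a) ^ 2 := by
  have h := hS a (S a)
  simp only [en, mk, T.n2_sub_sq, n2_mul_unit T (hg _), expect_add_distrib, expect_sub_distrib,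
    ← mul_expect, T.ip_comm (S (a * g _)), h, ← T.n2_sq, Fintype.expect_const]
  ring

theorem of_walk (hg : ∀ i, g i ∈ unitary A) (hS : Harm T S g) {Ω : Type} [Fintype Ω] {K : ℕ}
    [NeZero K] {u : Ω → A}
    (hu : ∀ (φ : A → ℝ) x, 𝔼 ω, φ (x * u ω) = 𝔼 k : Fin K, (mk g)^[k] φ x) :
    Harm T S u ∧ ∀ x, ‖x‖ ≤ 1 → 𝔼 ω, en T S g (x * u ω) ≤ ‖S‖ ^ 2 / K := by
  have := T.nontrivial
  refine ⟨fun x y => ?_, fun x hx => ?_⟩
  · have h1 : mk g (fun a => T.ip (y * a) (S (x * a))) = fun a => T.ip (y * a) (S (x * a)) :=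
      funext fun a => by simpa only [mk, ← mul_assoc] using hS (x * a) (y * a)
    simpa [Function.iterate_fixed h1] using hu (fun a => T.ip (y * a) (S (x * a))) 1
  · have h1 : ∀ k x, ‖x‖ ≤ 1 → (mk g)^[k] (fun x => T.n2 (S x) ^ 2) x ≤ ‖S‖ ^ 2 := by
      intro k
      induction k with
      | zero => exact fun x hx => pow_le_pow_left₀ (T.n2_nonneg _)
                  ((T.n2_le_norm _).trans (S.unit_le_opNorm x hx)) 2
      | succ k ih =>
        intro x hx
        rw [Function.iterate_succ_apply']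
        exact expect_le univ_nonempty fun i _ => ih _ (by rwa [CStarRing.norm_mul_mem_unitary _ (hg i)])
    simp only [en_eq hg hS, expect_sub_distrib]
    rw [hu, hu (fun x => T.n2 (S x) ^ 2), ← expect_sub_distrib, expect_eq, Fintype.card_fin,
      div_eq_inv_mul]
    refine mul_le_mul_of_nonneg_left ?_ (by positivity)
    simp only [← Function.iterate_succ_apply]
    rw [Fin.sum_univ_eq_sum_range (fun k => (mk g)^[k + 1] (fun x => T.n2 (S x) ^ 2) x -
      (mk g)^[k] (fun x => T.n2 (S x) ^ 2) x),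
      sum_range_sub fun k => (mk g)^[k] (fun x => T.n2 (S x) ^ 2) x]
    linarith [h1 K x hx, sq_nonneg (T.n2 (S x)), show (mk g)^[0] (fun x => T.n2 (S x) ^ 2) x =
      T.n2 (S x) ^ 2 from rfl]

theorem expect_le_of_sq {Ω : Type} [Fintype Ω] [Nonempty Ω] {f : Ω → ℝ} {θ : ℝ} (hθ : 0 < θ)
    (h : 𝔼 ω, f ω ^ 2 ≤ θ ^ 2) : 𝔼 ω, f ω ≤ θ := by
  have h1 := expect_le_expect (s := univ) fun ω _ =>
    show 2 * θ * f ω ≤ θ ^ 2 + f ω ^ 2 by nlinarith [sq_nonneg (θ - f ω)]
  rw [← mul_expect, expect_add_distrib, Fintype.expect_const] at h1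
  nlinarith

/-- After a step of `u`, the map `S` is almost modular over `Z`. -/
def Close {Ω : Type} [Fintype Ω] (T : Tr A) (S : A →L[ℂ] A) (u : Ω → A) (Z : A) (θ : ℝ) : Prop :=
  ∀ x, ‖x‖ ≤ 1 → 𝔼 ω, T.n2 (S (x * u ω * Z) - S (x * u ω) * Z) ≤ θ

theorem exists_walk (hg : ∀ i, g i ∈ unitary A) (σ : κ ≃ κ) (hσ : ∀ i, g (σ i) = star (g i))
    (hS : Harm T S g) {J : Type} [Fintype J] {Z : J → A} (hZ : ∀ j, Near T S g (Z j)) {θ : ℝ}
    (hθ : 0 < θ) : ∃ (Ω : Type) (_ : Fintype Ω) (_ : Nonempty Ω) (u : Ω → A),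
      (∀ Q : Submonoid A, (∀ i, g i ∈ Q) → ∀ ω, u ω ∈ Q) ∧ Harm T S u ∧
      Harm T S (fun ω => star (u ω)) ∧
      ∀ j, Close T S u (Z j) θ ∧ Close T S (fun ω => star (u ω)) (Z j) θ := by
  choose C hC0 hC using hZ
  obtain ⟨K, hK⟩ := exists_nat_gt ((∑ j, C j) * ‖S‖ ^ 2 / θ ^ 2)
  have hK0 : (0 : ℝ) < K := lt_of_le_of_lt (by have := sum_nonneg fun j (_ : j ∈ univ) => hC0 j
                                               positivity) hK
  have : NeZero K := ⟨by exact_mod_cast hK0.ne'⟩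
  have key : ∀ u : Fin K × (Fin K → κ) → A,
      (∀ x, ‖x‖ ≤ 1 → 𝔼 ω, en T S g (x * u ω) ≤ ‖S‖ ^ 2 / K) → ∀ j, Close T S u (Z j) θ :=
    fun u hu j x hx => expect_le_of_sq hθ <| by
      refine (expect_le_expect fun ω _ => hC j (x * u ω)).trans ?_
      rw [← mul_expect]
      refine (mul_le_mul (single_le_sum (fun j _ => hC0 j) (mem_univ j)) (hu x hx)
        (expect_nonneg fun _ _ => en_nonneg _) (sum_nonneg fun j _ => hC0 j)).trans ?_
      rw [div_lt_iff₀ (by positivity)] at hK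
      rw [← mul_div_assoc, div_le_iff₀ hK0]
      linarith
  have h1 := of_walk hg hS (K := K) (u := fun ω : Fin K × (Fin K → κ) => pfx g ω.1 ω.2)
    fun φ x => by
      rw [← univ_product_univ, expect_product]
      exact expect_congr rfl fun k _ => walk_fwd g φ K k k.2.le x
  have h2 := of_walk hg hS (K := K) (u := fun ω : Fin K × (Fin K → κ) => star (pfx g ω.1 ω.2))
    fun φ x => by
      rw [← univ_product_univ, expect_product]
      exact expect_congr rfl fun k _ => walk_bwd σ hσ K k k.2.le φ x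
  refine ⟨Fin K × (Fin K → κ), inferInstance, inferInstance, fun ω => pfx g ω.1 ω.2,
    fun Q hQ ω => list_prod_mem fun a ha => ?_, h1.1, h2.1, fun j => ⟨key _ h1.2 j, key _ h2.2 j⟩⟩
  obtain ⟨i, rfl⟩ := List.mem_ofFn.1 (List.mem_of_mem_take ha)
  exact hQ _

end Vale.Agent.P082.Tc
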